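import Vale.Agent.Lib.P161.Limit

/-!
Independence of disjoint blocks of coordinates for the product noise, and the computations at a
single site: the tilted law of the observations at a site has mean `ε t / 3` and a law of large
numbers holds.
-/

open MeasureTheory Finset

noncomputable section
namespace Vale.Agent.Lib.P161

section block
variable {ι : Type} [DecidableEq ι]

/-- `F` depends only on the coordinates in `Q`. -/
def Dep (Q : Finset ι) (F : (ι → ℝ) → ℝ) : Prop := ∀ R R' : ι → ℝ, (∀ j ∈ Q, R j = R' j) → F R = F R'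

lemma Dep.update {Q : Finset ι} {F : (ι → ℝ) → ℝ} (h : Dep Q F) {j : ι} (hj : j ∉ Q) (R : ι → ℝ)
    (t : ℝ) : F (Function.update R j t) = F R := by
  apply h
  intro l hl
  have : l ≠ j := fun e => hj (e ▸ hl)
  rw [Function.update_of_ne this]

lemma Dep.avg {Q : Finset ι} {F : (ι → ℝ) → ℝ} {j : ι} (h : Dep (insert j Q) F) :
    Dep Q (avg j F) := by
  intro R R' hR
  unfold Vale.Agent.Lib.P161.avg
  congr 1
  funext t
  apply h
  intro l hl
  by_cases hlj : l = j
  · subst hlj; simp
  · rw [Function.update_of_ne hlj, Function.update_of_ne hlj]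
    exact hR l (Finset.mem_of_mem_insert_of_ne hl hlj)

/-- Independence of two blocks. -/
theorem block_mul {Q₁ Q₂ : Finset ι} (hd : Disjoint Q₁ Q₂) {F₁ F₂ : (ι → ℝ) → ℝ}
    (h₁ : Measurable F₁) (h₂ : Measurable F₂) {C₁ C₂ : ℝ} (b₁ : ∀ R, |F₁ R| ≤ C₁)
    (b₂ : ∀ R, |F₂ R| ≤ C₂) (d₁ : Dep Q₁ F₁) (d₂ : Dep Q₂ F₂) :
    ∫ R, F₁ R * F₂ R ∂noise ι = (∫ R, F₁ R ∂noise ι) * ∫ R, F₂ R ∂noise ι := by
  induction Q₁ using Finset.induction_on generalizing F₁ C₁ with
  | empty =>
    have hc : ∀ R, F₁ R = F₁ (fun _ => 0) := fun R => d₁ R _ (by simp)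
    simp only [hc]
    rw [integral_const_mul, integral_const]
    simp [Measure.real]
  | insert j Q' hj ih =>
    have hd' : Disjoint Q' Q₂ := Finset.disjoint_of_subset_left (Finset.subset_insert _ _) hd
    have hj₂ : j ∉ Q₂ := Finset.disjoint_left.1 hd (Finset.mem_insert_self j Q')
    have h3 := ih hd' (measurable_avg j h₁) (abs_avg_le j b₁) d₁.avg
    have h4 := integral_avg_mul j h₁ h₂ b₁ b₂ (fun R t => d₂.update hj₂ R t)
    rw [← h4, h3, integral_resample j h₁ b₁]
    rfl

/-- Independence of finitely many blocks. -/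
theorem block_prod {α : Type} (s : Finset α) (Q : α → Finset ι)
    (hd : ∀ a ∈ s, ∀ b ∈ s, a ≠ b → Disjoint (Q a) (Q b)) {F : α → (ι → ℝ) → ℝ}
    (hm : ∀ a, Measurable (F a)) {C : α → ℝ} (hb : ∀ a R, |F a R| ≤ C a)
    (hdep : ∀ a, Dep (Q a) (F a)) :
    ∫ R, ∏ a ∈ s, F a R ∂noise ι = ∏ a ∈ s, ∫ R, F a R ∂noise ι := by
  classical
  induction s using Finset.induction_on with
  | empty =>
    simp
  | insert a s ha ih =>
    have hd' : ∀ a ∈ s, ∀ b ∈ s, a ≠ b → Disjoint (Q a) (Q b) := fun x hx y hy =>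
      hd x (Finset.mem_insert_of_mem hx) y (Finset.mem_insert_of_mem hy)
    have h1 : Disjoint (Q a) (s.biUnion Q) := by
      rw [Finset.disjoint_biUnion_right]
      intro b hb'
      exact hd a (Finset.mem_insert_self a s) b (Finset.mem_insert_of_mem hb')
        (fun e => ha (e ▸ hb'))
    have hdp : Dep (s.biUnion Q) (fun R => ∏ b ∈ s, F b R) := by
      intro R R' hR
      refine Finset.prod_congr rfl fun b hb' => ?_
      apply hdep b
      intro l hl
      exact hR l (Finset.mem_biUnion.2 ⟨b, hb', hl⟩)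
    have hbp : ∀ R, |∏ b ∈ s, F b R| ≤ ∏ b ∈ s, C b := by
      intro R
      rw [Finset.abs_prod]
      exact Finset.prod_le_prod (fun _ _ => abs_nonneg _) fun b _ => hb b R
    have hmp : Measurable (fun R => ∏ b ∈ s, F b R) := Finset.measurable_prod _ fun b _ => hm b
    simp only [Finset.prod_insert ha]
    rw [block_mul h1 (hm a) hmp (hb a) hbp (hdep a) hdp, ih hd']

/-- Integrating a function of one coordinate. -/
lemma integral_coord (j : ι) {g : ℝ → ℝ} (hg : Measurable g) {C : ℝ} (hb : ∀ t, |g t| ≤ C) :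
    ∫ R, g (R j) ∂noise ι = ∫ t, g t ∂lam := by
  have hm : Measurable (fun R : ι → ℝ => g (R j)) := hg.comp (measurable_pi_apply j)
  rw [integral_resample j hm (fun R => hb _)]
  simp only [Function.update_self]
  rw [integral_const]
  simp [Measure.real]

/-- Splitting off one coordinate. -/
lemma integral_mul_coord (j : ι) {F : (ι → ℝ) → ℝ} (hF : Measurable F) {C : ℝ}
    (hb : ∀ R, |F R| ≤ C) (hind : ∀ R t, F (Function.update R j t) = F R) {g : ℝ → ℝ}
    (hg : Measurable g) {D : ℝ} (hbg : ∀ t, |g t| ≤ D) :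
    ∫ R, F R * g (R j) ∂noise ι = (∫ R, F R ∂noise ι) * ∫ t, g t ∂lam := by
  have hC : 0 ≤ C := (abs_nonneg _).trans (hb (fun _ => 0))
  have hm : Measurable (fun R : ι → ℝ => F R * g (R j)) :=
    hF.mul (hg.comp (measurable_pi_apply j))
  rw [integral_resample j hm (C := C * D) (fun R => by
    rw [abs_mul]; exact mul_le_mul (hb R) (hbg _) (abs_nonneg _) hC)]
  simp only [Function.update_self, hind]
  simp only [integral_const_mul]
  rw [integral_mul_const]

end block

section site
set_option linter.unusedSectionVars false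
variable {V : Type} [DecidableEq V]

/-- the density of the first `N` observations at `v` under the spin `t` -/
def Dens (ε t : ℝ) (v : V) (N : ℕ) (R : ℕ × V → ℝ) : ℝ :=
  ∏ i ∈ Finset.range N, (1 + ε * t * cl (R (i, v)))

/-- the empirical mean of the first `N` (clamped) observations at `v` -/
def Wv (v : V) (N : ℕ) (y : ℕ × V → ℝ) : ℝ :=
  (N : ℝ)⁻¹ * ∑ i ∈ Finset.range N, cl (y (i, v))

lemma continuous_Wv (v : V) (N : ℕ) : Continuous (Wv v N) := by
  unfold Wv
  refine continuous_const.mul (continuous_finsetSum _ fun i _ => ?_)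
  exact continuous_cl.comp (continuous_apply (i, v))

lemma measurable_Wv (v : V) (N : ℕ) : Measurable (Wv v N) := by
  unfold Wv
  refine measurable_const.mul (Finset.measurable_sum _ fun i _ => ?_)
  exact measurable_cl.comp (measurable_pi_apply (i, v))

lemma abs_Wv_le (v : V) (N : ℕ) (y : ℕ × V → ℝ) : |Wv v N y| ≤ 1 := by
  unfold Wv
  rw [abs_mul, abs_of_nonneg (by positivity : (0 : ℝ) ≤ (N : ℝ)⁻¹)]
  have h1 : |∑ i ∈ Finset.range N, cl (y (i, v))| ≤ N := by
    refine (Finset.abs_sum_le_sum_abs _ _).trans ?_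
    refine (Finset.sum_le_sum fun i _ => abs_cl_le _).trans ?_
    simp
  by_cases hN : N = 0
  · subst hN; simp
  · have hN' : (0 : ℝ) < N := by positivity
    calc (N : ℝ)⁻¹ * _ ≤ (N : ℝ)⁻¹ * N := by gcongr
      _ = 1 := inv_mul_cancel₀ hN'.ne'

lemma measurable_Dens (ε t : ℝ) (v : V) (N : ℕ) : Measurable (Dens ε t v N) := by
  unfold Dens
  refine Finset.measurable_prod _ fun i _ => ?_
  exact measurable_const.add (measurable_const.mul (measurable_cl.comp (measurable_pi_apply (i, v))))

lemma density_nonneg {ε t : ℝ} (h : |ε * t| ≤ 1) (x : ℝ) : 0 ≤ 1 + ε * t * cl x := by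
  have h2 := abs_le.1 h
  have h3 := abs_le.1 (abs_cl_le x)
  nlinarith

lemma density_le {ε t : ℝ} (h : |ε * t| ≤ 1) (x : ℝ) : |1 + ε * t * cl x| ≤ 2 := by
  have h2 : |ε * t * cl x| ≤ 1 := by
    rw [abs_mul]
    calc |ε * t| * |cl x| ≤ 1 * 1 := mul_le_mul h (abs_cl_le x) (abs_nonneg _) (by norm_num)
      _ = 1 := by norm_num
  calc _ ≤ |(1 : ℝ)| + |ε * t * cl x| := abs_add_le _ _
    _ ≤ 2 := by rw [abs_one]; linarith

lemma Dens_nonneg {ε t : ℝ} (h : |ε * t| ≤ 1) (v : V) (N : ℕ) (R : ℕ × V → ℝ) :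
    0 ≤ Dens ε t v N R :=
  Finset.prod_nonneg fun _ _ => density_nonneg h _

lemma abs_Dens_le {ε t : ℝ} (h : |ε * t| ≤ 1) (v : V) (N : ℕ) (R : ℕ × V → ℝ) :
    |Dens ε t v N R| ≤ 2 ^ N := by
  unfold Dens
  rw [Finset.abs_prod]
  calc _ ≤ ∏ _i ∈ Finset.range N, (2 : ℝ) :=
        Finset.prod_le_prod (fun _ _ => abs_nonneg _) fun _ _ => density_le h _
    _ = 2 ^ N := by simp

lemma Dens_succ (ε t : ℝ) (v : V) (N : ℕ) (R : ℕ × V → ℝ) :
    Dens ε t v (N + 1) R = Dens ε t v N R * (1 + ε * t * cl (R (N, v))) := by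
  unfold Dens
  rw [Finset.prod_range_succ]

lemma Dens_update (ε t : ℝ) {v : V} {N : ℕ} (R : ℕ × V → ℝ) (x : ℝ) :
    Dens ε t v N (Function.update R (N, v) x) = Dens ε t v N R := by
  unfold Dens
  refine Finset.prod_congr rfl fun i hi => ?_
  have : (i, v) ≠ (N, v) := by
    intro e
    have h := congrArg Prod.fst e
    simp only at h
    have := Finset.mem_range.1 hi
    omega
  rw [Function.update_of_ne this]

lemma measurable_density (c : ℝ) : Measurable (fun x : ℝ => 1 + c * cl x) :=
  measurable_const.add (measurable_const.mul measurable_cl)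

/-- the total mass of the density -/
lemma integral_Dens {ε t : ℝ} (h : |ε * t| ≤ 1) (v : V) (N : ℕ) :
    ∫ R, Dens ε t v N R ∂noise (ℕ × V) = 1 := by
  induction N with
  | zero =>
    simp [Dens]
  | succ N ih =>
    simp only [Dens_succ]
    rw [integral_mul_coord (N, v) (g := fun x => 1 + ε * t * cl x) (measurable_Dens ε t v N)
      (abs_Dens_le h v N) (fun R x => Dens_update ε t R x) (measurable_density _) (density_le h),
      ih, integral_density, one_mul]

/-- the sum of the centred observations -/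
def Tv (a : ℝ) (v : V) (N : ℕ) (R : ℕ × V → ℝ) : ℝ :=
  ∑ i ∈ Finset.range N, (cl (R (i, v)) - a)

lemma measurable_Tv (a : ℝ) (v : V) (N : ℕ) : Measurable (Tv a v N) := by
  unfold Tv
  refine Finset.measurable_sum _ fun i _ => ?_
  exact (measurable_cl.comp (measurable_pi_apply (i, v))).sub measurable_const

lemma abs_Tv_le {a : ℝ} (ha : |a| ≤ 1) (v : V) (N : ℕ) (R : ℕ × V → ℝ) :
    |Tv a v N R| ≤ 2 * N := by
  unfold Tv
  refine (Finset.abs_sum_le_sum_abs _ _).trans ?_
  calc _ ≤ ∑ _i ∈ Finset.range N, (2 : ℝ) := Finset.sum_le_sum fun i _ =>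
        (abs_sub _ _).trans (by linarith [abs_cl_le (R (i, v))])
    _ = 2 * N := by simp; ring

lemma Tv_succ (a : ℝ) (v : V) (N : ℕ) (R : ℕ × V → ℝ) :
    Tv a v (N + 1) R = Tv a v N R + (cl (R (N, v)) - a) := by
  unfold Tv
  rw [Finset.sum_range_succ]

lemma Tv_update (a : ℝ) {v : V} {N M : ℕ} (hNM : N ≤ M) (R : ℕ × V → ℝ) (x : ℝ) :
    Tv a v N (Function.update R (M, v) x) = Tv a v N R := by
  unfold Tv
  refine Finset.sum_congr rfl fun i hi => ?_
  have : (i, v) ≠ (M, v) := by
    intro e
    have h := congrArg Prod.fst e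
    simp only at h
    have := Finset.mem_range.1 hi
    omega
  rw [Function.update_of_ne this]

/-- the first moment of the centred sum vanishes -/
lemma integral_Tv_Dens {ε t : ℝ} (h : |ε * t| ≤ 1) (v : V) (N : ℕ) :
    ∫ R, Tv (ε * t / 3) v N R * Dens ε t v N R ∂noise (ℕ × V) = 0 := by
  set a := ε * t / 3 with ha
  have ha1 : |a| ≤ 1 := by
    rw [ha, abs_div]
    have : |(3 : ℝ)| = 3 := by norm_num
    rw [this]
    linarith
  induction N with
  | zero =>
    simp [Tv]
  | succ N ih =>
    have hD := measurable_Dens ε t v N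
    have hT := measurable_Tv a v N
    have hcl : Measurable (fun x : ℝ => (cl x - a) * (1 + ε * t * cl x)) :=
      (measurable_cl.sub measurable_const).mul (measurable_density _)
    have hTD : ∀ R, |Tv a v N R * Dens ε t v N R| ≤ (2 * N) * 2 ^ N := fun R => by
      rw [abs_mul]
      exact mul_le_mul (abs_Tv_le ha1 v N R) (abs_Dens_le h v N R) (abs_nonneg _) (by positivity)
    have hbcl : ∀ x : ℝ, |(cl x - a) * (1 + ε * t * cl x)| ≤ 2 * 2 := fun x => by
      rw [abs_mul]
      refine mul_le_mul ((abs_sub _ _).trans (by linarith [abs_cl_le x])) (density_le h x)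
        (abs_nonneg _) (by norm_num)
    have e1 : ∀ R : ℕ × V → ℝ, Tv a v (N + 1) R * Dens ε t v (N + 1) R
        = Tv a v N R * Dens ε t v N R * (1 + ε * t * cl (R (N, v)))
          + Dens ε t v N R * ((cl (R (N, v)) - a) * (1 + ε * t * cl (R (N, v)))) := by
      intro R
      rw [Tv_succ, Dens_succ]
      ring
    simp only [e1]
    have i1 : Integrable (fun R : ℕ × V → ℝ =>
        Tv a v N R * Dens ε t v N R * (1 + ε * t * cl (R (N, v)))) (noise (ℕ × V)) :=
      intg ((hT.mul hD).mul ((measurable_density (ε * t)).comp (measurable_pi_apply (N, v))))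
        (C := (2 * N) * 2 ^ N * 2) (fun R => by
          rw [abs_mul]
          exact mul_le_mul (hTD R) (density_le h _) (abs_nonneg _) (by positivity))
    have i2 : Integrable (fun R : ℕ × V → ℝ =>
        Dens ε t v N R * ((cl (R (N, v)) - a) * (1 + ε * t * cl (R (N, v))))) (noise (ℕ × V)) :=
      intg (hD.mul (hcl.comp (measurable_pi_apply (N, v)))) (C := 2 ^ N * (2 * 2)) (fun R => by
        rw [abs_mul]
        exact mul_le_mul (abs_Dens_le h v N R) (hbcl _) (abs_nonneg _) (by positivity))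
    rw [integral_add i1 i2]
    rw [integral_mul_coord (N, v) (F := fun R => Tv a v N R * Dens ε t v N R)
      (g := fun x => 1 + ε * t * cl x) (hT.mul hD) hTD
      (fun R x => by simp only [Tv_update a le_rfl, Dens_update]) (measurable_density _)
      (density_le h)]
    rw [integral_mul_coord (N, v) (g := fun x => (cl x - a) * (1 + ε * t * cl x)) hD
      (abs_Dens_le h v N) (fun R x => Dens_update ε t R x) hcl hbcl]
    rw [ih, integral_density]
    have e2 : ∫ x, (cl x - a) * (1 + ε * t * cl x) ∂lam = 0 := by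
      have e3 : (fun x => (cl x - a) * (1 + ε * t * cl x))
          = fun x => cl x * (1 + ε * t * cl x) - a * (1 + ε * t * cl x) := by
        funext x; ring
      have i3 : Integrable (fun x => cl x * (1 + ε * t * cl x)) lam :=
        intg (measurable_cl.mul (measurable_density _)) (C := 1 * 2) (fun x => by
          rw [abs_mul]
          exact mul_le_mul (abs_cl_le x) (density_le h x) (abs_nonneg _) (by norm_num))
      have i4 : Integrable (fun x => a * (1 + ε * t * cl x)) lam :=
        intg ((measurable_density _).const_mul a) (C := |a| * 2) (fun x => by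
          rw [abs_mul]
          exact mul_le_mul_of_nonneg_left (density_le h x) (abs_nonneg _))
      rw [e3, integral_sub i3 i4, integral_y_density, integral_const_mul, integral_density, ha]
      ring
    rw [e2]
    ring

/-- the second moment of the centred sum -/
lemma integral_Tv_sq_Dens {ε t : ℝ} (h : |ε * t| ≤ 1) (v : V) (N : ℕ) :
    ∫ R, Tv (ε * t / 3) v N R ^ 2 * Dens ε t v N R ∂noise (ℕ × V) ≤ 4 * N := by
  set a := ε * t / 3 with ha
  have ha1 : |a| ≤ 1 := by
    rw [ha, abs_div]
    have : |(3 : ℝ)| = 3 := by norm_num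
    rw [this]
    linarith
  induction N with
  | zero =>
    simp [Tv]
  | succ N ih =>
    have hD := measurable_Dens ε t v N
    have hT := measurable_Tv a v N
    have hbT2 : ∀ R, |Tv a v N R ^ 2 * Dens ε t v N R| ≤ (2 * N) ^ 2 * 2 ^ N := fun R => by
      rw [abs_mul, abs_pow]
      exact mul_le_mul (pow_le_pow_left₀ (abs_nonneg _) (abs_Tv_le ha1 v N R) 2)
        (abs_Dens_le h v N R) (abs_nonneg _) (by positivity)
    have hTD : ∀ R, |Tv a v N R * Dens ε t v N R| ≤ (2 * N) * 2 ^ N := fun R => by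
      rw [abs_mul]
      exact mul_le_mul (abs_Tv_le ha1 v N R) (abs_Dens_le h v N R) (abs_nonneg _) (by positivity)
    have hcl1 : Measurable (fun x : ℝ => (cl x - a) * (1 + ε * t * cl x)) :=
      (measurable_cl.sub measurable_const).mul (measurable_density _)
    have hcl2 : Measurable (fun x : ℝ => (cl x - a) ^ 2 * (1 + ε * t * cl x)) :=
      ((measurable_cl.sub measurable_const).pow_const 2).mul (measurable_density _)
    have hbcl1 : ∀ x : ℝ, |(cl x - a) * (1 + ε * t * cl x)| ≤ 2 * 2 := fun x => by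
      rw [abs_mul]
      refine mul_le_mul ((abs_sub _ _).trans (by linarith [abs_cl_le x])) (density_le h x)
        (abs_nonneg _) (by norm_num)
    have hbcl2 : ∀ x : ℝ, |(cl x - a) ^ 2 * (1 + ε * t * cl x)| ≤ 2 ^ 2 * 2 := fun x => by
      rw [abs_mul, abs_pow]
      refine mul_le_mul (pow_le_pow_left₀ (abs_nonneg _)
        ((abs_sub _ _).trans (by linarith [abs_cl_le x])) 2) (density_le h x)
        (abs_nonneg _) (by norm_num)
    have e1 : ∀ R : ℕ × V → ℝ, Tv a v (N + 1) R ^ 2 * Dens ε t v (N + 1) R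
        = Tv a v N R ^ 2 * Dens ε t v N R * (1 + ε * t * cl (R (N, v)))
          + 2 * (Tv a v N R * Dens ε t v N R * ((cl (R (N, v)) - a) * (1 + ε * t * cl (R (N, v)))))
          + Dens ε t v N R * ((cl (R (N, v)) - a) ^ 2 * (1 + ε * t * cl (R (N, v)))) := by
      intro R
      rw [Tv_succ, Dens_succ]
      ring
    simp only [e1]
    have i1 : Integrable (fun R : ℕ × V → ℝ =>
        Tv a v N R ^ 2 * Dens ε t v N R * (1 + ε * t * cl (R (N, v)))) (noise (ℕ × V)) :=
      intg (((hT.pow_const 2).mul hD).mul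
        ((measurable_density (ε * t)).comp (measurable_pi_apply (N, v))))
        (C := (2 * N) ^ 2 * 2 ^ N * 2) (fun R => by
          rw [abs_mul]
          exact mul_le_mul (hbT2 R) (density_le h _) (abs_nonneg _) (by positivity))
    have i2' : Integrable (fun R : ℕ × V → ℝ =>
        (Tv a v N R * Dens ε t v N R * ((cl (R (N, v)) - a) * (1 + ε * t * cl (R (N, v))))))
        (noise (ℕ × V)) :=
      intg ((hT.mul hD).mul (hcl1.comp (measurable_pi_apply (N, v))))
        (C := (2 * N) * 2 ^ N * (2 * 2)) (fun R => by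
          rw [abs_mul]
          exact mul_le_mul (hTD R) (hbcl1 _) (abs_nonneg _) (by positivity))
    have i2 := i2'.const_mul 2
    have i3 : Integrable (fun R : ℕ × V → ℝ =>
        Dens ε t v N R * ((cl (R (N, v)) - a) ^ 2 * (1 + ε * t * cl (R (N, v))))) (noise (ℕ × V)) :=
      intg (hD.mul (hcl2.comp (measurable_pi_apply (N, v)))) (C := 2 ^ N * (2 ^ 2 * 2)) (fun R => by
        rw [abs_mul]
        exact mul_le_mul (abs_Dens_le h v N R) (hbcl2 _) (abs_nonneg _) (by positivity))
    have i12 : Integrable (fun R : ℕ × V → ℝ =>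
        Tv a v N R ^ 2 * Dens ε t v N R * (1 + ε * t * cl (R (N, v)))
        + 2 * (Tv a v N R * Dens ε t v N R * ((cl (R (N, v)) - a) * (1 + ε * t * cl (R (N, v))))))
        (noise (ℕ × V)) := i1.add i2
    rw [integral_add i12 i3, integral_add i1 i2, integral_const_mul]
    rw [integral_mul_coord (N, v) (F := fun R => Tv a v N R ^ 2 * Dens ε t v N R)
      (g := fun x => 1 + ε * t * cl x) ((hT.pow_const 2).mul hD) hbT2
      (fun R x => by simp only [Tv_update a le_rfl, Dens_update]) (measurable_density _)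
      (density_le h)]
    rw [integral_mul_coord (N, v) (F := fun R => Tv a v N R * Dens ε t v N R)
      (g := fun x => (cl x - a) * (1 + ε * t * cl x)) (hT.mul hD) hTD
      (fun R x => by simp only [Tv_update a le_rfl, Dens_update]) hcl1 hbcl1]
    rw [integral_mul_coord (N, v) (g := fun x => (cl x - a) ^ 2 * (1 + ε * t * cl x)) hD
      (abs_Dens_le h v N) (fun R x => Dens_update ε t R x) hcl2 hbcl2]
    rw [integral_density, integral_Tv_Dens h v N, integral_Dens h v N]
    have e2 : ∫ x, (cl x - a) ^ 2 * (1 + ε * t * cl x) ∂lam ≤ 4 := by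
      have i5 : Integrable (fun x => 4 * (1 + ε * t * cl x)) lam :=
        (intg (measurable_density _) (density_le h)).const_mul 4
      calc ∫ x, (cl x - a) ^ 2 * (1 + ε * t * cl x) ∂lam
          ≤ ∫ x, 4 * (1 + ε * t * cl x) ∂lam := by
            refine integral_mono (intg hcl2 hbcl2) i5 fun x => ?_
            have h4 : (cl x - a) ^ 2 ≤ 2 ^ 2 := by
              rw [← sq_abs]
              exact pow_le_pow_left₀ (abs_nonneg _)
                ((abs_sub _ _).trans (by linarith [abs_cl_le x])) 2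
            have h5 := density_nonneg h x
            simp only
            nlinarith
        _ = 4 := by
            rw [integral_const_mul, integral_density, mul_one]
    push_cast
    have := ih
    nlinarith

/-- Adding further observations does not change the law of the earlier ones. -/
lemma integral_mul_Dens_mono {ε t : ℝ} (h : |ε * t| ≤ 1) (v : V) {N M : ℕ} (hNM : N ≤ M)
    {F : (ℕ × V → ℝ) → ℝ} (hF : Measurable F) {C : ℝ} (hb : ∀ R, |F R| ≤ C)
    (hind : ∀ (L : ℕ), N ≤ L → ∀ R x, F (Function.update R (L, v) x) = F R) :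
    ∫ R, F R * Dens ε t v M R ∂noise (ℕ × V) = ∫ R, F R * Dens ε t v N R ∂noise (ℕ × V) := by
  have hC : 0 ≤ C := (abs_nonneg _).trans (hb (fun _ => 0))
  induction M, hNM using Nat.le_induction with
  | base => rfl
  | succ M hM ih =>
    rw [← ih]
    have e : ∀ R : ℕ × V → ℝ, F R * Dens ε t v (M + 1) R
        = (F R * Dens ε t v M R) * (1 + ε * t * cl (R (M, v))) := by
      intro R
      rw [Dens_succ]; ring
    simp only [e]
    rw [integral_mul_coord (M, v) (F := fun R => F R * Dens ε t v M R)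
      (g := fun x => 1 + ε * t * cl x) (C := C * 2 ^ M)
      (hF.mul (measurable_Dens ε t v M)) (fun R => by
        rw [abs_mul]
        exact mul_le_mul (hb R) (abs_Dens_le h v M R) (abs_nonneg _) hC)
      (fun R x => by rw [hind M hM, Dens_update]) (measurable_density _) (density_le h),
      integral_density, mul_one]

lemma Wv_sub_eq {a : ℝ} (v : V) {N : ℕ} (hN : 1 ≤ N) (R : ℕ × V → ℝ) :
    (Wv v N R - a) = (N : ℝ)⁻¹ * Tv a v N R := by
  unfold Wv Tv
  rw [Finset.sum_sub_distrib]
  simp only [Finset.sum_const, Finset.card_range, nsmul_eq_mul]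
  have hN' : (N : ℝ) ≠ 0 := by positivity
  field_simp

/-- (S3) the law of large numbers at one site -/
theorem integral_Wv_sub_sq {ε t : ℝ} (h : |ε * t| ≤ 1) (v : V) {N M : ℕ} (hN : 1 ≤ N)
    (hNM : N ≤ M) :
    ∫ R, (Wv v N R - ε * t / 3) ^ 2 * Dens ε t v M R ∂noise (ℕ × V) ≤ (4 : ℝ) / N := by
  set a := ε * t / 3 with ha
  have ha1 : |a| ≤ 1 := by
    rw [ha, abs_div]
    have : |(3 : ℝ)| = 3 := by norm_num
    rw [this]
    linarith
  have hN' : (0 : ℝ) < N := by positivity
  have hm : Measurable (fun R : ℕ × V → ℝ => (Wv v N R - a) ^ 2) :=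
    ((measurable_Wv v N).sub measurable_const).pow_const 2
  have hb : ∀ R : ℕ × V → ℝ, |(Wv v N R - a) ^ 2| ≤ 2 ^ 2 := fun R => by
    rw [abs_pow]
    exact pow_le_pow_left₀ (abs_nonneg _)
      ((abs_sub _ _).trans (by linarith [abs_Wv_le v N R])) 2
  have hind : ∀ (L : ℕ), N ≤ L → ∀ (R : ℕ × V → ℝ) (x : ℝ),
      (Wv v N (Function.update R (L, v) x) - a) ^ 2 = (Wv v N R - a) ^ 2 := by
    intro L hL R x
    rw [Wv_sub_eq v hN, Wv_sub_eq v hN, Tv_update a hL]
  refine le_of_eq_of_le (integral_mul_Dens_mono h v hNM hm hb hind) ?_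
  have e : ∀ R : ℕ × V → ℝ, (Wv v N R - a) ^ 2 * Dens ε t v N R
      = (N : ℝ)⁻¹ ^ 2 * (Tv a v N R ^ 2 * Dens ε t v N R) := by
    intro R
    rw [Wv_sub_eq v hN]
    ring
  simp only [e]
  rw [integral_const_mul]
  have := integral_Tv_sq_Dens h v N
  rw [← ha] at this
  calc (N : ℝ)⁻¹ ^ 2 * ∫ R, Tv a v N R ^ 2 * Dens ε t v N R ∂noise (ℕ × V)
      ≤ (N : ℝ)⁻¹ ^ 2 * (4 * (N : ℝ)) := by gcongr
    _ = (4 : ℝ) / N := by field_simp

/-- (S2) the mean of the empirical mean at one site -/
theorem integral_Wv_Dens {ε t : ℝ} (h : |ε * t| ≤ 1) (v : V) {N : ℕ} (hN : 1 ≤ N) :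
    ∫ R, Wv v N R * Dens ε t v N R ∂noise (ℕ × V) = ε * t / 3 := by
  set a := ε * t / 3 with ha
  have ha1 : |a| ≤ 1 := by
    rw [ha, abs_div]
    have : |(3 : ℝ)| = 3 := by norm_num
    rw [this]
    linarith
  have hN' : (0 : ℝ) < N := by positivity
  have e : ∀ R : ℕ × V → ℝ, Wv v N R * Dens ε t v N R
      = (N : ℝ)⁻¹ * (Tv a v N R * Dens ε t v N R) + a * Dens ε t v N R := by
    intro R
    have := Wv_sub_eq (a := a) v hN R
    have e2 : Wv v N R = (N : ℝ)⁻¹ * Tv a v N R + a := by linarith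
    rw [e2]
    ring
  simp only [e]
  have hD := measurable_Dens ε t v N
  have hT := measurable_Tv a v N
  have i1 : Integrable (fun R : ℕ × V → ℝ => (N : ℝ)⁻¹ * (Tv a v N R * Dens ε t v N R))
      (noise (ℕ × V)) :=
    (intg (F := fun R => Tv a v N R * Dens ε t v N R) (hT.mul hD) (C := (2 * N) * 2 ^ N) (fun R => by
      rw [abs_mul]
      exact mul_le_mul (abs_Tv_le ha1 v N R) (abs_Dens_le h v N R) (abs_nonneg _)
        (by positivity))).const_mul _
  have i2 : Integrable (fun R : ℕ × V → ℝ => a * Dens ε t v N R) (noise (ℕ × V)) :=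
    (intg hD (abs_Dens_le h v N)).const_mul _
  rw [integral_add i1 i2, integral_const_mul, integral_const_mul, integral_Dens h v N]
  have := integral_Tv_Dens h v N
  rw [← ha] at this
  rw [this]
  ring

end site

end Vale.Agent.Lib.P161
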