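import Mathlib

/-!
The resolvent `(1 - c K)⁻¹` of a nonnegative symmetric kernel which is small on a weighted `ℓ²`.
-/

open Matrix

noncomputable section
namespace Vale.Agent.Lib.P161

variable {ι : Type} [Fintype ι] [DecidableEq ι] {K : Matrix ι ι ℝ} {w : ι → ℝ} {c B : ℝ}

/-- the hypotheses on the kernel -/
structure ResH (K : Matrix ι ι ℝ) (w : ι → ℝ) (c B : ℝ) : Prop where
  sym : Kᵀ = K
  nonneg : ∀ i j, 0 ≤ K i j
  wpos : ∀ i, 0 < w i
  c0 : 0 ≤ c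
  B0 : 0 ≤ B
  bound : ∀ f : ι → ℝ, ∑ i, w i * (K *ᵥ f) i ^ 2 ≤ B * ∑ i, w i * f i ^ 2
  small : c ^ 2 * B ≤ 1 / 4

/-- weighted square norm -/
def SN (w : ι → ℝ) (f : ι → ℝ) : ℝ := ∑ i, w i * f i ^ 2

namespace ResH

lemma SN_nonneg (h : ResH K w c B) (f : ι → ℝ) : 0 ≤ SN w f :=
  Finset.sum_nonneg fun i _ => mul_nonneg (h.wpos i).le (sq_nonneg _)

lemma eq_zero_of_SN (h : ResH K w c B) {f : ι → ℝ} (hf : SN w f ≤ 0) (i : ι) : f i = 0 := by
  have h0 : ∀ j ∈ Finset.univ, 0 ≤ w j * f j ^ 2 := fun j _ =>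
    mul_nonneg (h.wpos j).le (sq_nonneg _)
  have h1 : SN w f = 0 := le_antisymm hf (h.SN_nonneg f)
  have := (Finset.sum_eq_zero_iff_of_nonneg h0).1 h1 i (Finset.mem_univ _)
  have h2 : f i ^ 2 = 0 := by
    rcases mul_eq_zero.1 this with h3 | h3
    · exact absurd h3 (h.wpos i).ne'
    · exact h3
  exact pow_eq_zero_iff (by norm_num) |>.1 h2

/-- maximum principle -/
lemma maxp (h : ResH K w c B) {f : ι → ℝ} (hf : ∀ i, f i ≤ c * (K *ᵥ f) i) (i : ι) : f i ≤ 0 := by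
  let g : ι → ℝ := fun i => max (f i) 0
  have hg0 : ∀ i, 0 ≤ g i := fun i => le_max_right _ _
  have hmono : ∀ i, (K *ᵥ f) i ≤ (K *ᵥ g) i := by
    intro i
    simp only [mulVec, dotProduct]
    exact Finset.sum_le_sum fun j _ =>
      mul_le_mul_of_nonneg_left (le_max_left _ _) (h.nonneg i j)
  have hKg : ∀ i, 0 ≤ (K *ᵥ g) i := by
    intro i
    simp only [mulVec, dotProduct]
    exact Finset.sum_nonneg fun j _ => mul_nonneg (h.nonneg i j) (hg0 j)
  have hg : ∀ i, g i ≤ c * (K *ᵥ g) i := by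
    intro i
    refine max_le ((hf i).trans (mul_le_mul_of_nonneg_left (hmono i) h.c0)) ?_
    exact mul_nonneg h.c0 (hKg i)
  have hS : SN w g ≤ (1 / 4) * SN w g := by
    have h1 : SN w g ≤ c ^ 2 * ∑ i, w i * (K *ᵥ g) i ^ 2 := by
      unfold SN
      rw [Finset.mul_sum]
      refine Finset.sum_le_sum fun i _ => ?_
      have h2 : g i ^ 2 ≤ (c * (K *ᵥ g) i) ^ 2 := pow_le_pow_left₀ (hg0 i) (hg i) 2
      calc w i * g i ^ 2 ≤ w i * (c * (K *ᵥ g) i) ^ 2 :=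
            mul_le_mul_of_nonneg_left h2 (h.wpos i).le
        _ = _ := by ring
    have h3 := h.bound g
    have h4 : c ^ 2 * ∑ i, w i * (K *ᵥ g) i ^ 2 ≤ c ^ 2 * (B * SN w g) :=
      mul_le_mul_of_nonneg_left h3 (sq_nonneg c)
    have h5 : c ^ 2 * (B * SN w g) ≤ (1 / 4) * SN w g := by
      rw [← mul_assoc]
      exact mul_le_mul_of_nonneg_right h.small (h.SN_nonneg g)
    linarith
  have hS0 : SN w g ≤ 0 := by
    have := h.SN_nonneg g
    linarith
  have := h.eq_zero_of_SN hS0 i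
  exact (le_max_left _ _).trans this.le

/-- `1 - c K` -/
def Mm (K : Matrix ι ι ℝ) (c : ℝ) : Matrix ι ι ℝ := 1 - c • K

lemma Mm_mulVec (K : Matrix ι ι ℝ) (c : ℝ) (f : ι → ℝ) (i : ι) :
    (Mm K c *ᵥ f) i = f i - c * (K *ᵥ f) i := by
  unfold Mm
  rw [sub_mulVec, one_mulVec, smul_mulVec]
  rfl

lemma isUnit_Mm (h : ResH K w c B) : IsUnit (Mm K c) := by
  rw [← mulVec_injective_iff_isUnit]
  intro f f' hff
  have e : ∀ i, (f - f') i = c * (K *ᵥ (f - f')) i := by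
    intro i
    have h1 : (Mm K c *ᵥ (f - f')) i = 0 := by
      rw [mulVec_sub, hff]; simp
    rw [Mm_mulVec] at h1
    linarith
  funext i
  have h1 : (f - f') i ≤ 0 := h.maxp (fun i => (e i).le) i
  have h2 : (-(f - f')) i ≤ 0 := by
    refine h.maxp (fun i => ?_) i
    rw [mulVec_neg]
    simp only [Pi.neg_apply]
    rw [e i]
    linarith
  simp only [Pi.sub_apply, Pi.neg_apply] at h1 h2
  linarith

/-- the resolvent -/
def Rr (K : Matrix ι ι ℝ) (c : ℝ) : Matrix ι ι ℝ := (Mm K c)⁻¹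

lemma Mm_Rr (h : ResH K w c B) : Mm K c * Rr K c = 1 :=
  Matrix.mul_nonsing_inv _ ((Matrix.isUnit_iff_isUnit_det _).1 h.isUnit_Mm)

lemma Rr_Mm (h : ResH K w c B) : Rr K c * Mm K c = 1 :=
  Matrix.nonsing_inv_mul _ ((Matrix.isUnit_iff_isUnit_det _).1 h.isUnit_Mm)

lemma Mm_Rr_mulVec (h : ResH K w c B) (b : ι → ℝ) : Mm K c *ᵥ (Rr K c *ᵥ b) = b := by
  rw [mulVec_mulVec, h.Mm_Rr, one_mulVec]

lemma Rr_symm (h : ResH K w c B) : (Rr K c)ᵀ = Rr K c := by
  unfold Rr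
  rw [transpose_nonsing_inv]
  congr 1
  unfold Mm
  rw [transpose_sub, transpose_one, transpose_smul, h.sym]

/-- comparison -/
lemma le_Rr (h : ResH K w c B) {f b : ι → ℝ} (hfb : ∀ i, f i - c * (K *ᵥ f) i ≤ b i) (i : ι) :
    f i ≤ (Rr K c *ᵥ b) i := by
  have key : (f - Rr K c *ᵥ b) i ≤ 0 := by
    refine h.maxp (fun j => ?_) i
    have h1 := congrFun (h.Mm_Rr_mulVec b) j
    rw [Mm_mulVec] at h1
    have h2 := hfb j
    rw [mulVec_sub]
    simp only [Pi.sub_apply]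
    linarith
  simp only [Pi.sub_apply] at key
  linarith

lemma Rr_nonneg (h : ResH K w c B) {b : ι → ℝ} (hb : ∀ i, 0 ≤ b i) (i : ι) :
    0 ≤ (Rr K c *ᵥ b) i := by
  have := h.le_Rr (f := 0) (b := b) (fun j => by
    rw [mulVec_zero]
    simpa using hb j) i
  simpa using this

lemma Rr_mono (h : ResH K w c B) {b b' : ι → ℝ} (hb : ∀ i, b i ≤ b' i) (i : ι) :
    (Rr K c *ᵥ b) i ≤ (Rr K c *ᵥ b') i := by
  have := h.Rr_nonneg (b := b' - b) (fun j => by
    simp only [Pi.sub_apply]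
    linarith [hb j]) i
  rw [mulVec_sub] at this
  simp only [Pi.sub_apply] at this
  linarith

/-- the resolvent has norm at most two -/
lemma SN_Rr (h : ResH K w c B) (b : ι → ℝ) : SN w (Rr K c *ᵥ b) ≤ 4 * SN w b := by
  set g := Rr K c *ᵥ b with hg
  have hspec : ∀ i, g i = b i + c * (K *ᵥ g) i := by
    intro i
    have h1 := congrFun (h.Mm_Rr_mulVec b) i
    rw [Mm_mulVec] at h1
    linarith
  have h1 : SN w g ≤ 2 * SN w b + 2 * (c ^ 2 * ∑ i, w i * (K *ᵥ g) i ^ 2) := by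
    unfold SN
    rw [Finset.mul_sum, Finset.mul_sum, Finset.mul_sum, ← Finset.sum_add_distrib]
    refine Finset.sum_le_sum fun i _ => ?_
    have h2 : g i ^ 2 ≤ 2 * b i ^ 2 + 2 * (c * (K *ᵥ g) i) ^ 2 := by
      rw [hspec i]
      nlinarith [sq_nonneg (b i - c * (K *ᵥ g) i), hspec i]
    have h3 := mul_le_mul_of_nonneg_left h2 (h.wpos i).le
    calc _ ≤ w i * (2 * b i ^ 2 + 2 * (c * (K *ᵥ g) i) ^ 2) := h3
      _ = _ := by ring
  have h3 := h.bound g
  have h4 : c ^ 2 * ∑ i, w i * (K *ᵥ g) i ^ 2 ≤ (1 / 4) * SN w g := by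
    calc _ ≤ c ^ 2 * (B * SN w g) := mul_le_mul_of_nonneg_left h3 (sq_nonneg c)
      _ = (c ^ 2 * B) * SN w g := by ring
      _ ≤ _ := mul_le_mul_of_nonneg_right h.small (h.SN_nonneg g)
  linarith

lemma Rr_pow_nonneg (h : ResH K w c B) (n : ℕ) {b : ι → ℝ} (hb : ∀ i, 0 ≤ b i) (i : ι) :
    0 ≤ (Rr K c ^ n *ᵥ b) i := by
  induction n generalizing i with
  | zero => simpa using hb i
  | succ n ih =>
    rw [pow_succ', ← mulVec_mulVec]
    exact h.Rr_nonneg ih i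

lemma SN_Rr_pow (h : ResH K w c B) (n : ℕ) (b : ι → ℝ) :
    SN w (Rr K c ^ n *ᵥ b) ≤ 4 ^ n * SN w b := by
  induction n with
  | zero => simp
  | succ n ih =>
    rw [pow_succ', ← mulVec_mulVec, pow_succ']
    refine (h.SN_Rr _).trans ?_
    rw [mul_assoc]
    exact mul_le_mul_of_nonneg_left ih (by norm_num)

lemma dot_Rr_pow (h : ResH K w c B) (n : ℕ) (a b : ι → ℝ) :
    ∑ i, a i * (Rr K c ^ n *ᵥ b) i = ∑ i, (Rr K c ^ n *ᵥ a) i * b i := by
  have h1 : a ⬝ᵥ (Rr K c ^ n *ᵥ b) = (Rr K c ^ n *ᵥ a) ⬝ᵥ b := by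
    rw [dotProduct_mulVec]
    congr 1
    have : Rr K c ^ n = (Rr K c ^ n)ᵀ := by
      rw [transpose_pow, h.Rr_symm]
    conv_rhs => rw [this]
    rw [mulVec_transpose]
  simpa [dotProduct] using h1

/-- Solving the stagewise linear recursion. -/
theorem stage_bound (h : ResH K w c B) {c₁ : ℝ} (hc₁ : 0 ≤ c₁) {a : ℕ → ι → ℝ}
    (ha : ∀ n i, 0 ≤ a n i) {S : ℕ → ι → ℝ} (hS0 : ∀ i, S 0 i = 0)
    (hS : ∀ n i, S (n + 1) i ≤ S n i + c₁ * a n i + c * (K *ᵥ S (n + 1)) i) (n : ℕ) (i : ι) :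
    S n i ≤ c₁ * ∑ l ∈ Finset.range n, (Rr K c ^ (n - l) *ᵥ a l) i := by
  induction n generalizing i with
  | zero => simp [hS0]
  | succ n ih =>
    have h1 : ∀ j, S (n + 1) j - c * (K *ᵥ S (n + 1)) j ≤ (S n + c₁ • a n) j := by
      intro j
      have := hS n j
      simp only [Pi.add_apply, Pi.smul_apply, smul_eq_mul]
      linarith
    have h2 := h.le_Rr h1 i
    refine h2.trans ?_
    have h3 : (Rr K c *ᵥ (S n + c₁ • a n)) i
        ≤ (Rr K c *ᵥ ((fun j => c₁ * ∑ l ∈ Finset.range n, (Rr K c ^ (n - l) *ᵥ a l) j)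
            + c₁ • a n)) i := by
      refine h.Rr_mono (fun j => ?_) i
      simp only [Pi.add_apply]
      linarith [ih j]
    refine h3.trans (le_of_eq ?_)
    rw [Finset.sum_range_succ, mul_add, mulVec_add, mulVec_smul]
    simp only [Pi.add_apply, Pi.smul_apply, smul_eq_mul]
    congr 1
    · -- the sum over the earlier stages
      have e : (fun j => c₁ * ∑ l ∈ Finset.range n, (Rr K c ^ (n - l) *ᵥ a l) j)
          = c₁ • ∑ l ∈ Finset.range n, (Rr K c ^ (n - l) *ᵥ a l) := by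
        funext j
        simp [Finset.sum_apply]
      rw [e, mulVec_smul, mulVec_sum]
      simp only [Pi.smul_apply, smul_eq_mul, Finset.sum_apply]
      congr 1
      refine Finset.sum_congr rfl fun l hl => ?_
      have hl' : l < n := Finset.mem_range.1 hl
      rw [mulVec_mulVec, ← pow_succ']
      congr 3
      omega
    · simp

end ResH

end Vale.Agent.Lib.P161
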