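import Vale.Agent.Lib.P161.Sampler
import Vale.Agent.Lib.P161.Resolvent

/-!
Sensitivity of the sampler to its noise, uniformly in the volume and in the order.
-/

open MeasureTheory Finset Matrix

noncomputable section
namespace Vale.Agent.Lib.P161

open scoped Classical

variable {V : Type} {G : SimpleGraph V}

/-- the Lipschitz constant of the log-likelihood in the noise -/
def cOne (ε : ℝ) : ℝ := ε / ((1 - ε ^ 2) * (1 - ε))
/-- the Lipschitz constant of the log-likelihood in the field -/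
def cTwo (ε : ℝ) : ℝ := cOne ε * (ε / 2)
/-- the steps up to a given stage -/
def stepsUpTo (A : Finset V) (i : ℕ) : Finset (St V) := (Finset.range (i + 1)) ×ˢ A
/-- coefficient in the sensitivity -/
def coefS (ε : ℝ) : ℝ := ε / 2 * cOne ε / (1 - ε)
/-- the uniform sensitivity bound -/
def Csens (ε B : ℝ) (i : ℕ) : ℝ :=
  2 * coefS ε ^ 2 * (((i : ℝ) + 1) * 4 ^ (i + 1)) * B + 2 / (1 - ε) ^ 2

lemma cOne_nonneg {ε : ℝ} (he0 : 0 ≤ ε) (he1 : ε < 1) : 0 ≤ cOne ε := by
  unfold cOne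
  have h1 : 0 < 1 - ε := by linarith
  have h2 : 0 < 1 - ε ^ 2 := by nlinarith
  positivity

lemma cTwo_nonneg {ε : ℝ} (he0 : 0 ≤ ε) (he1 : ε < 1) : 0 ≤ cTwo ε :=
  mul_nonneg (cOne_nonneg he0 he1) (by linarith)

lemma coefS_nonneg {ε : ℝ} (he0 : 0 ≤ ε) (he1 : ε < 1) : 0 ≤ coefS ε := by
  unfold coefS
  have h1 : 0 < 1 - ε := by linarith
  have := cOne_nonneg he0 he1
  positivity

/-- the accumulated difference of log-likelihoods -/
def Sdiff (ε : ℝ) (y y' : St V → ℝ) (n : ℕ) (u : V) : ℝ :=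
  ∑ i ∈ Finset.range n, |zeta ε (y (i, u)) - zeta ε (y' (i, u))|

lemma Sdiff_nonneg (ε : ℝ) (y y' : St V → ℝ) (n : ℕ) (u : V) : 0 ≤ Sdiff ε y y' n u :=
  Finset.sum_nonneg fun _ _ => abs_nonneg _

lemma abs_Xprior_sub_le (ε : ℝ) (τ : V → ℝ) (k : St V) (y y' : St V → ℝ) (u : V) :
    |Xprior ε τ k y u - Xprior ε τ k y' u| ≤ Sdiff ε y y' (k.1 + 1) u := by
  unfold Xprior Sdiff
  rw [Finset.sum_range_succ]
  have e : (∑ i ∈ Finset.range k.1, zeta ε (y (i, u))
        + if τ u < τ k.2 then zeta ε (y (k.1, u)) else 0)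
      - (∑ i ∈ Finset.range k.1, zeta ε (y' (i, u))
        + if τ u < τ k.2 then zeta ε (y' (k.1, u)) else 0)
      = (∑ i ∈ Finset.range k.1, (zeta ε (y (i, u)) - zeta ε (y' (i, u))))
        + ((if τ u < τ k.2 then zeta ε (y (k.1, u)) else 0)
          - (if τ u < τ k.2 then zeta ε (y' (k.1, u)) else 0)) := by
    rw [Finset.sum_sub_distrib]; ring
  rw [e]
  refine (abs_add_le _ _).trans (add_le_add (Finset.abs_sum_le_sum_abs _ _) ?_)
  split_ifs
  · exact le_rfl
  · simp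

/-- One step estimate for the output. -/
lemma yA_diff (hT : G.IsTree) {θ ε : ℝ} (h0 : 0 ≤ θ) (h1 : θ < 1) (he0 : 0 ≤ ε) (he1 : ε < 1)
    {A : Finset V} (hA : Conv G A) (τ : V → ℝ) (R R' : St V → ℝ) {k : St V} (hk : k.2 ∈ A) :
    |yA G θ ε A τ R k - yA G θ ε A τ R' k|
      ≤ (|cl (R k) - cl (R' k)| + ε / 2 * ∑ u ∈ A, θ ^ G.dist u k.2 *
          Sdiff ε (yA G θ ε A τ R) (yA G θ ε A τ R') (k.1 + 1) u) / (1 - ε) := by
  rw [yA_rec θ ε τ R hk, yA_rec θ ε τ R' hk]
  set m := stepM G θ ε A τ k (yA G θ ε A τ R) with hm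
  set m' := stepM G θ ε A τ k (yA G θ ε A τ R') with hm'
  have hmb : |ε * m| ≤ ε := by
    rw [abs_mul, abs_of_nonneg he0]
    calc ε * |m| ≤ ε * 1 := by
          gcongr
          exact abs_Mt_le h0 h1 A k.2 _
      _ = ε := mul_one _
  refine (Sf_lipschitz he1 hmb).trans ?_
  have hpos : 0 < 1 - ε := by linarith
  apply div_le_div_of_nonneg_right _ hpos.le
  apply add_le_add_right
  have e : |ε * m - ε * m'| / 2 = ε / 2 * |m - m'| := by
    rw [← mul_sub, abs_mul, abs_of_nonneg he0]; ring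
  rw [e]
  apply mul_le_mul_of_nonneg_left _ (by linarith)
  refine (Mt_lipschitz hT h0 h1 hA hk _ _).trans ?_
  exact Finset.sum_le_sum fun u _ => mul_le_mul_of_nonneg_left
    (abs_Xprior_sub_le ε τ k _ _ u) (pow_nonneg h0 _)

/-- One step estimate for the log-likelihood. -/
lemma zeta_yA_diff (hT : G.IsTree) {θ ε : ℝ} (h0 : 0 ≤ θ) (h1 : θ < 1) (he0 : 0 ≤ ε) (he1 : ε < 1)
    {A : Finset V} (hA : Conv G A) (τ : V → ℝ) (R R' : St V → ℝ) {k : St V} (hk : k.2 ∈ A) :
    |zeta ε (yA G θ ε A τ R k) - zeta ε (yA G θ ε A τ R' k)|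
      ≤ cOne ε * |cl (R k) - cl (R' k)| + cTwo ε * ∑ u ∈ A, θ ^ G.dist u k.2 *
          Sdiff ε (yA G θ ε A τ R) (yA G θ ε A τ R') (k.1 + 1) u := by
  have hpos : 0 < 1 - ε := by linarith
  have hpos2 : 0 < 1 - ε ^ 2 := by nlinarith
  refine (zeta_lipschitz he0 he1 (abs_yA_le θ ε A τ R k) (abs_yA_le θ ε A τ R' k)).trans ?_
  have h2 := yA_diff hT h0 h1 he0 he1 hA τ R R' hk
  have h3 := mul_le_mul_of_nonneg_left h2 (by positivity : 0 ≤ ε / (1 - ε ^ 2))
  refine h3.trans (le_of_eq ?_)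
  unfold cTwo cOne
  field_simp

/-- **Sensitivity theorem.** -/
theorem sens (hT : G.IsTree) {θ ε W B : ℝ} (h0 : 0 ≤ θ) (h1 : θ < 1) (he0 : 0 ≤ ε) (he1 : ε < 1)
    (hW : 0 < W) (hB : 0 ≤ B) (hsmall : cTwo ε ^ 2 * B ≤ 1 / 4)
    {A : Finset V} (hA : Conv G A) {k : St V} (hk : k.2 ∈ A)
    (hK : ∀ f : V → ℝ, ∑ u ∈ A, W ^ G.dist u k.2 * (∑ x ∈ A, θ ^ G.dist u x * f x) ^ 2
      ≤ B * ∑ u ∈ A, W ^ G.dist u k.2 * f u ^ 2) :
    ∃ T : St V → ℝ, (∀ j, 0 ≤ T j) ∧
      (∀ τ : V → ℝ, LipOn (stepsUpTo A k.1) T (fun R => yA G θ ε A τ R k)) ∧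
      ∑ j ∈ stepsUpTo A k.1, W ^ G.dist j.2 k.2 * T j ^ 2 ≤ Csens ε B k.1 := by
  classical
  -- the matrices
  let Km : Matrix A A ℝ := fun u x => θ ^ G.dist (u : V) (x : V)
  let w : A → ℝ := fun u => W ^ G.dist (u : V) k.2
  have hKm : ∀ (f : A → ℝ) (u : A), (Km *ᵥ f) u = ∑ x ∈ A, θ ^ G.dist (u : V) x *
      (if h : x ∈ A then f ⟨x, h⟩ else 0) := by
    intro f u
    simp only [mulVec, dotProduct]
    rw [← Finset.sum_coe_sort A]
    refine Finset.sum_congr rfl fun x _ => ?_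
    simp [Km]
  have hres : ResH Km w (cTwo ε) B := by
    refine ⟨?_, ?_, ?_, cTwo_nonneg he0 he1, hB, ?_, hsmall⟩
    · ext u x
      show θ ^ G.dist (x : V) (u : V) = θ ^ G.dist (u : V) (x : V)
      rw [dist_sym]
    · intro u x
      exact pow_nonneg h0 _
    · intro u
      exact pow_pos hW _
    · intro f
      have := hK (fun x => if h : x ∈ A then f ⟨x, h⟩ else 0)
      simp only [← Finset.sum_coe_sort A (fun u => W ^ G.dist u k.2 *
        (∑ x ∈ A, θ ^ G.dist u x * (if h : x ∈ A then f ⟨x, h⟩ else 0)) ^ 2)] at this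
      simp only [← Finset.sum_coe_sort A (fun u => W ^ G.dist u k.2 *
        (if h : u ∈ A then f ⟨u, h⟩ else 0) ^ 2)] at this
      simp only [hKm, w]
      simpa using this
  -- the vector of the target
  let e : A → ℝ := fun u => θ ^ G.dist (u : V) k.2
  have he_nonneg : ∀ u, 0 ≤ e u := fun u => pow_nonneg h0 _
  let R₀ := ResH.Rr Km (cTwo ε)
  let q : ℕ → A → ℝ := fun m => R₀ ^ m *ᵥ e
  have hq_nonneg : ∀ m u, 0 ≤ q m u := fun m u => hres.Rr_pow_nonneg m he_nonneg u
  let qt : ℕ → V → ℝ := fun m x => if h : x ∈ A then q m ⟨x, h⟩ else 0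
  have hqt_nonneg : ∀ m x, 0 ≤ qt m x := by
    intro m x
    simp only [qt]
    split_ifs
    · exact hq_nonneg _ _
    · exact le_rfl
  let T : St V → ℝ := fun j => coefS ε * qt (k.1 + 1 - j.1) j.2 + if j = k then 1 / (1 - ε) else 0
  have hpos : 0 < 1 - ε := by linarith
  have hT_nonneg : ∀ j, 0 ≤ T j := by
    intro j
    refine add_nonneg (mul_nonneg (coefS_nonneg he0 he1) (hqt_nonneg _ _)) ?_
    split_ifs
    · positivity
    · exact le_rfl
  have hkJ : k ∈ stepsUpTo A k.1 := by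
    unfold stepsUpTo
    simp [hk]
  refine ⟨T, hT_nonneg, ?_, ?_⟩
  · -- the Lipschitz estimate
    intro τ R R'
    set y := yA G θ ε A τ R with hy
    set y' := yA G θ ε A τ R' with hy'
    let a : ℕ → A → ℝ := fun n u => |cl (R (n, (u : V))) - cl (R' (n, (u : V)))|
    let S : ℕ → A → ℝ := fun n u => Sdiff ε y y' n u
    have hS0 : ∀ u, S 0 u = 0 := by
      intro u
      simp [S, Sdiff]
    have hS : ∀ n u, S (n + 1) u ≤ S n u + cOne ε * a n u + cTwo ε * (Km *ᵥ S (n + 1)) u := by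
      intro n u
      have h2 := zeta_yA_diff hT h0 h1 he0 he1 hA τ R R' (k := (n, (u : V))) u.2
      have h3 : S (n + 1) u = S n u + |zeta ε (y (n, u)) - zeta ε (y' (n, u))| := by
        simp only [S, Sdiff]
        rw [Finset.sum_range_succ]
      rw [h3]
      have h4 : (Km *ᵥ S (n + 1)) u = ∑ x ∈ A, θ ^ G.dist x (u : V) * Sdiff ε y y' (n + 1) x := by
        simp only [mulVec, dotProduct, S]
        rw [← Finset.sum_coe_sort A (fun x => θ ^ G.dist x (u : V) * Sdiff ε y y' (n + 1) x)]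
        refine Finset.sum_congr rfl fun x _ => ?_
        simp [Km, dist_sym]
      rw [h4]
      linarith
    have hb := hres.stage_bound (c₁ := cOne ε) (cOne_nonneg he0 he1) (a := a)
      (fun n u => abs_nonneg _) hS0 hS (k.1 + 1)
    -- pairing with the target vector
    have hpair : ∑ u ∈ A, θ ^ G.dist u k.2 * Sdiff ε y y' (k.1 + 1) u
        ≤ cOne ε * ∑ l ∈ Finset.range (k.1 + 1), ∑ u : A, q (k.1 + 1 - l) u * a l u := by
      rw [← Finset.sum_coe_sort A (fun u => θ ^ G.dist u k.2 * Sdiff ε y y' (k.1 + 1) u)]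
      calc ∑ u : A, θ ^ G.dist (u : V) k.2 * Sdiff ε y y' (k.1 + 1) u
          ≤ ∑ u : A, e u * (cOne ε * ∑ l ∈ Finset.range (k.1 + 1),
              (R₀ ^ (k.1 + 1 - l) *ᵥ a l) u) :=
            Finset.sum_le_sum fun u _ => mul_le_mul_of_nonneg_left (hb u) (he_nonneg u)
        _ = cOne ε * ∑ l ∈ Finset.range (k.1 + 1), ∑ u : A,
              e u * (R₀ ^ (k.1 + 1 - l) *ᵥ a l) u := by
            have hthis : ∀ u : A, e u * (cOne ε * ∑ l ∈ Finset.range (k.1 + 1),
                (R₀ ^ (k.1 + 1 - l) *ᵥ a l) u) = cOne ε * ∑ l ∈ Finset.range (k.1 + 1),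
                e u * (R₀ ^ (k.1 + 1 - l) *ᵥ a l) u := by
              intro u
              rw [Finset.mul_sum, Finset.mul_sum, Finset.mul_sum]
              refine Finset.sum_congr rfl fun l _ => ?_
              ring
            rw [Finset.sum_congr rfl fun u _ => hthis u, ← Finset.mul_sum, Finset.sum_comm]
        _ = _ := by
            congr 1
            refine Finset.sum_congr rfl fun l _ => ?_
            exact hres.dot_Rr_pow _ e (a l)
    -- the right hand side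
    let c : St V → ℝ := fun j => |cl (R j) - cl (R' j)|
    have hsumT : ∑ j ∈ stepsUpTo A k.1, T j * c j
        = coefS ε * ∑ l ∈ Finset.range (k.1 + 1), ∑ u : A, q (k.1 + 1 - l) u * a l u
          + 1 / (1 - ε) * c k := by
      have e1 : ∀ j, T j * c j = coefS ε * (qt (k.1 + 1 - j.1) j.2 * c j)
          + (if j = k then 1 / (1 - ε) * c k else 0) := by
        intro j
        simp only [T]
        by_cases hjk : j = k
        · subst hjk; simp; ring
        · simp [hjk]; ring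
      simp only [e1]
      rw [Finset.sum_add_distrib, ← Finset.mul_sum, Finset.sum_ite_eq' _ k, if_pos hkJ]
      congr 2
      unfold stepsUpTo
      rw [Finset.sum_product]
      refine Finset.sum_congr rfl fun l _ => ?_
      rw [← Finset.sum_coe_sort A (fun x => qt (k.1 + 1 - l) x * c (l, x))]
      refine Finset.sum_congr rfl fun u _ => ?_
      simp [qt, c, a]
    show |y k - y' k| ≤ ∑ j ∈ stepsUpTo A k.1, T j * c j
    rw [hsumT]
    have h2 := yA_diff hT h0 h1 he0 he1 hA τ R R' hk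
    refine h2.trans ?_
    rw [div_le_iff₀ hpos]
    have h3 := mul_le_mul_of_nonneg_left hpair (by linarith : 0 ≤ ε / 2)
    have e2 : (coefS ε * ∑ l ∈ Finset.range (k.1 + 1), ∑ u : A, q (k.1 + 1 - l) u * a l u
          + 1 / (1 - ε) * c k) * (1 - ε)
        = ε / 2 * (cOne ε * ∑ l ∈ Finset.range (k.1 + 1), ∑ u : A, q (k.1 + 1 - l) u * a l u)
          + c k := by
      unfold coefS
      field_simp
    rw [e2]
    have e3 : |cl (R k) - cl (R' k)| = c k := rfl
    rw [e3]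
    linarith
  · -- the weighted bound
    -- the target vector is small
    have hSe : SN w e ≤ B := by
      have h2 := hK (fun x => if x = k.2 then 1 else 0)
      have e1 : ∀ u, ∑ x ∈ A, θ ^ G.dist u x * (if x = k.2 then (1 : ℝ) else 0)
          = θ ^ G.dist u k.2 := by
        intro u
        simp only [mul_ite, mul_one, mul_zero]
        rw [Finset.sum_ite_eq' A k.2, if_pos hk]
      have e2 : ∑ u ∈ A, W ^ G.dist u k.2 * (if u = k.2 then (1 : ℝ) else 0) ^ 2 = 1 := by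
        have : ∀ u, W ^ G.dist u k.2 * (if u = k.2 then (1 : ℝ) else 0) ^ 2
            = if u = k.2 then (1 : ℝ) else 0 := by
          intro u
          by_cases hu : u = k.2
          · subst hu; simp
          · simp [hu]
        simp only [this]
        rw [Finset.sum_ite_eq' A k.2, if_pos hk]
      simp only [e1, e2, mul_one] at h2
      unfold SN
      simp only [w, e]
      rw [Finset.sum_coe_sort A (fun u => W ^ G.dist u k.2 * (θ ^ G.dist u k.2) ^ 2)]
      exact h2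
    have hSq : ∀ m, ∑ x ∈ A, W ^ G.dist x k.2 * qt m x ^ 2 ≤ 4 ^ m * B := by
      intro m
      have h2 := hres.SN_Rr_pow m e
      have h3 : SN w (q m) = ∑ x ∈ A, W ^ G.dist x k.2 * qt m x ^ 2 := by
        unfold SN
        rw [← Finset.sum_coe_sort A (fun x => W ^ G.dist x k.2 * qt m x ^ 2)]
        refine Finset.sum_congr rfl fun u _ => ?_
        simp [w, qt]
      rw [← h3]
      refine h2.trans ?_
      exact mul_le_mul_of_nonneg_left hSe (by positivity)
    have hTb : ∀ j, W ^ G.dist j.2 k.2 * T j ^ 2 ≤ 2 * coefS ε ^ 2 *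
          (W ^ G.dist j.2 k.2 * qt (k.1 + 1 - j.1) j.2 ^ 2)
        + (if j = k then 2 / (1 - ε) ^ 2 else 0) := by
      intro j
      have hwj : 0 ≤ W ^ G.dist j.2 k.2 := by positivity
      simp only [T]
      by_cases hjk : j = k
      · subst hjk
        simp only [if_true, SimpleGraph.dist_self, pow_zero, one_mul]
        have h2 : (coefS ε * qt (j.1 + 1 - j.1) j.2 + 1 / (1 - ε)) ^ 2
            ≤ 2 * (coefS ε * qt (j.1 + 1 - j.1) j.2) ^ 2 + 2 * (1 / (1 - ε)) ^ 2 := by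
          nlinarith [sq_nonneg (coefS ε * qt (j.1 + 1 - j.1) j.2 - 1 / (1 - ε))]
        refine h2.trans (le_of_eq ?_)
        field_simp
      · simp only [hjk, if_false, add_zero]
        have h2 : W ^ G.dist j.2 k.2 * (coefS ε * qt (k.1 + 1 - j.1) j.2) ^ 2
            = coefS ε ^ 2 * (W ^ G.dist j.2 k.2 * qt (k.1 + 1 - j.1) j.2 ^ 2) := by ring
        rw [h2]
        have h3 : 0 ≤ coefS ε ^ 2 * (W ^ G.dist j.2 k.2 * qt (k.1 + 1 - j.1) j.2 ^ 2) := by
          positivity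
        linarith
    refine (Finset.sum_le_sum fun j _ => hTb j).trans ?_
    rw [Finset.sum_add_distrib, ← Finset.mul_sum, Finset.sum_ite_eq' _ k, if_pos hkJ]
    unfold Csens
    apply add_le_add_left
    have hsum : ∑ j ∈ stepsUpTo A k.1, W ^ G.dist j.2 k.2 * qt (k.1 + 1 - j.1) j.2 ^ 2
        ≤ ((k.1 : ℝ) + 1) * 4 ^ (k.1 + 1) * B := by
      unfold stepsUpTo
      rw [Finset.sum_product]
      have h3 : ∀ l ∈ Finset.range (k.1 + 1),
          ∑ x ∈ A, W ^ G.dist x k.2 * qt (k.1 + 1 - l) x ^ 2 ≤ 4 ^ (k.1 + 1) * B := by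
        intro l _
        refine (hSq _).trans ?_
        refine mul_le_mul_of_nonneg_right ?_ hB
        exact pow_le_pow_right₀ (by norm_num) (Nat.sub_le _ _)
      refine (Finset.sum_le_card_nsmul _ _ _ h3).trans (le_of_eq ?_)
      simp [nsmul_eq_mul]
      ring
    calc 2 * coefS ε ^ 2 * ∑ j ∈ stepsUpTo A k.1, W ^ G.dist j.2 k.2 *
            qt (k.1 + 1 - j.1) j.2 ^ 2
        ≤ 2 * coefS ε ^ 2 * (((k.1 : ℝ) + 1) * 4 ^ (k.1 + 1) * B) :=
          mul_le_mul_of_nonneg_left hsum (by positivity)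
      _ = _ := by ring

end Vale.Agent.Lib.P161
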