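import Vale.Agent.Lib.P161.Orth
import Vale.Agent.Lib.P161.Sens

/-!
The outputs of the sampler on large convex sets are Cauchy in `L²`, for a fixed order.
-/

open MeasureTheory Finset

noncomputable section
namespace Vale.Agent.Lib.P161

open scoped Classical

variable {V : Type} {G : SimpleGraph V}

/-! ### an `L²` lemma -/

section chain
variable {Ω : Type} [MeasurableSpace Ω] {P : Measure Ω} [IsProbabilityMeasure P]

lemma abs_integral_mul_le {c e : Ω → ℝ} (hc : Measurable c) (he : Measurable e)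
    (hcb : ∀ x, |c x| ≤ 1) {C : ℝ} (heb : ∀ x, |e x| ≤ C) {δ : ℝ} (hδ : 0 < δ)
    (hs : ∫ x, e x ^ 2 ∂P ≤ δ ^ 2) : |∫ x, c x * e x ∂P| ≤ δ := by
  have hC : 0 ≤ C := (abs_nonneg _).trans (heb (Classical.choice ⟨P.nonempty_of_neZero.some⟩))
  have i1 : Integrable (fun x => c x * e x) P := intg (hc.mul he) (C := 1 * C) (fun x => by
    rw [abs_mul]; exact mul_le_mul (hcb x) (heb x) (abs_nonneg _) (by norm_num))
  have i2 : Integrable (fun x => e x ^ 2) P := intg (he.pow_const 2) (C := C ^ 2) (fun x => by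
    rw [abs_pow]; exact pow_le_pow_left₀ (abs_nonneg _) (heb x) 2)
  have i3 : Integrable (fun x => (δ ^ 2 + e x ^ 2) / (2 * δ)) P :=
    ((integrable_const _).add i2).div_const _
  have hbd : ∀ x, |c x * e x| ≤ (δ ^ 2 + e x ^ 2) / (2 * δ) := by
    intro x
    rw [abs_mul, le_div_iff₀ (by positivity)]
    have h1 : |c x| * |e x| ≤ |e x| := by
      have := mul_le_mul_of_nonneg_right (hcb x) (abs_nonneg (e x))
      linarith
    have h2 : |e x| * (2 * δ) ≤ δ ^ 2 + e x ^ 2 := by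
      have := sq_nonneg (|e x| - δ)
      rw [sub_sq, sq_abs] at this
      nlinarith
    have h3 := mul_le_mul_of_nonneg_right h1 (by positivity : 0 ≤ 2 * δ)
    linarith
  refine (abs_integral_le_integral_abs).trans ?_
  refine (integral_mono i1.abs i3 hbd).trans ?_
  rw [integral_div, integral_add (integrable_const _) i2, integral_const]
  have hreal : P.real Set.univ = 1 := by simp [Measure.real]
  simp only [hreal, smul_eq_mul, one_mul]
  rw [div_le_iff₀ (by positivity)]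
  nlinarith

/-- The `L²` chain: both variables correlate with a common approximate functional. -/
lemma chain_bound {a b φ ψa ψb : Ω → ℝ} (ma : Measurable a) (mb : Measurable b) (mφ : Measurable φ)
    (mψa : Measurable ψa) (mψb : Measurable ψb) (ba : ∀ x, |a x| ≤ 1) (bb' : ∀ x, |b x| ≤ 1)
    (bφ : ∀ x, |φ x| ≤ 1) (bψa : ∀ x, |ψa x| ≤ 1) (bψb : ∀ x, |ψb x| ≤ 1) {δ : ℝ} (hδ : 0 < δ)
    (h1 : ∫ x, (b x - φ x) ^ 2 ∂P ≤ δ ^ 2) (h2 : ∫ x, (φ x - ψa x) ^ 2 ∂P ≤ δ ^ 2)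
    (h3 : ∫ x, (φ x - ψb x) ^ 2 ∂P ≤ δ ^ 2) (h4 : ∫ x, a x ^ 2 ∂P = ∫ x, b x ^ 2 ∂P)
    (h5 : ∫ x, a x * ψa x ∂P = ∫ x, b x * ψb x ∂P) :
    ∫ x, (a x - b x) ^ 2 ∂P ≤ 8 * δ := by
  have bsub : ∀ {f g : Ω → ℝ}, (∀ x, |f x| ≤ 1) → (∀ x, |g x| ≤ 1) → ∀ x, |f x - g x| ≤ 2 := by
    intro f g hf hg x
    exact (abs_sub _ _).trans (by linarith [hf x, hg x])
  have mbφ : Measurable (fun x => b x - φ x) := mb.sub mφ
  have mφa : Measurable (fun x => φ x - ψa x) := mφ.sub mψa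
  have mφb : Measurable (fun x => φ x - ψb x) := mφ.sub mψb
  have c1 := abs_integral_mul_le (P := P) ma mbφ ba (bsub bb' bφ) hδ h1
  have c2 := abs_integral_mul_le (P := P) ma mφa ba (bsub bφ bψa) hδ h2
  have c3 := abs_integral_mul_le (P := P) mb mbφ bb' (bsub bb' bφ) hδ h1
  have c4 := abs_integral_mul_le (P := P) mb mφb bb' (bsub bφ bψb) hδ h3
  have intmul : ∀ {f g : Ω → ℝ}, Measurable f → Measurable g → (∀ x, |f x| ≤ 1) →
      ∀ {C : ℝ}, (∀ x, |g x| ≤ C) → Integrable (fun x => f x * g x) P := by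
    intro f g mf mg hf C hg
    exact intg (mf.mul mg) (C := 1 * C) (fun x => by
      rw [abs_mul]
      exact mul_le_mul (hf x) (hg x) (abs_nonneg _) (by norm_num))
  have iaψ := intmul ma mψa ba bψa
  have ibψ := intmul mb mψb bb' bψb
  have i1 := intmul ma mbφ ba (bsub bb' bφ)
  have i2 := intmul ma mφa ba (bsub bφ bψa)
  have i3 := intmul mb mbφ bb' (bsub bb' bφ)
  have i4 := intmul mb mφb bb' (bsub bφ bψb)
  have iab := intmul ma mb ba bb'
  have ibb := intmul mb mb bb' bb'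
  have iaa := intmul ma ma ba ba
  -- decompositions
  have e1 : ∫ x, a x * b x ∂P = ∫ x, a x * (b x - φ x) ∂P + ∫ x, a x * (φ x - ψa x) ∂P
      + ∫ x, a x * ψa x ∂P := by
    have i12 : Integrable (fun x => a x * (b x - φ x) + a x * (φ x - ψa x)) P := i1.add i2
    rw [← integral_add i1 i2, ← integral_add i12 iaψ]
    congr 1; funext x; ring
  have e2 : ∫ x, b x * b x ∂P = ∫ x, b x * (b x - φ x) ∂P + ∫ x, b x * (φ x - ψb x) ∂P
      + ∫ x, b x * ψb x ∂P := by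
    have i34 : Integrable (fun x => b x * (b x - φ x) + b x * (φ x - ψb x)) P := i3.add i4
    rw [← integral_add i3 i4, ← integral_add i34 ibψ]
    congr 1; funext x; ring
  have e3 : ∫ x, (a x - b x) ^ 2 ∂P = ∫ x, a x * a x ∂P + ∫ x, b x * b x ∂P
      - 2 * ∫ x, a x * b x ∂P := by
    have iaabb : Integrable (fun x => a x * a x + b x * b x) P := iaa.add ibb
    have i2ab : Integrable (fun x => 2 * (a x * b x)) P := iab.const_mul 2
    rw [← integral_const_mul, ← integral_add iaa ibb, ← integral_sub iaabb i2ab]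
    congr 1; funext x; ring
  have h4' : ∫ x, a x * a x ∂P = ∫ x, b x * b x ∂P := by
    have e4 : ∀ f : Ω → ℝ, ∫ x, f x * f x ∂P = ∫ x, f x ^ 2 ∂P := fun f => by
      congr 1; funext x; ring
    rw [e4, e4, h4]
  rw [e3, h4', e1]
  have := abs_le.1 c1
  have := abs_le.1 c2
  have := abs_le.1 c3
  have := abs_le.1 c4
  rw [e2, h5]
  linarith

end chain

/-! ### locality -/

/-- the steps near the target -/
def nearSteps (nb : V → Finset V) (k : St V) (r : ℕ) : Finset (St V) :=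
  (Finset.range (k.1 + 1)) ×ˢ ballF nb k.2 r

/-- Uniform locality of the output of the sampler. -/
theorem exists_local (hT : G.IsTree) {nb : V → Finset V} (hnb : ∀ u x, x ∈ nb u ↔ G.Adj u x)
    {θ ε W B : ℝ} (h0 : 0 ≤ θ) (h1 : θ < 1) (he0 : 0 ≤ ε) (he1 : ε < 1)
    (hW : 1 < W) (hB : 0 ≤ B) (hsmall : cTwo ε ^ 2 * B ≤ 1 / 4)
    (hK : ∀ (r : V) (A : Finset V) (f : V → ℝ),
      ∑ u ∈ A, W ^ G.dist u r * (∑ x ∈ A, θ ^ G.dist u x * f x) ^ 2
        ≤ B * ∑ u ∈ A, W ^ G.dist u r * f u ^ 2)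
    {A : Finset V} (hA : Conv G A) {k : St V} (hk : k.2 ∈ A) (τ : V → ℝ) (r : ℕ) :
    ∃ φ : (St V → ℝ) → ℝ, Measurable φ ∧ (∀ R, |φ R| ≤ 1) ∧
      (∀ R R', |φ R - φ R'| ≤ (1 + Csens ε B k.1) * ∑ j ∈ nearSteps nb k r, |cl (R j) - cl (R' j)|) ∧
      ∫ R, (yA G θ ε A τ R k - φ R) ^ 2 ∂noise (St V) ≤ 4 * Csens ε B k.1 * (W⁻¹) ^ r := by
  obtain ⟨T, hT0, hTL, hTs⟩ := sens (G := G) hT h0 h1 he0 he1 (by linarith : 0 < W) hB hsmall hA hk
    (hK k.2 A)
  set J := stepsUpTo A k.1 with hJ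
  set J₀ := nearSteps nb k r with hJ₀
  have hF : Measurable (fun R : St V → ℝ => yA G θ ε A τ R k) :=
    measurable_pi_iff.1 (measurable_yA_right (G := G) θ ε A τ) k
  obtain ⟨φ, hφm, hφb, hφL, -, hφs⟩ := efron_stein (hTL τ) hF (abs_yA_le θ ε A τ · k) hT0 (J \ J₀)
  have hW0 : 0 < W := by linarith
  have hwpos : ∀ j : St V, 0 < W ^ G.dist j.2 k.2 := fun j => pow_pos hW0 _
  have hw1 : ∀ j : St V, 1 ≤ W ^ G.dist j.2 k.2 := fun j => one_le_pow₀ hW.le
  have hCs : ∀ j ∈ J, W ^ G.dist j.2 k.2 * T j ^ 2 ≤ Csens ε B k.1 := by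
    intro j hj
    refine le_trans ?_ hTs
    exact Finset.single_le_sum (f := fun j => W ^ G.dist j.2 k.2 * T j ^ 2)
      (fun j _ => mul_nonneg (hwpos j).le (sq_nonneg _)) hj
  have hCs0 : 0 ≤ Csens ε B k.1 := by
    refine le_trans ?_ hTs
    exact Finset.sum_nonneg fun j _ => mul_nonneg (hwpos j).le (sq_nonneg _)
  have hTle : ∀ j ∈ J, T j ≤ 1 + Csens ε B k.1 := by
    intro j hj
    have h2 := hCs j hj
    have h3 : T j ^ 2 ≤ W ^ G.dist j.2 k.2 * T j ^ 2 := by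
      have := mul_le_mul_of_nonneg_right (hw1 j) (sq_nonneg (T j))
      linarith
    nlinarith [sq_nonneg (T j - 1)]
  refine ⟨φ, hφm, hφb, ?_, ?_⟩
  · intro R R'
    refine (hφL R R').trans ?_
    have hsub : J \ (J \ J₀) ⊆ J₀ := by
      intro j hj
      obtain ⟨h2, h3⟩ := Finset.mem_sdiff.1 hj
      by_contra hn
      exact h3 (Finset.mem_sdiff.2 ⟨h2, hn⟩)
    calc ∑ l ∈ J \ (J \ J₀), T l * |cl (R l) - cl (R' l)|
        ≤ ∑ l ∈ J \ (J \ J₀), (1 + Csens ε B k.1) * |cl (R l) - cl (R' l)| := by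
          refine Finset.sum_le_sum fun l hl => ?_
          exact mul_le_mul_of_nonneg_right (hTle l (Finset.mem_sdiff.1 hl).1) (abs_nonneg _)
      _ = (1 + Csens ε B k.1) * ∑ l ∈ J \ (J \ J₀), |cl (R l) - cl (R' l)| := by
          rw [Finset.mul_sum]
      _ ≤ (1 + Csens ε B k.1) * ∑ l ∈ J₀, |cl (R l) - cl (R' l)| := by
          refine mul_le_mul_of_nonneg_left ?_ (by linarith)
          exact Finset.sum_le_sum_of_subset_of_nonneg hsub fun _ _ _ => abs_nonneg _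
  · refine hφs.trans ?_
    have hfar : ∀ j ∈ J ∩ (J \ J₀), (W⁻¹) ^ r * W ^ G.dist j.2 k.2 ≥ 1 := by
      intro j hj
      obtain ⟨hj1, hj2⟩ := Finset.mem_inter.1 hj
      have hnot : j ∉ J₀ := (Finset.mem_sdiff.1 hj2).2
      have hjr : r ≤ G.dist j.2 k.2 := by
        by_contra hlt
        apply hnot
        have hj1' := Finset.mem_product.1 hj1
        refine Finset.mem_product.2 ⟨hj1'.1, ?_⟩
        rw [mem_ballF hT hnb]
        omega
      have h2 : W ^ r ≤ W ^ G.dist j.2 k.2 := pow_le_pow_right₀ hW.le hjr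
      have h3 : (W⁻¹) ^ r * W ^ r = 1 := by
        rw [← mul_pow, inv_mul_cancel₀ hW0.ne', one_pow]
      have h4 : 0 ≤ (W⁻¹) ^ r := by positivity
      calc (W⁻¹) ^ r * W ^ G.dist j.2 k.2 ≥ (W⁻¹) ^ r * W ^ r :=
            mul_le_mul_of_nonneg_left h2 h4
        _ = 1 := h3
    calc ∑ j ∈ J ∩ (J \ J₀), (2 * T j) ^ 2
        ≤ ∑ j ∈ J ∩ (J \ J₀), 4 * (W⁻¹) ^ r * (W ^ G.dist j.2 k.2 * T j ^ 2) := by
          refine Finset.sum_le_sum fun j hj => ?_
          have h2 := hfar j hj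
          have h3 := mul_le_mul_of_nonneg_right h2 (sq_nonneg (T j))
          nlinarith
      _ ≤ ∑ j ∈ J, 4 * (W⁻¹) ^ r * (W ^ G.dist j.2 k.2 * T j ^ 2) := by
          refine Finset.sum_le_sum_of_subset_of_nonneg Finset.inter_subset_left fun j _ _ => ?_
          have := hwpos j
          positivity
      _ = 4 * (W⁻¹) ^ r * ∑ j ∈ J, W ^ G.dist j.2 k.2 * T j ^ 2 := by
          rw [Finset.mul_sum]
      _ ≤ 4 * (W⁻¹) ^ r * Csens ε B k.1 :=
          mul_le_mul_of_nonneg_left hTs (by positivity)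
      _ = _ := by ring

/-! ### near-maximal second moments -/

lemma bb_near_sup (hT : G.IsTree) {θ ε : ℝ} (h0 : 0 ≤ θ) (h1 : θ < 1) (he0 : 0 ≤ ε) (he1 : ε < 1)
    {τ : V → ℝ} (hτ : Function.Injective τ) (j : St V) {δ : ℝ} (hδ : 0 < δ) :
    ∃ A₁ : Finset V, Conv G A₁ ∧ j.2 ∈ A₁ ∧ ∀ A, Conv G A → A₁ ⊆ A →
      bb G θ ε A τ j ≤ bb G θ ε A₁ τ j + δ := by
  let S : Set ℝ := {x | ∃ A : Finset V, Conv G A ∧ j.2 ∈ A ∧ x = bb G θ ε A τ j}
  have hne : S.Nonempty := ⟨_, {j.2}, conv_singleton hT j.2, by simp, rfl⟩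
  have hbd : BddAbove S := ⟨1, by
    rintro x ⟨A, -, -, rfl⟩
    exact bb_le_one h0 h1 ε A τ j⟩
  obtain ⟨x, ⟨A₁, hA₁, hj₁, rfl⟩, hlt⟩ := exists_lt_of_lt_csSup hne
    (by linarith : sSup S - δ < sSup S)
  refine ⟨A₁, hA₁, hj₁, fun A hA hsub => ?_⟩
  have : bb G θ ε A τ j ≤ sSup S := le_csSup hbd ⟨A, hA, hsub hj₁, rfl⟩
  linarith

/-! ### the Cauchy theorem -/

/-- **Cauchy theorem.** For an injective label function, the output at a step of the sampler on a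
convex finite set converges in `L²` as the set grows. -/
theorem cauchy_yA (hT : G.IsTree) {nb : V → Finset V} (hnb : ∀ u x, x ∈ nb u ↔ G.Adj u x)
    {θ ε W B : ℝ} (h0 : 0 ≤ θ) (h1 : θ < 1) (he0 : 0 ≤ ε) (he1 : ε < 1)
    (hW : 1 < W) (hB : 0 ≤ B) (hsmall : cTwo ε ^ 2 * B ≤ 1 / 4)
    (hK : ∀ (r : V) (A : Finset V) (f : V → ℝ),
      ∑ u ∈ A, W ^ G.dist u r * (∑ x ∈ A, θ ^ G.dist u x * f x) ^ 2
        ≤ B * ∑ u ∈ A, W ^ G.dist u r * f u ^ 2)
    {τ : V → ℝ} (hτ : Function.Injective τ) (k : St V) {δ : ℝ} (hδ : 0 < δ) :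
    ∃ A₀ : Finset V, Conv G A₀ ∧ k.2 ∈ A₀ ∧ ∀ A A' : Finset V, Conv G A → Conv G A' →
      A₀ ⊆ A → A₀ ⊆ A' →
        ∫ R, (yA G θ ε A τ R k - yA G θ ε A' τ R k) ^ 2 ∂noise (St V) ≤ δ := by
  set Cs := Csens ε B k.1 with hCs
  have hτA : ∀ A : Finset V, Set.InjOn τ A := fun A => hτ.injOn
  -- first the radius
  set δ₁ := δ / 8 with hδ₁
  have hδ₁pos : 0 < δ₁ := by positivity
  have hW0 : 0 < W := by linarith
  have hWinv : W⁻¹ < 1 := inv_lt_one_of_one_lt₀ hW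
  have hWinv0 : 0 ≤ W⁻¹ := by positivity
  obtain ⟨r, hr⟩ : ∃ r : ℕ, 4 * Cs * (W⁻¹) ^ r ≤ δ₁ ^ 2 := by
    have hCsnn : 0 < 4 * Cs + 1 := by
      have : 0 ≤ Cs := by
        rw [hCs]
        unfold Csens coefS
        have h3 : 0 < 1 - ε := by linarith
        have := cOne_nonneg he0 he1
        positivity
      linarith
    obtain ⟨r, hr⟩ := exists_pow_lt_of_lt_one (by positivity : 0 < δ₁ ^ 2 / (4 * Cs + 1)) hWinv
    refine ⟨r, ?_⟩
    have h3 : 0 ≤ (W⁻¹) ^ r := by positivity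
    rw [lt_div_iff₀ (by positivity)] at hr
    nlinarith
  set J₀ := nearSteps nb k r with hJ₀
  set nJ : ℝ := (J₀.card : ℝ) with hnJ
  set Lb := 1 + Cs with hLb
  have hCs0 : 0 ≤ Cs := by
    rw [hCs]
    unfold Csens coefS
    have h3 : 0 < 1 - ε := by linarith
    have := cOne_nonneg he0 he1
    positivity
  have hLb0 : 0 < Lb := by linarith
  set δ₂ := δ₁ ^ 2 / (Lb ^ 2 * nJ ^ 2 + 1) with hδ₂
  have hδ₂pos : 0 < δ₂ := by positivity
  -- the volume `A₀`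
  choose! A₁ hA₁c hA₁m hA₁b using fun j : St V =>
    bb_near_sup (G := G) hT h0 h1 he0 he1 hτ j hδ₂pos
  obtain ⟨A₀, hA₀, hA₀s, hA₀n⟩ := exists_conv_superset hT hnb
    (insert k.2 (ballF nb k.2 r ∪ J₀.biUnion A₁))
  have hkA₀ : k.2 ∈ A₀ := hA₀s (Finset.mem_insert_self _ _)
  have hballA₀ : ballF nb k.2 r ⊆ A₀ := fun x hx =>
    hA₀s (Finset.mem_insert_of_mem (Finset.mem_union_left _ hx))
  have hA₁A₀ : ∀ j ∈ J₀, A₁ j ⊆ A₀ := fun j hj x hx =>
    hA₀s (Finset.mem_insert_of_mem (Finset.mem_union_right _ (Finset.mem_biUnion.2 ⟨j, hj, hx⟩)))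
  have hJ₀A₀ : ∀ j ∈ J₀, j.2 ∈ A₀ := fun j hj => hballA₀ (Finset.mem_product.1 hj).2
  refine ⟨A₀, hA₀, hkA₀, fun A A' hA hA' hsub hsub' => ?_⟩
  -- the approximate inverse
  let Gm : (St V → ℝ) → St V → ℝ := fun y j =>
    if j ∈ J₀ then Tc (ε * stepM G θ ε A₀ τ j y) (y j) else 0
  have hGm : Measurable Gm := by
    refine measurable_pi_iff.2 fun j => ?_
    by_cases hj : j ∈ J₀
    · simp only [Gm, if_pos hj]
      unfold Tc
      have m1 : Measurable (fun y : St V → ℝ => y j) := measurable_pi_apply j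
      have m2 := measurable_stepM_right (G := G) θ ε A₀ τ j
      exact m1.add (((m2.const_mul ε).mul ((m1.pow_const 2).sub measurable_const)).div_const 2)
    · simp only [Gm, if_neg hj]
      exact measurable_const
  -- general estimate on a volume containing `A₀`
  have happrox : ∀ (B' : Finset V), Conv G B' → A₀ ⊆ B' → ∀ φ : (St V → ℝ) → ℝ, Measurable φ →
      (∀ R, |φ R| ≤ 1) →
      (∀ R R', |φ R - φ R'| ≤ Lb * ∑ j ∈ J₀, |cl (R j) - cl (R' j)|) →
      ∫ R, (φ R - φ (Gm (yA G θ ε B' τ R))) ^ 2 ∂noise (St V) ≤ δ₁ ^ 2 := by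
    intro B' hB' hsubB' φ hφm hφb hφL
    have hyB : Measurable (fun R : St V → ℝ => yA G θ ε B' τ R) := measurable_yA_right θ ε B' τ
    -- each coordinate
    have hcoord : ∀ j ∈ J₀, ∫ R, (cl (R j) - Gm (yA G θ ε B' τ R) j) ^ 2 ∂noise (St V) ≤ δ₂ := by
      intro j hj
      have hjB : j.2 ∈ B' := hsubB' (hJ₀A₀ j hj)
      have hj0 : j.2 ∈ A₀ := hJ₀A₀ j hj
      have horth := orth_eq hT h0 h1 he0 he1 hA₀ hB' hsubB' (hτA B') hj0
      have hle1 : bb G θ ε (A₁ j) τ j ≤ bb G θ ε A₀ τ j :=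
        bb_mono hT h0 h1 he0 he1 (hA₁c j) hA₀ (hA₁A₀ j hj) (hτA A₀) (hA₁m j)
      have hle2 := hA₁b j B' hB' ((hA₁A₀ j hj).trans hsubB')
      have hm1 : Measurable (fun R => stepM G θ ε B' τ j (yA G θ ε B' τ R)) :=
        (measurable_stepM_right θ ε B' τ j).comp hyB
      have hm2 : Measurable (fun R => stepM G θ ε A₀ τ j (yA G θ ε B' τ R)) :=
        (measurable_stepM_right θ ε A₀ τ j).comp hyB
      have hI : Integrable (fun R => (stepM G θ ε B' τ j (yA G θ ε B' τ R)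
          - stepM G θ ε A₀ τ j (yA G θ ε B' τ R)) ^ 2) (noise (St V)) := by
        refine intg ((hm1.sub hm2).pow_const 2) (C := 2 ^ 2) (fun R => ?_)
        rw [abs_pow]
        refine pow_le_pow_left₀ (abs_nonneg _) ?_ 2
        exact (abs_sub _ _).trans (by
          linarith [abs_stepM_le (G := G) h0 h1 ε B' τ j (yA G θ ε B' τ R),
            abs_stepM_le (G := G) h0 h1 ε A₀ τ j (yA G θ ε B' τ R)])
      have hmono : ∫ R, (cl (R j) - Gm (yA G θ ε B' τ R) j) ^ 2 ∂noise (St V)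
          ≤ ∫ R, (stepM G θ ε B' τ j (yA G θ ε B' τ R)
            - stepM G θ ε A₀ τ j (yA G θ ε B' τ R)) ^ 2 ∂noise (St V) := by
        refine integral_mono_of_nonneg (ae_of_all _ fun R => sq_nonneg _) hI
          (ae_of_all _ fun R => ?_)
        simp only [Gm, if_pos hj]
        rw [← sq_abs (cl (R j) - _), ← sq_abs (stepM G θ ε B' τ j _ - _)]
        exact pow_le_pow_left₀ (abs_nonneg _) (abs_cl_sub_Tc_le A₀ B' τ R hjB he0 he1) 2
      refine hmono.trans ?_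
      rw [horth]
      linarith
    -- combine
    have hpt : ∀ R, (φ R - φ (Gm (yA G θ ε B' τ R))) ^ 2
        ≤ Lb ^ 2 * nJ * ∑ j ∈ J₀, (cl (R j) - Gm (yA G θ ε B' τ R) j) ^ 2 := by
      intro R
      have h2 := hφL R (Gm (yA G θ ε B' τ R))
      have h3 : ∀ j, |cl (R j) - cl (Gm (yA G θ ε B' τ R) j)|
          ≤ |cl (R j) - Gm (yA G θ ε B' τ R) j| := by
        intro j
        have := cl_lip (cl (R j)) (Gm (yA G θ ε B' τ R) j)
        rwa [cl_cl] at this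
      have h4 : |φ R - φ (Gm (yA G θ ε B' τ R))|
          ≤ Lb * ∑ j ∈ J₀, |cl (R j) - Gm (yA G θ ε B' τ R) j| :=
        h2.trans (mul_le_mul_of_nonneg_left (Finset.sum_le_sum fun j _ => h3 j) hLb0.le)
      have h5 : (∑ j ∈ J₀, |cl (R j) - Gm (yA G θ ε B' τ R) j|) ^ 2
          ≤ nJ * ∑ j ∈ J₀, (cl (R j) - Gm (yA G θ ε B' τ R) j) ^ 2 := by
        have := sq_sum_le_card_mul_sum_sq (s := J₀)
          (f := fun j => |cl (R j) - Gm (yA G θ ε B' τ R) j|)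
        simpa [sq_abs] using this
      rw [← sq_abs]
      calc |φ R - φ (Gm (yA G θ ε B' τ R))| ^ 2
          ≤ (Lb * ∑ j ∈ J₀, |cl (R j) - Gm (yA G θ ε B' τ R) j|) ^ 2 :=
            pow_le_pow_left₀ (abs_nonneg _) h4 2
        _ = Lb ^ 2 * (∑ j ∈ J₀, |cl (R j) - Gm (yA G θ ε B' τ R) j|) ^ 2 := by ring
        _ ≤ Lb ^ 2 * (nJ * ∑ j ∈ J₀, (cl (R j) - Gm (yA G θ ε B' τ R) j) ^ 2) :=
            mul_le_mul_of_nonneg_left h5 (by positivity)
        _ = _ := by ring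
    have hmcoord : ∀ j, Measurable (fun R : St V → ℝ => (cl (R j) - Gm (yA G θ ε B' τ R) j) ^ 2) := by
      intro j
      exact ((measurable_cl.comp (measurable_pi_apply j)).sub
        ((measurable_pi_apply j).comp (hGm.comp hyB))).pow_const 2
    have hbcoord : ∀ j R, |(cl (R j) - Gm (yA G θ ε B' τ R) j) ^ 2| ≤ (1 + 1) ^ 2 := by
      intro j R
      rw [abs_pow]
      refine pow_le_pow_left₀ (abs_nonneg _) ?_ 2
      refine (abs_sub _ _).trans (add_le_add (abs_cl_le _) ?_)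
      by_cases hj : j ∈ J₀
      · simp only [Gm, if_pos hj]
        refine abs_Tc_le ?_ (abs_yA_le θ ε B' τ R j)
        rw [abs_mul, abs_of_nonneg he0]
        calc ε * |stepM G θ ε A₀ τ j _| ≤ 1 * 1 :=
              mul_le_mul he1.le (abs_stepM_le h0 h1 ε A₀ τ j _) (abs_nonneg _) (by norm_num)
          _ = 1 := by norm_num
      · simp only [Gm, if_neg hj]; simp
    have hIc : ∀ j, Integrable (fun R : St V → ℝ => (cl (R j) - Gm (yA G θ ε B' τ R) j) ^ 2)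
        (noise (St V)) := fun j => intg (hmcoord j) (hbcoord j)
    calc ∫ R, (φ R - φ (Gm (yA G θ ε B' τ R))) ^ 2 ∂noise (St V)
        ≤ ∫ R, Lb ^ 2 * nJ * ∑ j ∈ J₀, (cl (R j) - Gm (yA G θ ε B' τ R) j) ^ 2 ∂noise (St V) := by
          refine integral_mono_of_nonneg (ae_of_all _ fun R => sq_nonneg _) ?_ (ae_of_all _ hpt)
          exact (integrable_finset_sum _ fun j _ => hIc j).const_mul _
      _ = Lb ^ 2 * nJ * ∑ j ∈ J₀, ∫ R, (cl (R j) - Gm (yA G θ ε B' τ R) j) ^ 2 ∂noise (St V) := by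
          rw [integral_const_mul, integral_finset_sum _ fun j _ => hIc j]
      _ ≤ Lb ^ 2 * nJ * ∑ _j ∈ J₀, δ₂ :=
          mul_le_mul_of_nonneg_left (Finset.sum_le_sum hcoord) (by positivity)
      _ = Lb ^ 2 * nJ ^ 2 * δ₂ := by
          rw [Finset.sum_const, nsmul_eq_mul]; ring
      _ ≤ δ₁ ^ 2 := by
          rw [hδ₂, mul_div_assoc']
          rw [div_le_iff₀ (by positivity)]
          have : 0 ≤ δ₁ ^ 2 := by positivity
          nlinarith
  -- locality on `A'`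
  have hkA' : k.2 ∈ A' := hsub' hkA₀
  obtain ⟨φ, hφm, hφb, hφL, hφs⟩ := exists_local hT hnb h0 h1 he0 he1 hW hB hsmall hK hA' hkA' τ r
  -- the observation functional
  let ψ : (St V → ℝ) → ℝ := fun y => φ (Gm y)
  have hψ : Measurable ψ := hφm.comp hGm
  have hψb : ∀ y, |ψ y| ≤ 1 := fun y => hφb _
  have hyA : Measurable (fun R : St V → ℝ => yA G θ ε A τ R) := measurable_yA_right θ ε A τ
  have hyA' : Measurable (fun R : St V → ℝ => yA G θ ε A' τ R) := measurable_yA_right θ ε A' τ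
  have h₁ := happrox A hA hsub φ hφm hφb hφL
  have h₂ := happrox A' hA' hsub' φ hφm hφb hφL
  -- the finite set of observations
  let Q : Finset (St V) := stepsUpTo A₀ k.1
  have hQ : ∀ j ∈ Q, j.2 ∈ A₀ := fun j hj => (Finset.mem_product.1 hj).2
  have hkQ : k ∈ Q := by
    refine Finset.mem_product.2 ⟨?_, hkA₀⟩
    simp
  have hJ₀Q : J₀ ⊆ Q := fun j hj => by
    obtain ⟨h2, h3⟩ := Finset.mem_product.1 hj
    exact Finset.mem_product.2 ⟨h2, hballA₀ h3⟩
  have hPriorQ : ∀ j ∈ J₀, Prior A₀ τ j ⊆ Q := by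
    intro j hj l hl
    obtain ⟨h2, h3⟩ := mem_Prior.1 hl
    have h4 := Finset.mem_range.1 (Finset.mem_product.1 hj).1
    refine Finset.mem_product.2 ⟨Finset.mem_range.2 ?_, h2⟩
    rcases h3 with h3 | ⟨h3, _⟩ <;> omega
  have hGmd : ∀ y y' : St V → ℝ, (∀ j ∈ Q, y j = y' j) → Gm y = Gm y' := by
    intro y y' h
    funext j
    by_cases hj : j ∈ J₀
    · simp only [Gm, if_pos hj]
      rw [stepM_congr (fun l hl => h l (hPriorQ j hj hl)), h j (hJ₀Q hj)]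
    · simp only [Gm, if_neg hj]
  -- equal laws
  have hlaw : ∀ f : (St V → ℝ) → ℝ, Measurable f → (∀ y, |f y| ≤ 1) →
      (∀ y y' : St V → ℝ, (∀ j ∈ Q, y j = y' j) → f y = f y') →
      ∫ R, f (yA G θ ε A τ R) ∂noise (St V) = ∫ R, f (yA G θ ε A' τ R) ∂noise (St V) := by
    intro f hf hfb hfd
    rw [law_yA hT h0 h1 he0 he1 hA₀ hA ⟨_, hkA₀⟩ hsub (hτA A) hQ hf hfb hfd,
      law_yA hT h0 h1 he0 he1 hA₀ hA' ⟨_, hkA₀⟩ hsub' (hτA A') hQ hf hfb hfd]
  have hyk : ∀ (A'' : Finset V) R, cl (yA G θ ε A'' τ R k) = yA G θ ε A'' τ R k := fun A'' R =>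
    cl_of_mem (abs_le.1 (abs_yA_le θ ε A'' τ R k))
  have hclk : Measurable (fun y : St V → ℝ => cl (y k)) :=
    measurable_cl.comp (measurable_pi_apply k)
  have e4 : ∫ R, yA G θ ε A τ R k ^ 2 ∂noise (St V) = ∫ R, yA G θ ε A' τ R k ^ 2 ∂noise (St V) := by
    have := hlaw (fun y => cl (y k) ^ 2) (hclk.pow_const 2) (fun y => by
      rw [abs_pow]; exact pow_le_one₀ (abs_nonneg _) (abs_cl_le _)) (fun y y' h => by
      simp only [h k hkQ])
    simpa only [hyk] using this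
  have e5 : ∫ R, yA G θ ε A τ R k * ψ (yA G θ ε A τ R) ∂noise (St V)
      = ∫ R, yA G θ ε A' τ R k * ψ (yA G θ ε A' τ R) ∂noise (St V) := by
    have := hlaw (fun y => cl (y k) * ψ y) (hclk.mul hψ) (fun y => by
      rw [abs_mul]
      calc |cl (y k)| * |ψ y| ≤ 1 * 1 :=
            mul_le_mul (abs_cl_le _) (hψb y) (abs_nonneg _) (by norm_num)
        _ = 1 := by norm_num) (fun y y' h => by
      simp only [h k hkQ, ψ, hGmd y y' h])
    simpa only [hyk] using this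
  -- the `L²` chain
  have hfinal := chain_bound (P := noise (St V))
    (a := fun R => yA G θ ε A τ R k) (b := fun R => yA G θ ε A' τ R k) (φ := φ)
    (ψa := fun R => ψ (yA G θ ε A τ R)) (ψb := fun R => ψ (yA G θ ε A' τ R))
    (measurable_pi_iff.1 hyA k) (measurable_pi_iff.1 hyA' k) hφm (hψ.comp hyA)
    (hψ.comp hyA') (fun R => abs_yA_le θ ε A τ R k) (fun R => abs_yA_le θ ε A' τ R k) hφb
    (fun R => hψb _) (fun R => hψb _) hδ₁pos (hφs.trans hr) h₁ h₂ e4 e5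
  have : 8 * δ₁ = δ := by rw [hδ₁]; ring
  rwa [this] at hfinal

end Vale.Agent.Lib.P161
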