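import Mathlib

/-!
The one-dimensional channel: clamp, transport map, log-likelihood, noise law.
-/

open MeasureTheory Set

noncomputable section
namespace Vale.Agent.Lib.P161

/-- clamp to `[-1, 1]` -/
def cl (r : ℝ) : ℝ := max (-1) (min 1 r)

lemma cl_mem (r : ℝ) : cl r ∈ Icc (-1 : ℝ) 1 := by
  unfold cl
  constructor
  · exact le_max_left _ _
  · exact max_le (by norm_num) (min_le_left _ _)

lemma abs_cl_le (r : ℝ) : |cl r| ≤ 1 := abs_le.2 (cl_mem r)

lemma cl_of_mem {r : ℝ} (h : r ∈ Icc (-1 : ℝ) 1) : cl r = r := by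
  unfold cl
  rw [min_eq_right h.2, max_eq_right h.1]

lemma cl_cl (r : ℝ) : cl (cl r) = cl r := cl_of_mem (cl_mem r)

lemma cl_lip (a b : ℝ) : |cl a - cl b| ≤ |a - b| := by
  unfold cl
  refine (abs_max_sub_max_le_max _ _ _ _).trans (max_le (by simp) ?_)
  refine (abs_min_sub_min_le_max _ _ _ _).trans (max_le (by simp) le_rfl)

lemma continuous_cl : Continuous cl := by
  unfold cl; fun_prop

lemma measurable_cl : Measurable cl := continuous_cl.measurable

/-- the channel map `T_c (y) = y + c (y^2 - 1) / 2` -/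
def Tc (c y : ℝ) : ℝ := y + c * (y ^ 2 - 1) / 2

/-- the inverse transport -/
def Sf (r c : ℝ) : ℝ := (c + 2 * cl r) / (1 + Real.sqrt (1 + c ^ 2 + 2 * c * cl r))

section Sf
variable {r c : ℝ}

lemma radicand_eq (r c : ℝ) : 1 + c ^ 2 + 2 * c * cl r = (c + cl r) ^ 2 + (1 - cl r ^ 2) := by ring

lemma radicand_nonneg (r c : ℝ) : 0 ≤ 1 + c ^ 2 + 2 * c * cl r := by
  rw [radicand_eq]
  have h := abs_cl_le r
  have : cl r ^ 2 ≤ 1 := by
    have := sq_le_one_iff_abs_le_one (cl r)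
    exact this.2 h
  nlinarith [sq_nonneg (c + cl r)]

lemma sqrt_ge (r c : ℝ) : |c + cl r| ≤ Real.sqrt (1 + c ^ 2 + 2 * c * cl r) := by
  apply Real.abs_le_sqrt
  rw [radicand_eq]
  have h := abs_cl_le r
  have : cl r ^ 2 ≤ 1 := (sq_le_one_iff_abs_le_one (cl r)).2 h
  nlinarith

lemma denom_pos (r c : ℝ) : 0 < 1 + Real.sqrt (1 + c ^ 2 + 2 * c * cl r) := by
  have := Real.sqrt_nonneg (1 + c ^ 2 + 2 * c * cl r)
  linarith

lemma abs_Sf_le (r c : ℝ) : |Sf r c| ≤ 1 := by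
  unfold Sf
  rw [abs_div, abs_of_pos (denom_pos r c), div_le_one (denom_pos r c)]
  have h1 := sqrt_ge r c
  have h2 := abs_cl_le r
  have : c + 2 * cl r = (c + cl r) + cl r := by ring
  rw [this]
  exact (abs_add_le _ _).trans (by linarith)

lemma Tc_Sf (r c : ℝ) : Tc c (Sf r c) = cl r := by
  unfold Tc Sf
  set t := Real.sqrt (1 + c ^ 2 + 2 * c * cl r) with ht
  have ht2 : t ^ 2 = 1 + c ^ 2 + 2 * c * cl r := Real.sq_sqrt (radicand_nonneg r c)
  have hd : 1 + t ≠ 0 := (denom_pos r c).ne'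
  set y := (c + 2 * cl r) / (1 + t) with hy
  have hy1 : y * (1 + t) = c + 2 * cl r := by
    rw [hy]; field_simp
  have hcy : c * y = t - 1 := by
    have : (c * y) * (1 + t) = (t - 1) * (1 + t) := by
      calc (c * y) * (1 + t) = c * (y * (1 + t)) := by ring
        _ = c * (c + 2 * cl r) := by rw [hy1]
        _ = t ^ 2 - 1 := by rw [ht2]; ring
        _ = (t - 1) * (1 + t) := by ring
    exact mul_right_cancel₀ hd this
  calc y + c * (y ^ 2 - 1) / 2 = y + ((c * y) * y - c) / 2 := by ring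
    _ = (y * (1 + t) - c) / 2 := by rw [hcy]; ring
    _ = cl r := by rw [hy1]; ring

end Sf

lemma Tc_sub_same (c y y' : ℝ) : Tc c y - Tc c y' = (y - y') * (1 + c * (y + y') / 2) := by
  unfold Tc; ring

lemma Tc_sub_param (c c' y : ℝ) : Tc c y - Tc c' y = (c - c') * (y ^ 2 - 1) / 2 := by
  unfold Tc; ring

/-- lower bound for the slope -/
lemma abs_Tc_sub_ge {ε c y y' : ℝ} (hc : |c| ≤ ε) (hy : |y| ≤ 1) (hy' : |y'| ≤ 1) :
    (1 - ε) * |y - y'| ≤ |Tc c y - Tc c y'| := by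
  rw [Tc_sub_same, abs_mul, mul_comm]
  have h1 : |c * (y + y') / 2| ≤ ε := by
    rw [abs_div, abs_mul, abs_two, div_le_iff₀ (by norm_num : (0:ℝ) < 2)]
    have : |y + y'| ≤ 2 := (abs_add_le _ _).trans (by linarith)
    have hε : 0 ≤ ε := (abs_nonneg c).trans hc
    exact mul_le_mul hc this (abs_nonneg _) hε
  have h2 : 1 - ε ≤ |1 + c * (y + y') / 2| := by
    have := abs_le.1 h1
    have h3 : 1 - ε ≤ 1 + c * (y + y') / 2 := by linarith
    exact h3.trans (le_abs_self _)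
  exact mul_le_mul_of_nonneg_left h2 (abs_nonneg _)

lemma abs_Tc_sub_param_le (c c' : ℝ) {y : ℝ} (hy : |y| ≤ 1) :
    |Tc c y - Tc c' y| ≤ |c - c'| / 2 := by
  rw [Tc_sub_param, abs_div, abs_mul, abs_two]
  have : |y ^ 2 - 1| ≤ 1 := by
    have h2 : y ^ 2 ≤ 1 := (sq_le_one_iff_abs_le_one y).2 hy
    rw [abs_le]
    constructor <;> nlinarith [sq_nonneg y]
  gcongr
  calc |c - c'| * |y ^ 2 - 1| ≤ |c - c'| * 1 := by gcongr
    _ = |c - c'| := mul_one _

/-- Lipschitz estimate for the transport. -/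
lemma Sf_lipschitz {ε r r' c c' : ℝ} (hε : ε < 1) (hc : |c| ≤ ε) :
    |Sf r c - Sf r' c'| ≤ (|cl r - cl r'| + |c - c'| / 2) / (1 - ε) := by
  have hpos : 0 < 1 - ε := by linarith
  rw [le_div_iff₀ hpos, mul_comm]
  have hy := abs_Sf_le r c
  have hy' := abs_Sf_le r' c'
  have h1 := abs_Tc_sub_ge hc hy hy'
  have h2 := abs_Tc_sub_param_le c c' hy'
  have e : Tc c (Sf r c) - Tc c (Sf r' c')
      = (cl r - cl r') - (Tc c (Sf r' c') - Tc c' (Sf r' c')) := by
    rw [Tc_Sf, Tc_Sf]; ring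
  rw [e] at h1
  refine h1.trans ?_
  exact (abs_sub _ _).trans (by linarith)

lemma abs_Tc_le {c y : ℝ} (hc : |c| ≤ 1) (hy : |y| ≤ 1) : |Tc c y| ≤ 1 := by
  have h1 : Tc c y - Tc c (-1) = (y + 1) * (1 + c * (y + -1) / 2) := by
    rw [Tc_sub_same]; ring
  have h2 : Tc c 1 - Tc c y = (1 - y) * (1 + c * (1 + y) / 2) := by
    rw [Tc_sub_same]
  have e1 : Tc c (-1) = -1 := by unfold Tc; ring
  have e2 : Tc c 1 = 1 := by unfold Tc; ring
  rw [e1] at h1
  rw [e2] at h2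
  obtain ⟨hy1, hy2⟩ := abs_le.1 hy
  obtain ⟨hc1, hc2⟩ := abs_le.1 hc
  have p1 : 0 ≤ 1 + c * (y + -1) / 2 := by nlinarith
  have p2 : 0 ≤ 1 + c * (1 + y) / 2 := by nlinarith
  rw [abs_le]
  constructor
  · nlinarith [mul_nonneg (by linarith : 0 ≤ y + 1) p1]
  · nlinarith [mul_nonneg (by linarith : 0 ≤ 1 - y) p2]

/-- `Sf` inverts `Tc`. -/
lemma Sf_Tc {ε c y : ℝ} (hε : ε < 1) (hc : |c| ≤ ε) (hy : |y| ≤ 1) : Sf (Tc c y) c = y := by
  have hc1 : |c| ≤ 1 := hc.trans hε.le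
  have h1 : Tc c (Sf (Tc c y) c) = Tc c y := by
    rw [Tc_Sf]
    exact cl_of_mem (abs_le.1 (abs_Tc_le hc1 hy))
  have h2 := abs_Tc_sub_ge hc (abs_Sf_le (Tc c y) c) hy
  rw [h1, sub_self, abs_zero] at h2
  have hpos : 0 < 1 - ε := by linarith
  have : |Sf (Tc c y) c - y| ≤ 0 := by
    by_contra hne
    have := mul_pos hpos (not_le.1 hne)
    linarith
  have h3 := abs_nonpos_iff.1 this
  linarith

/-! ### log-likelihood -/

/-- `ζ(t) = atanh (ε t)` -/
def zeta (ε t : ℝ) : ℝ := (1 / 2) * Real.log ((1 + ε * t) / (1 - ε * t))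

lemma measurable_zeta (ε : ℝ) : Measurable (zeta ε) := by
  unfold zeta
  fun_prop

lemma zeta_identity {ε t σ : ℝ} (h0 : 0 ≤ ε) (h1 : ε < 1) (ht : |t| ≤ 1) (hσ : σ = 1 ∨ σ = -1) :
    1 + ε * σ * t = Real.sqrt (1 - ε ^ 2 * t ^ 2) * Real.exp (σ * zeta ε t) := by
  have hεt : |ε * t| < 1 := by
    rw [abs_mul, abs_of_nonneg h0]
    calc ε * |t| ≤ ε * 1 := by gcongr
      _ < 1 := by linarith
  obtain ⟨h2, h3⟩ := abs_lt.1 hεt
  have hp : 0 < 1 + ε * t := by linarith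
  have hm : 0 < 1 - ε * t := by linarith
  have hprod : 1 - ε ^ 2 * t ^ 2 = (1 + ε * t) * (1 - ε * t) := by ring
  have hpos : Real.exp (zeta ε t) = Real.sqrt ((1 + ε * t) / (1 - ε * t)) := by
    unfold zeta
    rw [Real.sqrt_eq_rpow, ← Real.exp_log (div_pos hp hm), Real.log_exp, ← Real.exp_mul]
    ring_nf
  have hneg : Real.exp (- zeta ε t) = Real.sqrt ((1 - ε * t) / (1 + ε * t)) := by
    rw [Real.exp_neg, hpos, ← Real.sqrt_inv, inv_div]
  rcases hσ with rfl | rfl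
  · rw [one_mul, mul_one, hprod, hpos, ← Real.sqrt_mul (by positivity)]
    have : (1 + ε * t) * (1 - ε * t) * ((1 + ε * t) / (1 - ε * t)) = (1 + ε * t) ^ 2 := by
      field_simp
    rw [this, Real.sqrt_sq hp.le]
  · rw [neg_one_mul, hprod, hneg, ← Real.sqrt_mul (by positivity)]
    have : (1 + ε * t) * (1 - ε * t) * ((1 - ε * t) / (1 + ε * t)) = (1 - ε * t) ^ 2 := by
      field_simp
    rw [this, Real.sqrt_sq hm.le]
    ring

/-- Lipschitz estimate for `ζ`. -/
lemma zeta_lipschitz {ε s t : ℝ} (h0 : 0 ≤ ε) (h1 : ε < 1) (hs : |s| ≤ 1) (ht : |t| ≤ 1) :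
    |zeta ε s - zeta ε t| ≤ ε / (1 - ε ^ 2) * |s - t| := by
  have hε2 : 0 < 1 - ε ^ 2 := by nlinarith
  have hbd : ∀ x ∈ Icc (-1 : ℝ) 1, 0 < 1 + ε * x ∧ 0 < 1 - ε * x := by
    intro x hx
    have hx' : |ε * x| < 1 := by
      rw [abs_mul, abs_of_nonneg h0]
      calc ε * |x| ≤ ε * 1 := by gcongr; exact abs_le.2 hx
        _ < 1 := by linarith
    obtain ⟨h2, h3⟩ := abs_lt.1 hx'
    exact ⟨by linarith, by linarith⟩
  have hder : ∀ x ∈ Icc (-1 : ℝ) 1, HasDerivWithinAt (zeta ε) (ε / (1 - ε ^ 2 * x ^ 2))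
      (Icc (-1 : ℝ) 1) x := by
    intro x hx
    obtain ⟨hp, hm⟩ := hbd x hx
    have d1 : HasDerivAt (fun x : ℝ => 1 + ε * x) ε x := by
      simpa using ((hasDerivAt_id x).const_mul ε).const_add 1
    have d2 : HasDerivAt (fun x : ℝ => 1 - ε * x) (-ε) x := by
      simpa using ((hasDerivAt_id x).const_mul ε).const_sub 1
    have d3 := (d1.div d2 hm.ne').log (div_pos hp hm).ne'
    have d4 := d3.const_mul (1 / 2 : ℝ)
    have e : (1 / 2 : ℝ) * ((ε * (1 - ε * x) - (1 + ε * x) * (-ε)) / (1 - ε * x) ^ 2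
        / ((1 + ε * x) / (1 - ε * x))) = ε / (1 - ε ^ 2 * x ^ 2) := by
      have : 1 - ε ^ 2 * x ^ 2 = (1 + ε * x) * (1 - ε * x) := by ring
      rw [this]
      field_simp
      ring
    rw [← e]
    exact d4.hasDerivWithinAt
  have hbound : ∀ x ∈ Icc (-1 : ℝ) 1, ‖ε / (1 - ε ^ 2 * x ^ 2)‖ ≤ ε / (1 - ε ^ 2) := by
    intro x hx
    have hx2 : x ^ 2 ≤ 1 := (sq_le_one_iff_abs_le_one x).2 (abs_le.2 hx)
    have hdpos : 0 < 1 - ε ^ 2 * x ^ 2 := by nlinarith [sq_nonneg ε]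
    rw [Real.norm_of_nonneg (by positivity)]
    apply div_le_div_of_nonneg_left h0 hε2
    nlinarith [sq_nonneg ε]
  have := Convex.norm_image_sub_le_of_norm_hasDerivWithin_le hder hbound
    (convex_Icc (-1 : ℝ) 1) (abs_le.1 ht) (abs_le.1 hs)
  simpa [Real.norm_eq_abs] using this

/-! ### the noise law -/

/-- uniform law on `[-1,1]` -/
def lam : Measure ℝ := (2⁻¹ : ENNReal) • (volume.restrict (Icc (-1 : ℝ) 1))

instance : IsProbabilityMeasure lam := by
  constructor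
  unfold lam
  simp only [Measure.smul_apply, Measure.restrict_apply_univ, Real.volume_Icc, smul_eq_mul]
  norm_num
  exact ENNReal.inv_mul_cancel (by norm_num) (by norm_num)

lemma integral_lam (g : ℝ → ℝ) : ∫ t, g t ∂lam = (1 / 2) * ∫ t in Icc (-1 : ℝ) 1, g t := by
  unfold lam
  rw [integral_smul_measure]
  simp

lemma lam_singleton (x : ℝ) : lam {x} = 0 := by
  unfold lam
  simp only [Measure.smul_apply, smul_eq_mul]
  rw [Measure.restrict_apply (measurableSet_singleton x)]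
  have : volume ({x} ∩ Icc (-1 : ℝ) 1) = 0 := measure_mono_null Set.inter_subset_left (by simp)
  rw [this, mul_zero]

/-- Change of variables: `Sf` transports `lam` to the density `1 + c y`. -/
theorem integral_Sf {ε c : ℝ} (hε : ε < 1) (hc : |c| ≤ ε) (g : ℝ → ℝ) :
    ∫ t, g (Sf t c) ∂lam = ∫ t, g (cl t) * (1 + c * cl t) ∂lam := by
  have hc1 : |c| ≤ 1 := hc.trans hε.le
  rw [integral_lam, integral_lam]
  congr 1
  -- the image of the interval
  have himg : Tc c '' Icc (-1 : ℝ) 1 = Icc (-1 : ℝ) 1 := by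
    ext r
    constructor
    · rintro ⟨y, hy, rfl⟩
      exact abs_le.1 (abs_Tc_le hc1 (abs_le.2 hy))
    · intro hr
      refine ⟨Sf r c, abs_le.1 (abs_Sf_le r c), ?_⟩
      rw [Tc_Sf, cl_of_mem hr]
  have hinj : InjOn (Tc c) (Icc (-1 : ℝ) 1) := by
    intro y hy y' hy' h
    have hpos : 0 < 1 - ε := by linarith
    have h2 := abs_Tc_sub_ge hc (abs_le.2 hy) (abs_le.2 hy')
    rw [h, sub_self, abs_zero] at h2
    have : |y - y'| ≤ 0 := by
      by_contra hne
      have := mul_pos hpos (not_le.1 hne)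
      linarith
    have h3 := abs_nonpos_iff.1 this
    linarith
  have hder : ∀ y ∈ Icc (-1 : ℝ) 1, HasDerivWithinAt (Tc c) (1 + c * y) (Icc (-1 : ℝ) 1) y := by
    intro y _
    have d : HasDerivAt (Tc c) (1 + c * (2 * y) / 2) y := by
      unfold Tc
      have d1 : HasDerivAt (fun y : ℝ => y ^ 2 - 1) (2 * y) y := by
        simpa using (hasDerivAt_pow 2 y).sub_const 1
      exact (hasDerivAt_id' y).add ((d1.const_mul c).div_const 2)
    have : 1 + c * (2 * y) / 2 = 1 + c * y := by ring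
    rw [this] at d
    exact d.hasDerivWithinAt
  have key := integral_image_eq_integral_abs_deriv_smul measurableSet_Icc hder hinj
    (fun t => g (Sf t c))
  rw [himg] at key
  rw [key]
  refine setIntegral_congr_fun measurableSet_Icc fun y hy => ?_
  have hy1 : |y| ≤ 1 := abs_le.2 hy
  have hpos : 0 ≤ 1 + c * y := by
    have : |c * y| ≤ 1 := by
      rw [abs_mul]
      calc |c| * |y| ≤ 1 * 1 := by gcongr
        _ = 1 := by norm_num
    linarith [(abs_le.1 this).1]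
  simp only [smul_eq_mul]
  rw [abs_of_nonneg hpos, Sf_Tc hε hc hy1, cl_of_mem hy]
  ring

lemma integral_one_lam : ∫ _t, (1 : ℝ) ∂lam = 1 := by
  simp

lemma integral_cl_lam : ∫ t, cl t ∂lam = 0 := by
  rw [integral_lam]
  have : ∫ t in Icc (-1 : ℝ) 1, cl t = ∫ t in Icc (-1 : ℝ) 1, t :=
    setIntegral_congr_fun measurableSet_Icc fun t ht => cl_of_mem ht
  rw [this, integral_Icc_eq_integral_Ioc, ← intervalIntegral.integral_of_le (by norm_num)]
  simp

lemma integral_cl_sq_lam : ∫ t, cl t ^ 2 ∂lam = 1 / 3 := by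
  rw [integral_lam]
  have : ∫ t in Icc (-1 : ℝ) 1, cl t ^ 2 = ∫ t in Icc (-1 : ℝ) 1, t ^ 2 :=
    setIntegral_congr_fun measurableSet_Icc fun t ht => by simp only [cl_of_mem ht]
  rw [this, integral_Icc_eq_integral_Ioc, ← intervalIntegral.integral_of_le (by norm_num)]
  simp
  norm_num

lemma integrable_cl_lam : Integrable cl lam :=
  Integrable.of_bound continuous_cl.aestronglyMeasurable 1 (ae_of_all _ fun t => by
    simpa [Real.norm_eq_abs] using abs_cl_le t)

lemma integrable_cl_sq_lam : Integrable (fun t => cl t ^ 2) lam :=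
  Integrable.of_bound (continuous_cl.pow 2).aestronglyMeasurable 1 (ae_of_all _ fun t => by
    rw [Real.norm_eq_abs, abs_pow]
    have := abs_cl_le t
    exact pow_le_one₀ (abs_nonneg _) this)

/-- `E (1 + c y) = 1` -/
lemma integral_density (c : ℝ) : ∫ t, (1 + c * cl t) ∂lam = 1 := by
  rw [integral_add (integrable_const _) (integrable_cl_lam.const_mul c), integral_const_mul,
    integral_cl_lam]
  simp

/-- `E y (1 + c y) = c / 3` -/
lemma integral_y_density (c : ℝ) : ∫ t, cl t * (1 + c * cl t) ∂lam = c / 3 := by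
  have : (fun t => cl t * (1 + c * cl t)) = fun t => cl t + c * cl t ^ 2 := by
    funext t; ring
  rw [this, integral_add integrable_cl_lam (integrable_cl_sq_lam.const_mul c), integral_const_mul,
    integral_cl_lam, integral_cl_sq_lam]
  ring

end Vale.Agent.Lib.P161
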