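import Vale.Agent.Lib.P161.Factor2

/-!
Coding the labels and the noises by one uniform variable per vertex.
-/

open MeasureTheory Filter Topology Finset

noncomputable section
namespace Vale.Agent.Lib.P161

open scoped Classical

variable {V : Type}

/-- merging the labels and noises -/
def zipOm (ω : Om V) : V × ℕ → ℝ := fun q =>
  match q.2 with
  | 0 => ω.1 q.1
  | i + 1 => ω.2 (i, q.1)

/-- splitting the labels and noises -/
def unzipOm (x : V × ℕ → ℝ) : Om V := (fun v => x (v, 0), fun k => x (k.2, k.1 + 1))

lemma unzip_zip (ω : Om V) : unzipOm (zipOm ω) = ω := rfl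

lemma measurable_zipOm : Measurable (zipOm (V := V)) := by
  refine measurable_pi_iff.2 fun q => ?_
  obtain ⟨v, i⟩ := q
  cases i with
  | zero =>
    exact (measurable_pi_apply v).comp measurable_fst
  | succ i =>
    exact (measurable_pi_apply (i, v)).comp measurable_snd

lemma measurable_unzipOm : Measurable (unzipOm (V := V)) :=
  (measurable_pi_iff.2 fun v => measurable_pi_apply (v, 0)).prodMk
    (measurable_pi_iff.2 fun k => measurable_pi_apply (k.2, k.1 + 1))

lemma map_zipOm : (topNoise V).map zipOm = Measure.infinitePi (fun _ : V × ℕ => lam) := by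
  apply Measure.eq_infinitePi
  intro s t ht
  rw [Measure.map_apply measurable_zipOm (MeasurableSet.pi s.countable_toSet fun i _ => ht i)]
  have hinj₀ : Function.Injective (fun v : V => (v, 0)) := fun a b h => (Prod.ext_iff.1 h).1
  have hinj₁ : Function.Injective (fun k : St V => (k.2, k.1 + 1)) := by
    rintro ⟨a, b⟩ ⟨c, d⟩ h
    have h1 := (Prod.ext_iff.1 h).1
    have h2 := (Prod.ext_iff.1 h).2
    simp only at h1 h2
    have h3 : a = c := by omega
    rw [h1, h3]
  set s₀ : Finset V := s.preimage (fun v => (v, 0)) hinj₀.injOn with hs₀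
  set s₁ : Finset (St V) := s.preimage (fun k => (k.2, k.1 + 1)) hinj₁.injOn with hs₁
  have hpre : zipOm ⁻¹' (Set.pi s t)
      = (Set.pi s₀ (fun v => t (v, 0))) ×ˢ (Set.pi s₁ (fun k => t (k.2, k.1 + 1))) := by
    ext ω
    simp only [Set.mem_preimage, Set.mem_pi, Finset.mem_coe, Set.mem_prod, hs₀, hs₁,
      Finset.mem_preimage]
    constructor
    · intro h
      exact ⟨fun v hv => h (v, 0) hv, fun k hk => h (k.2, k.1 + 1) hk⟩
    · rintro ⟨h1, h2⟩ q hq
      obtain ⟨v, i⟩ := q
      cases i with
      | zero => exact h1 v hq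
      | succ i => exact h2 (i, v) hq
  rw [hpre, topNoise, Measure.prod_prod, noise, noise,
    Measure.infinitePi_pi _ (fun i _ => ht _), Measure.infinitePi_pi _ (fun i _ => ht _)]
  have h₀ := Finset.prod_preimage' (fun v : V => (v, 0)) s hinj₀.injOn (fun q => lam (t q))
  have h₁ := Finset.prod_preimage' (fun k : St V => (k.2, k.1 + 1)) s hinj₁.injOn
    (fun q => lam (t q))
  rw [hs₀, hs₁, h₀, h₁]
  have hfilter : s.filter (fun q => q ∈ Set.range (fun k : St V => (k.2, k.1 + 1)))
      = s.filter (fun q => ¬ q ∈ Set.range (fun v : V => (v, 0))) := by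
    refine Finset.filter_congr fun q _ => ?_
    obtain ⟨v, i⟩ := q
    constructor
    · rintro ⟨k, hk⟩ ⟨u, hu⟩
      have h1 := (Prod.ext_iff.1 hk).2
      have h2 := (Prod.ext_iff.1 hu).2
      simp only at h1 h2
      omega
    · intro h
      cases i with
      | zero => exact absurd ⟨v, rfl⟩ h
      | succ i => exact ⟨(i, v), rfl⟩
  rw [hfilter, Finset.prod_filter_mul_prod_filter_not]

lemma topNoise_eq : (topNoise V) = (Measure.infinitePi (fun _ : V × ℕ => lam)).map unzipOm := by
  rw [← map_zipOm, Measure.map_map measurable_unzipOm measurable_zipOm]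
  have : unzipOm ∘ zipOm = (id : Om V → Om V) := by
    funext ω
    rfl
  rw [this, Measure.map_id]

/-- the measure on `[0,1]^V` -/
abbrev unif (V : Type) : Measure (V → unitInterval) :=
  Measure.infinitePi fun _ : V => (volume : Measure unitInterval)

/-- The coding map. -/
theorem exists_code :
    ∃ code : (V → unitInterval) → Om V, Measurable code ∧ (unif V).map code = topNoise V ∧
      ∀ (e : V ≃ V) (U : V → unitInterval), code (fun v => U (e.symm v)) = act e (code U) := by
  obtain ⟨f, hf, hmap⟩ := Measure.exists_measurable_map_eq (noise ℕ)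
  let code₁ : (V → unitInterval) → (V → ℕ → ℝ) := fun U v => f (U v)
  have hcode₁ : Measurable code₁ := measurable_pi_iff.2 fun v => hf.comp (measurable_pi_apply v)
  have h1 : (unif V).map code₁ = Measure.infinitePi (fun _ : V => noise ℕ) := by
    have := Measure.infinitePi_map_pi (μ := fun _ : V => (volume : Measure unitInterval))
      (f := fun _ => f) (fun _ => hf)
    simp only [hmap] at this
    exact this
  let code₂ : (V → ℕ → ℝ) → (V × ℕ → ℝ) := (MeasurableEquiv.curry V ℕ ℝ).symm
  have hcode₂ : Measurable code₂ := (MeasurableEquiv.curry V ℕ ℝ).symm.measurable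
  have h2 : (Measure.infinitePi (fun _ : V => noise ℕ)).map code₂
      = Measure.infinitePi (fun _ : V × ℕ => lam) :=
    Measure.infinitePi_map_curry_symm (fun (_ : V) (_ : ℕ) => lam)
  refine ⟨fun U => unzipOm (code₂ (code₁ U)), measurable_unzipOm.comp (hcode₂.comp hcode₁), ?_, ?_⟩
  · have e : (fun U => unzipOm (code₂ (code₁ U))) = unzipOm ∘ (code₂ ∘ code₁) := rfl
    rw [e, ← Measure.map_map measurable_unzipOm (hcode₂.comp hcode₁),
      ← Measure.map_map hcode₂ hcode₁, h1, h2, ← topNoise_eq]
  · intro e U
    rfl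

end Vale.Agent.Lib.P161
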