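import Mathlib

/-!
Tree metric facts for `SimpleGraph.IsTree`: every vertex has exactly one neighbour toward a given
vertex, descendants, convex finite sets, growth of convex sets by leaves.
-/

open Finset

noncomputable section
namespace Vale.Agent.Lib.P161

open scoped Classical

variable {V : Type} {G : SimpleGraph V}

lemma dist_adj (hT : G.IsTree) (x : V) {a b : V} (h : G.Adj a b) :
    G.dist x a = G.dist x b + 1 ∨ G.dist x b = G.dist x a + 1 :=
  hT.dist_eq_dist_add_one_of_adj x h

lemma dist_tri (hT : G.IsTree) (a b c : V) : G.dist a c ≤ G.dist a b + G.dist b c :=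
  hT.connected.dist_triangle

lemma dist_sym (a b : V) : G.dist a b = G.dist b a := SimpleGraph.dist_comm

lemma dist_eq_zero' (hT : G.IsTree) {a b : V} : G.dist a b = 0 ↔ a = b :=
  hT.connected.dist_eq_zero_iff

lemma dist_one_of_adj {a b : V} (h : G.Adj a b) : G.dist a b = 1 :=
  SimpleGraph.dist_eq_one_iff_adj.2 h

/-- a neighbour toward `x` exists -/
lemma toward_exists (hT : G.IsTree) {u x : V} (h : u ≠ x) :
    ∃ c, G.Adj u c ∧ G.dist c x + 1 = G.dist u x := by
  obtain ⟨p, hp⟩ := hT.connected.exists_walk_length_eq_dist u x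
  cases p with
  | nil => exact absurd rfl h
  | cons hadj q =>
    rename_i c
    refine ⟨c, hadj, ?_⟩
    have h1 : G.dist c x ≤ q.length := SimpleGraph.dist_le q
    have h2 : G.dist u x ≤ G.dist u c + G.dist c x := dist_tri hT u c x
    have h3 : G.dist u c = 1 := dist_one_of_adj hadj
    simp only [SimpleGraph.Walk.length_cons] at hp
    omega

/-- a neighbour toward `x` is unique -/
lemma toward_unique (hT : G.IsTree) {u x c₁ c₂ : V} (h₁ : G.Adj u c₁) (h₂ : G.Adj u c₂)
    (d₁ : G.dist c₁ x + 1 = G.dist u x) (d₂ : G.dist c₂ x + 1 = G.dist u x) : c₁ = c₂ := by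
  obtain ⟨q, hq, -⟩ := hT.connected.exists_path_of_dist x u
  have key : ∀ c, G.Adj u c → G.dist c x + 1 = G.dist u x → c ∈ q.support := by
    intro c hc dc
    obtain ⟨q', hq', hl⟩ := hT.connected.exists_path_of_dist x c
    refine hT.isAcyclic.mem_support_of_ne_mem_support_of_adj_of_isPath hq hq' hc ?_
    intro hu
    have h1 := SimpleGraph.dist_le (q'.takeUntil u hu)
    have h2 := q'.length_takeUntil_le_length hu
    rw [dist_sym x u] at h1
    rw [dist_sym c x] at dc
    omega
  have e₁ := hT.isAcyclic.eq_penultimate_of_adj_end hq h₁ (key c₁ h₁ d₁)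
  have e₂ := hT.isAcyclic.eq_penultimate_of_adj_end hq h₂ (key c₂ h₂ d₂)
  rw [e₁, e₂]

/-- if `c` is adjacent to `u` and not the neighbour toward `x` then it is farther away -/
lemma away_of_ne_toward (hT : G.IsTree) {u x c p : V} (hc : G.Adj u c) (hp : G.Adj u p)
    (dp : G.dist p x + 1 = G.dist u x) (hne : c ≠ p) : G.dist c x = G.dist u x + 1 := by
  rcases dist_adj hT x hc with h | h
  · exact absurd (toward_unique hT hc hp (by rw [dist_sym c x, dist_sym u x]; omega) dp) hne
  · rw [dist_sym c x, dist_sym u x]; omega

/-- Descendant lemma: let `p` be the neighbour of `u` toward the root `r`. If `p` is farther from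
`x` than `u` then `x` lies below `u`. -/
lemma desc_of_away (hT : G.IsTree) (r : V) :
    ∀ (n : ℕ) (u p x : V), G.dist u x = n → G.Adj u p → G.dist p r + 1 = G.dist u r →
      G.dist p x = G.dist u x + 1 → G.dist x r = G.dist u r + G.dist u x := by
  intro n
  induction n with
  | zero =>
    intro u p x hn _ _ _
    have : u = x := (dist_eq_zero' hT).1 hn
    subst this
    simp
  | succ n ih =>
    intro u p x hn hadj hd hpx
    have hne : u ≠ x := by
      rintro rfl
      simp at hn
    obtain ⟨c, hc, dc⟩ := toward_exists hT hne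
    have hcp : c ≠ p := by
      rintro rfl
      omega
    -- `c` is a child of `u`
    have hcr : G.dist c r = G.dist u r + 1 := away_of_ne_toward hT hc hadj hd hcp
    have hcx : G.dist c x = n := by omega
    have := ih c u x hcx hc.symm (by omega) (by omega)
    omega

/-- A finite set is convex if it contains every vertex on a geodesic between two of its points. -/
def Conv (G : SimpleGraph V) (A : Finset V) : Prop :=
  ∀ u ∈ A, ∀ x ∈ A, ∀ z, G.dist u z + G.dist z x = G.dist u x → z ∈ A

lemma conv_singleton (hT : G.IsTree) (v : V) : Conv G {v} := by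
  intro u hu x hx z hz
  simp only [Finset.mem_singleton] at hu hx ⊢
  rw [hu, hx] at hz
  simp only [SimpleGraph.dist_self] at hz
  have : G.dist v z = 0 := by omega
  exact ((dist_eq_zero' hT).1 this).symm

/-- connected induced subgraph implies convex -/
lemma conv_of_connected (hT : G.IsTree) {A : Finset V} (hc : (G.induce (A : Set V)).Connected) :
    Conv G A := by
  intro u hu x hx z hz
  -- a path inside `A` between `u` and `x`
  have hu' : u ∈ (A : Set V) := hu
  have hx' : x ∈ (A : Set V) := hx
  obtain ⟨w, hw, -⟩ := hc.exists_path_of_dist ⟨u, hu'⟩ ⟨x, hx'⟩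
  let φ : G.induce (A : Set V) →g G := SimpleGraph.Embedding.induce (A : Set V) |>.toHom
  have hinj : Function.Injective φ := Subtype.val_injective
  let W : G.Walk u x := w.map φ
  have hw' : W.IsPath := SimpleGraph.Walk.IsPath.map hinj hw
  -- all vertices of this path are in `A`
  have hsupp : ∀ y ∈ W.support, y ∈ A := by
    intro y hy
    have hy' : y ∈ (w.map φ).support := hy
    rw [SimpleGraph.Walk.support_map] at hy'
    obtain ⟨a, -, rfl⟩ := List.mem_map.1 hy'
    exact a.2
  -- the geodesic through `z`
  obtain ⟨p, hp⟩ := hT.connected.exists_walk_length_eq_dist u z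
  obtain ⟨q, hq⟩ := hT.connected.exists_walk_length_eq_dist z x
  have hpq : (p.append q).length = G.dist u x := by
    rw [SimpleGraph.Walk.length_append]; omega
  have hpath : (p.append q).IsPath := SimpleGraph.Walk.isPath_of_length_eq_dist _ hpq
  have heq : W = (p.append q) := by
    have := (hT.isAcyclic.subsingleton_path u x).elim ⟨W, hw'⟩ ⟨p.append q, hpath⟩
    exact congrArg Subtype.val this
  apply hsupp
  rw [heq]
  exact SimpleGraph.Walk.mem_support_append_iff .. |>.2 (Or.inl p.end_mem_support)

/-- The neighbour of a point outside a convex set which has a neighbour in it: distances. -/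
lemma leaf_dist (hT : G.IsTree) {B : Finset V} (hB : Conv G B) {p l : V} (hp : p ∈ B) (hl : l ∉ B)
    (hadj : G.Adj p l) {u : V} (hu : u ∈ B) : G.dist l u = G.dist p u + 1 := by
  rcases dist_adj hT u hadj with h | h
  · exfalso
    apply hl
    refine hB p hp u hu l ?_
    rw [dist_one_of_adj hadj, dist_sym l u, dist_sym p u]; omega
  · rw [dist_sym l u, dist_sym p u]; omega

/-- Uniqueness of the neighbour in a convex set. -/
lemma leaf_unique (hT : G.IsTree) {B : Finset V} (hB : Conv G B) {p p' l : V} (hp : p ∈ B)
    (hp' : p' ∈ B) (hl : l ∉ B) (hadj : G.Adj p l) (hadj' : G.Adj p' l) : p = p' := by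
  by_contra hne
  have h1 := leaf_dist hT hB hp hl hadj hp'
  have h2 := leaf_dist hT hB hp' hl hadj' hp
  have h3 : G.dist l p' = 1 := dist_one_of_adj hadj'.symm
  have h4 : G.dist p p' = 0 := by omega
  exact hne ((dist_eq_zero' hT).1 h4)

/-- Adding a neighbouring point to a convex set keeps it convex. -/
lemma conv_insert (hT : G.IsTree) {B : Finset V} (hB : Conv G B) {p l : V} (hp : p ∈ B)
    (hl : l ∉ B) (hadj : G.Adj p l) : Conv G (insert l B) := by
  have main : ∀ x ∈ B, ∀ z, G.dist l z + G.dist z x = G.dist l x → z ∈ insert l B := by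
    intro x hx z hz
    by_cases hzl : z = l
    · simp [hzl]
    · apply Finset.mem_insert_of_mem
      obtain ⟨c, hc, dc⟩ := toward_exists hT (Ne.symm hzl)
      have hlx : G.dist l x = G.dist p x + 1 := leaf_dist hT hB hp hl hadj hx
      -- `c` is also toward `x`
      have hcx : G.dist c x + 1 ≤ G.dist l x := by
        have := dist_tri hT c z x
        omega
      have hcx' : G.dist c x + 1 = G.dist l x := by
        have := dist_tri hT l c x
        have h1 := dist_one_of_adj hc
        omega
      have hcp : c = p :=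
        toward_unique hT hc hadj.symm hcx' (by omega)
      subst hcp
      exact hB c hp x hx z (by omega)
  intro u hu x hx z hz
  rw [Finset.mem_insert] at hu hx
  rcases hu with hu | hu <;> rcases hx with hx | hx
  · rw [hu, hx] at hz
    simp only [SimpleGraph.dist_self] at hz
    have : G.dist l z = 0 := by omega
    rw [← (dist_eq_zero' hT).1 this]
    exact Finset.mem_insert_self _ _
  · rw [hu] at hz
    exact main x hx z hz
  · rw [hx] at hz
    rw [dist_sym u z, dist_sym z l, dist_sym u l] at hz
    exact main u hu z (by omega)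
  · exact Finset.mem_insert_of_mem (hB u hu x hx z hz)

/-- Growth of a convex set inside a bigger convex set. -/
lemma exists_grow (hT : G.IsTree) {A₀ A : Finset V} (hA : Conv G A)
    (hne : A₀.Nonempty) (hsub : A₀ ⊆ A) (hneq : A₀ ≠ A) :
    ∃ l ∈ A, l ∉ A₀ ∧ ∃ p ∈ A₀, G.Adj p l := by
  -- choose `x ∈ A \ A₀` at minimal distance from a point `c ∈ A₀`
  obtain ⟨c, hc⟩ := hne
  have hnon : (A \ A₀).Nonempty := by
    rw [Finset.sdiff_nonempty]
    intro h
    exact hneq (Finset.Subset.antisymm hsub h)
  obtain ⟨l, hl, hmin⟩ := Finset.exists_min_image (A \ A₀) (fun x => G.dist x c) hnon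
  rw [Finset.mem_sdiff] at hl
  have hlc : l ≠ c := by
    rintro rfl
    exact hl.2 hc
  obtain ⟨p, hp, dp⟩ := toward_exists hT hlc
  refine ⟨l, hl.1, hl.2, p, ?_, hp.symm⟩
  have hpA : p ∈ A := by
    refine hA l hl.1 c (hsub hc) p ?_
    rw [dist_one_of_adj hp]; omega
  by_contra hpA₀
  have := hmin p (Finset.mem_sdiff.2 ⟨hpA, hpA₀⟩)
  omega

/-- Induction principle: a property holding at `A₀` and stable under adding a leaf holds on all
convex supersets. -/
lemma grow_induction (hT : G.IsTree) {A₀ : Finset V} (hA₀ : Conv G A₀) (hne : A₀.Nonempty)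
    (P : Finset V → Prop) (h0 : P A₀)
    (hstep : ∀ B p l, Conv G B → A₀ ⊆ B → p ∈ B → l ∉ B → G.Adj p l → P B → P (insert l B))
    {A : Finset V} (hA : Conv G A) (hsub : A₀ ⊆ A) : P A := by
  -- induction on the cardinality of `A \ B`, with `B` growing
  have main : ∀ n : ℕ, ∀ B : Finset V, Conv G B → A₀ ⊆ B → B ⊆ A → (A \ B).card = n → P B → P A := by
    intro n
    induction n with
    | zero =>
      intro B _ _ hBA hn hPB
      have : A ⊆ B := by
        rw [Finset.card_eq_zero, Finset.sdiff_eq_empty_iff_subset] at hn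
        exact hn
      rwa [Finset.Subset.antisymm hBA this] at hPB
    | succ n ih =>
      intro B hB hsB hBA hn hPB
      have hneq : B ≠ A := by
        rintro rfl
        simp at hn
      obtain ⟨l, hlA, hlB, p, hp, hadj⟩ :=
        exists_grow hT hA (hne.mono hsB) hBA hneq
      refine ih (insert l B) (conv_insert hT hB hp hlB hadj)
        (hsB.trans (Finset.subset_insert _ _)) (Finset.insert_subset hlA hBA) ?_
        (hstep B p l hB hsB hp hlB hadj hPB)
      have : A \ insert l B = (A \ B).erase l := by
        ext y; simp only [Finset.mem_sdiff, Finset.mem_insert, Finset.mem_erase]; tauto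
      rw [this, Finset.card_erase_of_mem (Finset.mem_sdiff.2 ⟨hlA, hlB⟩), hn]
      simp
  exact main _ A₀ hA₀ subset_rfl hsub rfl h0

/-- On a geodesic the distance to a point is at most the maximum at the two ends. -/
lemma dist_le_max_of_geodesic (hT : G.IsTree) (c : V) :
    ∀ (n : ℕ) (u x z : V), G.dist u z = n → G.dist u z + G.dist z x = G.dist u x →
      G.dist z c ≤ max (G.dist u c) (G.dist x c) := by
  intro n
  induction n with
  | zero =>
    intro u x z hn _
    have : u = z := (dist_eq_zero' hT).1 hn
    subst this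
    exact le_max_left _ _
  | succ n ih =>
    intro u x z hn hz
    have hne : u ≠ z := by
      rintro rfl
      simp at hn
    obtain ⟨u', hu', du'⟩ := toward_exists hT hne
    have hu'1 := dist_one_of_adj hu'
    have h1 : G.dist u' x + 1 = G.dist u x := by
      have t1 := dist_tri hT u u' x
      have t2 := dist_tri hT u' z x
      omega
    have hIH := ih u' x z (by omega) (by omega)
    rcases dist_adj hT c hu' with h | h
    · -- `u'` is closer to `c`
      rw [dist_sym c u, dist_sym c u'] at h
      refine hIH.trans (max_le ?_ (le_max_right _ _))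
      exact le_trans (by omega) (le_max_left _ _)
    · -- `u'` is farther from `c`: then `x` lies below `u'`
      rw [dist_sym c u, dist_sym c u'] at h
      have hd := desc_of_away hT c _ u' u x rfl hu'.symm (by omega) (by omega)
      refine hIH.trans (max_le ?_ (le_max_right _ _))
      exact le_trans (by omega) (le_max_right _ _)

/-- balls -/
def ballF (nb : V → Finset V) (c : V) : ℕ → Finset V
  | 0 => {c}
  | n + 1 => ballF nb c n ∪ (ballF nb c n).biUnion nb

lemma mem_ballF (hT : G.IsTree) {nb : V → Finset V} (hnb : ∀ u x, x ∈ nb u ↔ G.Adj u x) (c : V)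
    (n : ℕ) (x : V) : x ∈ ballF nb c n ↔ G.dist x c ≤ n := by
  induction n generalizing x with
  | zero =>
    simp only [ballF, Finset.mem_singleton, Nat.le_zero]
    rw [dist_eq_zero' hT]
  | succ n ih =>
    simp only [ballF, Finset.mem_union, Finset.mem_biUnion]
    constructor
    · rintro (h | ⟨p, hp, hx⟩)
      · exact ((ih x).1 h).trans (Nat.le_succ n)
      · have h1 := (ih p).1 hp
        have h2 := dist_one_of_adj ((hnb p x).1 hx)
        have h3 := dist_tri hT x p c
        rw [dist_sym x p] at h3
        omega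
    · intro h
      by_cases hle : G.dist x c ≤ n
      · exact Or.inl ((ih x).2 hle)
      · right
        have hne : x ≠ c := by
          rintro rfl
          simp at hle
        obtain ⟨p, hp, dp⟩ := toward_exists hT hne
        exact ⟨p, (ih p).2 (by omega), (hnb p x).2 hp.symm⟩

lemma conv_ballF (hT : G.IsTree) {nb : V → Finset V} (hnb : ∀ u x, x ∈ nb u ↔ G.Adj u x) (c : V)
    (n : ℕ) : Conv G (ballF nb c n) := by
  intro u hu x hx z hz
  rw [mem_ballF hT hnb] at hu hx ⊢
  exact (dist_le_max_of_geodesic hT c _ u x z rfl hz).trans (max_le hu hx)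

lemma center_mem_ballF (hT : G.IsTree) {nb : V → Finset V} (hnb : ∀ u x, x ∈ nb u ↔ G.Adj u x)
    (c : V) (n : ℕ) : c ∈ ballF nb c n := by
  rw [mem_ballF hT hnb]
  simp

/-- every finite set is contained in a nonempty convex finite set -/
lemma exists_conv_superset (hT : G.IsTree) {nb : V → Finset V}
    (hnb : ∀ u x, x ∈ nb u ↔ G.Adj u x) (S : Finset V) :
    ∃ B : Finset V, Conv G B ∧ S ⊆ B ∧ B.Nonempty := by
  obtain ⟨c⟩ := hT.1.nonempty
  refine ⟨ballF nb c (S.sup (fun x => G.dist x c)), conv_ballF hT hnb c _, ?_,
    ⟨c, center_mem_ballF hT hnb c _⟩⟩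
  intro x hx
  rw [mem_ballF hT hnb]
  exact Finset.le_sup (f := fun x => G.dist x c) hx

lemma countable_of_tree (hT : G.IsTree) {nb : V → Finset V}
    (hnb : ∀ u x, x ∈ nb u ↔ G.Adj u x) : Countable V := by
  obtain ⟨c⟩ := hT.1.nonempty
  have h : (Set.univ : Set V) = ⋃ n : ℕ, (ballF nb c n : Set V) := by
    ext x
    simp only [Set.mem_univ, Set.mem_iUnion, Finset.mem_coe, true_iff]
    exact ⟨G.dist x c, (mem_ballF hT hnb c _ x).2 le_rfl⟩
  have h2 : (Set.univ : Set V).Countable := by
    rw [h]
    exact Set.countable_iUnion fun n => (ballF nb c n).countable_toSet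
  exact Set.countable_univ_iff.1 h2

end Vale.Agent.Lib.P161
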