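import Vale.Agent.Lib.P161.Defs
import Vale.Agent.Lib.P161.Tree

/-!
Finite volume Ising expectation on convex sets of a tree, leaf elimination, and the Lipschitz
estimate for the tilted magnetisation.
-/

open Finset

noncomputable section
namespace Vale.Agent.Lib.P161

open scoped Classical

variable {V : Type} {G : SimpleGraph V}

/-- spin configuration coded by a finite set -/
def sgn (s : Finset V) (v : V) : ℝ := if v ∈ s then 1 else -1

lemma sgn_sq (s : Finset V) (v : V) : sgn s v * sgn s v = 1 := by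
  unfold sgn; split_ifs <;> norm_num

lemma sgn_cases (s : Finset V) (v : V) : sgn s v = 1 ∨ sgn s v = -1 := by
  unfold sgn; split_ifs <;> simp

lemma abs_sgn (s : Finset V) (v : V) : |sgn s v| = 1 := by
  rcases sgn_cases s v with h | h <;> simp [h]

/-- Ising expectation on `A` of a function of the spin configuration -/
def Ex (G : SimpleGraph V) (θ : ℝ) (A : Finset V) (F : (V → ℝ) → ℝ) : ℝ :=
  ∑ s ∈ A.powerset, isingWeight G θ A (sgn s) * F (sgn s)

lemma Ex_congr (θ : ℝ) (A : Finset V) {F F' : (V → ℝ) → ℝ}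
    (h : ∀ s : Finset V, F (sgn s) = F' (sgn s)) : Ex G θ A F = Ex G θ A F' := by
  unfold Ex
  exact Finset.sum_congr rfl fun s _ => by rw [h s]

lemma Ex_add (θ : ℝ) (A : Finset V) (F F' : (V → ℝ) → ℝ) :
    Ex G θ A (fun σ => F σ + F' σ) = Ex G θ A F + Ex G θ A F' := by
  unfold Ex
  rw [← Finset.sum_add_distrib]
  exact Finset.sum_congr rfl fun s _ => by ring

lemma Ex_mul_const (θ : ℝ) (A : Finset V) (F : (V → ℝ) → ℝ) (c : ℝ) :
    Ex G θ A (fun σ => F σ * c) = Ex G θ A F * c := by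
  unfold Ex
  rw [Finset.sum_mul]
  exact Finset.sum_congr rfl fun s _ => by ring

lemma Ex_const_mul (θ : ℝ) (A : Finset V) (F : (V → ℝ) → ℝ) (c : ℝ) :
    Ex G θ A (fun σ => c * F σ) = c * Ex G θ A F := by
  unfold Ex
  rw [Finset.mul_sum]
  exact Finset.sum_congr rfl fun s _ => by ring

lemma Ex_sum {ι : Type} (θ : ℝ) (A : Finset V) (t : Finset ι) (F : ι → (V → ℝ) → ℝ) :
    Ex G θ A (fun σ => ∑ i ∈ t, F i σ) = ∑ i ∈ t, Ex G θ A (F i) := by
  unfold Ex
  simp only [Finset.mul_sum]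
  rw [Finset.sum_comm]

/-! ### edges -/

lemma edgeFactor_mk (θ : ℝ) (σ : V → ℝ) (u v : V) :
    edgeFactor θ σ s(u, v) = (1 + θ * σ u * σ v) / 2 := rfl

lemma mem_edgesIn {D : Finset V} {u v : V} :
    s(u, v) ∈ edgesIn G D ↔ u ∈ D ∧ v ∈ D ∧ G.Adj u v := by
  unfold edgesIn
  simp [Finset.mem_filter, and_assoc]

lemma edgesIn_singleton (v : V) : edgesIn G {v} = ∅ := by
  ext e
  induction e using Sym2.ind with
  | _ a b =>
    rw [mem_edgesIn]
    simp only [Finset.mem_singleton, Finset.notMem_empty, iff_false, not_and]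
    rintro rfl rfl
    exact G.irrefl

/-- the edge set after adding a leaf -/
lemma edgesIn_insert (hT : G.IsTree) {B : Finset V} (hB : Conv G B) {p l : V} (hp : p ∈ B)
    (hl : l ∉ B) (hadj : G.Adj p l) :
    edgesIn G (insert l B) = insert s(p, l) (edgesIn G B) := by
  ext e
  induction e using Sym2.ind with
  | _ a b =>
    rw [Finset.mem_insert, mem_edgesIn, mem_edgesIn]
    simp only [Finset.mem_insert, Sym2.eq_iff]
    constructor
    · rintro ⟨ha | ha, hb | hb, hab⟩
      · rw [ha, hb] at hab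
        exact absurd hab (G.irrefl)
      · left; right
        rw [ha] at hab
        exact ⟨ha, leaf_unique hT hB hb hp hl hab.symm hadj⟩
      · left; left
        rw [hb] at hab
        exact ⟨leaf_unique hT hB ha hp hl hab hadj, hb⟩
      · right
        exact ⟨ha, hb, hab⟩
    · rintro ((⟨rfl, rfl⟩ | ⟨rfl, rfl⟩) | ⟨ha, hb, hab⟩)
      · exact ⟨Or.inr hp, Or.inl rfl, hadj⟩
      · exact ⟨Or.inl rfl, Or.inr hp, hadj.symm⟩
      · exact ⟨Or.inr ha, Or.inr hb, hab⟩

lemma notMem_edgesIn {B : Finset V} {p l : V} (hl : l ∉ B) : s(p, l) ∉ edgesIn G B := by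
  rw [mem_edgesIn]
  exact fun h => hl h.2.1

lemma isingWeight_insert (hT : G.IsTree) (θ : ℝ) {B : Finset V} (hB : Conv G B) {p l : V}
    (hp : p ∈ B) (hl : l ∉ B) (hadj : G.Adj p l) (σ : V → ℝ) :
    isingWeight G θ (insert l B) σ = (1 + θ * σ p * σ l) / 2 * isingWeight G θ B σ := by
  unfold isingWeight
  rw [edgesIn_insert hT hB hp hl hadj, Finset.prod_insert (notMem_edgesIn hl), edgeFactor_mk]
  ring

lemma isingWeight_congr (θ : ℝ) (B : Finset V) {σ σ' : V → ℝ} (h : ∀ u ∈ B, σ u = σ' u) :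
    isingWeight G θ B σ = isingWeight G θ B σ' := by
  unfold isingWeight
  congr 1
  refine Finset.prod_congr rfl fun e he => ?_
  induction e using Sym2.ind with
  | _ a b =>
    rw [mem_edgesIn] at he
    rw [edgeFactor_mk, edgeFactor_mk, h a he.1, h b he.2.1]

lemma isingWeight_singleton (θ : ℝ) (v : V) (σ : V → ℝ) : isingWeight G θ {v} σ = 1 / 2 := by
  unfold isingWeight
  rw [edgesIn_singleton]; simp

lemma sgn_insert (s : Finset V) (l : V) : sgn (insert l s) = Function.update (sgn s) l 1 := by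
  funext u
  unfold sgn
  by_cases h : u = l
  · subst h; simp
  · simp [h, Function.update_of_ne]

lemma sgn_of_notMem {s : Finset V} {l : V} (h : l ∉ s) : sgn s = Function.update (sgn s) l (-1) := by
  funext u
  unfold sgn
  by_cases hu : u = l
  · subst hu; simp [h]
  · simp [hu, Function.update_of_ne]

/-- Key recursion: adding a leaf. -/
lemma Ex_insert (hT : G.IsTree) (θ : ℝ) {B : Finset V} (hB : Conv G B) {p l : V}
    (hp : p ∈ B) (hl : l ∉ B) (hadj : G.Adj p l) (F : (V → ℝ) → ℝ) :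
    Ex G θ (insert l B) F = Ex G θ B (fun σ =>
      (1 + θ * σ p) / 2 * F (Function.update σ l 1)
        + (1 - θ * σ p) / 2 * F (Function.update σ l (-1))) := by
  unfold Ex
  rw [Finset.sum_powerset_insert hl, ← Finset.sum_add_distrib]
  refine Finset.sum_congr rfl fun s hs => ?_
  have hs' : s ⊆ B := Finset.mem_powerset.1 hs
  have hls : l ∉ s := fun h => hl (hs' h)
  have hpl : p ≠ l := fun h => hl (h ▸ hp)
  have e1 : sgn s l = -1 := by simp [sgn, hls]
  have e2 : sgn (insert l s) l = 1 := by simp [sgn]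
  have e3 : sgn (insert l s) p = sgn s p := by simp [sgn, hpl]
  have e4 : isingWeight G θ B (sgn (insert l s)) = isingWeight G θ B (sgn s) := by
    apply isingWeight_congr
    intro u hu
    have : u ≠ l := fun h => hl (h ▸ hu)
    simp [sgn, this]
  have e5 : Function.update (sgn s) l (-1) = sgn s := (sgn_of_notMem hls).symm
  rw [isingWeight_insert hT θ hB hp hl hadj, isingWeight_insert hT θ hB hp hl hadj, e1, e2, e3, e4,
    sgn_insert]
  simp only [e5]
  ring

lemma Ex_singleton (θ : ℝ) (v : V) (F : (V → ℝ) → ℝ) :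
    Ex G θ {v} F = (1 / 2) * (F (Function.update (sgn ∅) v 1) + F (Function.update (sgn ∅) v (-1))) := by
  unfold Ex
  have : ({v} : Finset V) = insert v ∅ := by simp
  rw [this, Finset.sum_powerset_insert (Finset.notMem_empty v)]
  simp only [Finset.powerset_empty, Finset.sum_singleton]
  have e1 : sgn ({v} : Finset V) = Function.update (sgn ∅) v 1 := by
    rw [← sgn_insert]; simp
  have e2 : Function.update (sgn (∅ : Finset V)) v (-1) = sgn ∅ :=
    (sgn_of_notMem (Finset.notMem_empty v)).symm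
  rw [← this, isingWeight_singleton, isingWeight_singleton, e1, e2]
  ring

/-- Normalisation. -/
lemma Ex_one (hT : G.IsTree) (θ : ℝ) {A : Finset V} (hA : Conv G A) (hne : A.Nonempty) :
    Ex G θ A (fun _ => 1) = 1 := by
  obtain ⟨v, hv⟩ := hne
  refine grow_induction hT (conv_singleton hT v) ⟨v, by simp⟩
    (fun B => Ex G θ B (fun _ => 1) = 1) ?_ ?_ hA (by simpa using hv)
  · rw [Ex_singleton]; norm_num
  · intro B p l hB _ hp hl hadj hP
    rw [Ex_insert hT θ hB hp hl hadj]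
    have : (fun σ : V → ℝ => (1 + θ * σ p) / 2 * 1 + (1 - θ * σ p) / 2 * 1) = fun _ => 1 := by
      funext σ; ring
    rw [this]; exact hP

/-- Marginalisation. -/
lemma Ex_marginal (hT : G.IsTree) (θ : ℝ) {A₀ A : Finset V} (hA₀ : Conv G A₀) (hA : Conv G A)
    (hne : A₀.Nonempty) (hsub : A₀ ⊆ A) {F : (V → ℝ) → ℝ}
    (hF : ∀ σ σ' : V → ℝ, (∀ u ∈ A₀, σ u = σ' u) → F σ = F σ') :
    Ex G θ A F = Ex G θ A₀ F := by
  refine grow_induction hT hA₀ hne (fun B => Ex G θ B F = Ex G θ A₀ F) rfl ?_ hA hsub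
  intro B p l hB hsB hp hl hadj hP
  rw [Ex_insert hT θ hB hp hl hadj, ← hP]
  apply Ex_congr
  intro s
  have h1 : F (Function.update (sgn s) l 1) = F (sgn s) := by
    apply hF
    intro u hu
    have : u ≠ l := fun h => hl (hsB (h ▸ hu))
    simp [this]
  have h2 : F (Function.update (sgn s) l (-1)) = F (sgn s) := by
    apply hF
    intro u hu
    have : u ≠ l := fun h => hl (hsB (h ▸ hu))
    simp [this]
  rw [h1, h2]; ring

lemma edgeFactor_pos {θ : ℝ} (h0 : 0 ≤ θ) (h1 : θ < 1) (s : Finset V) (e : Sym2 V) :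
    0 < edgeFactor θ (sgn s) e := by
  induction e using Sym2.ind with
  | _ a b =>
    rw [edgeFactor_mk]
    rcases sgn_cases s a with ha | ha <;> rcases sgn_cases s b with hb | hb <;>
      simp only [ha, hb] <;> linarith

lemma isingWeight_pos {θ : ℝ} (h0 : 0 ≤ θ) (h1 : θ < 1) (A s : Finset V) :
    0 < isingWeight G θ A (sgn s) := by
  unfold isingWeight
  have := Finset.prod_pos (s := edgesIn G A) (f := edgeFactor θ (sgn s))
    (fun e _ => edgeFactor_pos h0 h1 s e)
  positivity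

lemma Ex_pos {θ : ℝ} (h0 : 0 ≤ θ) (h1 : θ < 1) (A : Finset V) {F : (V → ℝ) → ℝ}
    (hF : ∀ s : Finset V, 0 < F (sgn s)) : 0 < Ex G θ A F := by
  unfold Ex
  refine Finset.sum_pos (fun s _ => mul_pos (isingWeight_pos h0 h1 A s) (hF s)) ?_
  exact ⟨∅, by simp⟩

lemma Ex_nonneg {θ : ℝ} (h0 : 0 ≤ θ) (h1 : θ < 1) (A : Finset V) {F : (V → ℝ) → ℝ}
    (hF : ∀ s : Finset V, 0 ≤ F (sgn s)) : 0 ≤ Ex G θ A F := by
  unfold Ex
  exact Finset.sum_nonneg (fun s _ => mul_nonneg (isingWeight_pos h0 h1 A s).le (hF s))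

lemma Ex_mono {θ : ℝ} (h0 : 0 ≤ θ) (h1 : θ < 1) (A : Finset V) {F F' : (V → ℝ) → ℝ}
    (hF : ∀ s : Finset V, F (sgn s) ≤ F' (sgn s)) : Ex G θ A F ≤ Ex G θ A F' := by
  unfold Ex
  exact Finset.sum_le_sum (fun s _ => mul_le_mul_of_nonneg_left (hF s) (isingWeight_pos h0 h1 A s).le)

lemma abs_Ex_le {θ : ℝ} (h0 : 0 ≤ θ) (h1 : θ < 1) (A : Finset V) (F : (V → ℝ) → ℝ) :
    |Ex G θ A F| ≤ Ex G θ A (fun σ => |F σ|) := by
  unfold Ex
  refine (Finset.abs_sum_le_sum_abs _ _).trans (Finset.sum_le_sum fun s _ => ?_)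
  rw [abs_mul, abs_of_pos (isingWeight_pos h0 h1 A s)]

/-! ### the function ψ -/

/-- the two values of the edge message -/
def Bp (θ z : ℝ) : ℝ := (1 + θ) / 2 * Real.exp z + (1 - θ) / 2 * Real.exp (-z)
def Bm (θ z : ℝ) : ℝ := (1 - θ) / 2 * Real.exp z + (1 + θ) / 2 * Real.exp (-z)

lemma Bp_pos {θ : ℝ} (h0 : 0 ≤ θ) (h1 : θ < 1) (z : ℝ) : 0 < Bp θ z := by
  unfold Bp
  have := Real.exp_pos z
  have := Real.exp_pos (-z)
  have : 0 < (1 + θ) / 2 := by linarith
  have : 0 < (1 - θ) / 2 := by linarith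
  positivity

lemma Bm_pos {θ : ℝ} (h0 : 0 ≤ θ) (h1 : θ < 1) (z : ℝ) : 0 < Bm θ z := by
  unfold Bm
  have := Real.exp_pos z
  have := Real.exp_pos (-z)
  have : 0 < (1 + θ) / 2 := by linarith
  have : 0 < (1 - θ) / 2 := by linarith
  positivity

/-- the message function -/
def psi (θ z : ℝ) : ℝ := (1 / 2) * Real.log (Bp θ z / Bm θ z)
/-- its normalisation -/
def Cpsi (θ z : ℝ) : ℝ := Real.sqrt (Bp θ z * Bm θ z)

lemma Cpsi_pos {θ : ℝ} (h0 : 0 ≤ θ) (h1 : θ < 1) (z : ℝ) : 0 < Cpsi θ z :=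
  Real.sqrt_pos.2 (mul_pos (Bp_pos h0 h1 z) (Bm_pos h0 h1 z))

lemma exp_psi {θ : ℝ} (h0 : 0 ≤ θ) (h1 : θ < 1) (z : ℝ) :
    Real.exp (psi θ z) = Real.sqrt (Bp θ z / Bm θ z) := by
  have hB := div_pos (Bp_pos h0 h1 z) (Bm_pos h0 h1 z)
  unfold psi
  rw [Real.sqrt_eq_rpow, ← Real.exp_log hB]
  rw [Real.log_exp, ← Real.exp_mul]
  ring_nf

lemma Cpsi_exp_pos {θ : ℝ} (h0 : 0 ≤ θ) (h1 : θ < 1) (z : ℝ) :
    Cpsi θ z * Real.exp (psi θ z) = Bp θ z := by
  have hp := Bp_pos h0 h1 z
  have hm := Bm_pos h0 h1 z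
  rw [exp_psi h0 h1, Cpsi, ← Real.sqrt_mul (by positivity)]
  have : Bp θ z * Bm θ z * (Bp θ z / Bm θ z) = Bp θ z ^ 2 := by
    field_simp
  rw [this, Real.sqrt_sq hp.le]

lemma Cpsi_exp_neg {θ : ℝ} (h0 : 0 ≤ θ) (h1 : θ < 1) (z : ℝ) :
    Cpsi θ z * Real.exp (-psi θ z) = Bm θ z := by
  have hp := Bp_pos h0 h1 z
  have hm := Bm_pos h0 h1 z
  have h2 := Cpsi_exp_pos h0 h1 z
  have h3 : Cpsi θ z * Cpsi θ z = Bp θ z * Bm θ z := Real.mul_self_sqrt (by positivity)
  have h4 : Real.exp (-psi θ z) * Real.exp (psi θ z) = 1 := by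
    rw [← Real.exp_add]; simp
  have h5 := Cpsi_pos h0 h1 z
  -- multiply by `Bp`
  have : Bp θ z * (Cpsi θ z * Real.exp (-psi θ z)) = Bp θ z * Bm θ z := by
    rw [← h2]
    calc Cpsi θ z * Real.exp (psi θ z) * (Cpsi θ z * Real.exp (-psi θ z))
        = Cpsi θ z * Cpsi θ z * (Real.exp (-psi θ z) * Real.exp (psi θ z)) := by ring
      _ = Bp θ z * Bm θ z := by rw [h3, h4]; ring
      _ = Cpsi θ z * Real.exp (psi θ z) * Bm θ z := by rw [h2]
  exact mul_left_cancel₀ hp.ne' this

/-- the identity used in leaf elimination -/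
lemma leaf_identity {θ : ℝ} (h0 : 0 ≤ θ) (h1 : θ < 1) (z τ : ℝ) (hτ : τ = 1 ∨ τ = -1) :
    (1 + θ * τ) / 2 * Real.exp z + (1 - θ * τ) / 2 * Real.exp (-z)
      = Cpsi θ z * Real.exp (τ * psi θ z) := by
  rcases hτ with rfl | rfl
  · rw [one_mul, Cpsi_exp_pos h0 h1, Bp]; ring
  · rw [neg_one_mul, Cpsi_exp_neg h0 h1, Bm]; ring

/-- `ψ` is `θ`-Lipschitz. -/
lemma psi_lipschitz {θ : ℝ} (h0 : 0 ≤ θ) (h1 : θ < 1) (a b : ℝ) :
    |psi θ a - psi θ b| ≤ θ * |a - b| := by
  have hder : ∀ z, HasDerivAt (psi θ) (4 * θ / (4 * Bp θ z * Bm θ z)) z := by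
    intro z
    have hp := Bp_pos h0 h1 z
    have hm := Bm_pos h0 h1 z
    have dP : HasDerivAt (Bp θ)
        ((1 + θ) / 2 * Real.exp z - (1 - θ) / 2 * Real.exp (-z)) z := by
      have e1 := (Real.hasDerivAt_exp z).const_mul ((1 + θ) / 2)
      have e2 : HasDerivAt (fun z => Real.exp (-z)) (-Real.exp (-z)) z := by
        simpa using (hasDerivAt_neg z).exp
      have e3 := e2.const_mul ((1 - θ) / 2)
      exact (e1.add e3).congr_deriv (by ring)
    have dM : HasDerivAt (Bm θ)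
        ((1 - θ) / 2 * Real.exp z - (1 + θ) / 2 * Real.exp (-z)) z := by
      have e1 := (Real.hasDerivAt_exp z).const_mul ((1 - θ) / 2)
      have e2 : HasDerivAt (fun z => Real.exp (-z)) (-Real.exp (-z)) z := by
        simpa using (hasDerivAt_neg z).exp
      have e3 := e2.const_mul ((1 + θ) / 2)
      exact (e1.add e3).congr_deriv (by ring)
    have d1 := (dP.div dM hm.ne').log (div_pos hp hm).ne'
    have d2 := d1.const_mul (1 / 2 : ℝ)
    have e : (1 / 2 : ℝ) * (((((1 + θ) / 2 * Real.exp z - (1 - θ) / 2 * Real.exp (-z)) * Bm θ z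
        - Bp θ z * ((1 - θ) / 2 * Real.exp z - (1 + θ) / 2 * Real.exp (-z))) / Bm θ z ^ 2)
        / (Bp θ z / Bm θ z)) = 4 * θ / (4 * Bp θ z * Bm θ z) := by
      have hexp : Real.exp z * Real.exp (-z) = 1 := by
        rw [← Real.exp_add]; simp
      have num : ((1 + θ) / 2 * Real.exp z - (1 - θ) / 2 * Real.exp (-z)) * Bm θ z
          - Bp θ z * ((1 - θ) / 2 * Real.exp z - (1 + θ) / 2 * Real.exp (-z)) = 2 * θ := by
        unfold Bp Bm
        have : (((1 + θ) / 2 * Real.exp z - (1 - θ) / 2 * Real.exp (-z)) *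
              ((1 - θ) / 2 * Real.exp z + (1 + θ) / 2 * Real.exp (-z))
            - ((1 + θ) / 2 * Real.exp z + (1 - θ) / 2 * Real.exp (-z)) *
              ((1 - θ) / 2 * Real.exp z - (1 + θ) / 2 * Real.exp (-z)))
            = 2 * θ * (Real.exp z * Real.exp (-z)) := by ring
        rw [this, hexp]; ring
      rw [num]
      field_simp
    rw [← e]
    exact d2
  have hbound : ∀ z, ‖deriv (psi θ) z‖ ≤ θ := by
    intro z
    rw [(hder z).deriv]
    have hp := Bp_pos h0 h1 z
    have hm := Bm_pos h0 h1 z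
    have hprod : 1 ≤ Bp θ z * Bm θ z := by
      have hexp : Real.exp z * Real.exp (-z) = 1 := by
        rw [← Real.exp_add]; simp
      have e : Bp θ z * Bm θ z = (1 + θ ^ 2) / 2
          + (1 - θ ^ 2) / 4 * (Real.exp z * Real.exp z + Real.exp (-z) * Real.exp (-z)) := by
        unfold Bp Bm
        have : ((1 + θ) / 2 * Real.exp z + (1 - θ) / 2 * Real.exp (-z)) *
            ((1 - θ) / 2 * Real.exp z + (1 + θ) / 2 * Real.exp (-z))
            = (1 - θ ^ 2) / 4 * (Real.exp z * Real.exp z + Real.exp (-z) * Real.exp (-z))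
              + (1 + θ ^ 2) / 2 * (Real.exp z * Real.exp (-z)) := by ring
        rw [this, hexp]; ring
      have hs : 2 ≤ Real.exp z * Real.exp z + Real.exp (-z) * Real.exp (-z) := by
        nlinarith [sq_nonneg (Real.exp z - Real.exp (-z))]
      have ht : 0 ≤ (1 - θ ^ 2) / 4 := by nlinarith
      rw [e]
      nlinarith
    rw [Real.norm_of_nonneg (by positivity)]
    rw [div_le_iff₀ (by positivity)]
    nlinarith
  have hdiff : Differentiable ℝ (psi θ) := fun z => (hder z).differentiableAt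
  have := Convex.norm_image_sub_le_of_norm_deriv_le (f := psi θ) (s := Set.univ) (x := b) (y := a)
    (fun z _ => hdiff z) (fun z _ => hbound z) convex_univ (Set.mem_univ _) (Set.mem_univ _)
  simpa [Real.norm_eq_abs] using this

/-! ### tilted magnetisation -/

/-- the exponential tilt -/
def tilt (A : Finset V) (X : V → ℝ) (σ : V → ℝ) : ℝ := Real.exp (∑ u ∈ A, X u * σ u)

lemma tilt_pos (A : Finset V) (X : V → ℝ) (σ : V → ℝ) : 0 < tilt A X σ := Real.exp_pos _

def Zt (G : SimpleGraph V) (θ : ℝ) (A : Finset V) (X : V → ℝ) : ℝ := Ex G θ A (tilt A X)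
def Nt (G : SimpleGraph V) (θ : ℝ) (A : Finset V) (v : V) (X : V → ℝ) : ℝ :=
  Ex G θ A (fun σ => σ v * tilt A X σ)
/-- The tilted magnetisation at `v`. -/
def Mt (G : SimpleGraph V) (θ : ℝ) (A : Finset V) (v : V) (X : V → ℝ) : ℝ :=
  Nt G θ A v X / Zt G θ A X

lemma Zt_pos {θ : ℝ} (h0 : 0 ≤ θ) (h1 : θ < 1) (A : Finset V) (X : V → ℝ) : 0 < Zt G θ A X :=
  Ex_pos h0 h1 A (fun s => tilt_pos A X _)

lemma abs_Mt_le {θ : ℝ} (h0 : 0 ≤ θ) (h1 : θ < 1) (A : Finset V) (v : V) (X : V → ℝ) :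
    |Mt G θ A v X| ≤ 1 := by
  unfold Mt
  rw [abs_div, abs_of_pos (Zt_pos h0 h1 A X), div_le_one (Zt_pos h0 h1 A X)]
  refine (abs_Ex_le h0 h1 A _).trans ?_
  unfold Zt
  apply Ex_mono h0 h1
  intro s
  rw [abs_mul, abs_sgn, one_mul, abs_of_pos (tilt_pos A X _)]

lemma tilt_congr (A : Finset V) {X X' : V → ℝ} (h : ∀ u ∈ A, X u = X' u) (σ : V → ℝ) :
    tilt A X σ = tilt A X' σ := by
  unfold tilt
  congr 1
  exact Finset.sum_congr rfl fun u hu => by rw [h u hu]

lemma Mt_congr (θ : ℝ) (A : Finset V) (v : V) {X X' : V → ℝ} (h : ∀ u ∈ A, X u = X' u) :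
    Mt G θ A v X = Mt G θ A v X' := by
  unfold Mt Nt Zt
  congr 1
  · apply Ex_congr; intro s; rw [tilt_congr A h]
  · apply Ex_congr; intro s; rw [tilt_congr A h]

/-- tilt after eliminating a leaf -/
lemma tilt_leaf {B : Finset V} {p l : V} (hp : p ∈ B) (hl : l ∉ B) (X : V → ℝ) (σ : V → ℝ) (c : ℝ) :
    tilt B X σ * Real.exp (σ p * c) = tilt B (Function.update X p (X p + c)) σ := by
  unfold tilt
  rw [← Real.exp_add]
  congr 1
  have : ∀ u ∈ B, Function.update X p (X p + c) u * σ u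
      = X u * σ u + (if u = p then σ p * c else 0) := by
    intro u _
    by_cases h : u = p
    · subst h; simp; ring
    · simp [h, Function.update_of_ne]
  rw [Finset.sum_congr rfl this, Finset.sum_add_distrib]
  simp [hp]

lemma tilt_insert_update {B : Finset V} {l : V} (hl : l ∉ B) (X : V → ℝ) (σ : V → ℝ) (τ : ℝ) :
    tilt (insert l B) X (Function.update σ l τ) = Real.exp (X l * τ) * tilt B X σ := by
  unfold tilt
  rw [Finset.sum_insert hl, Real.exp_add]
  simp only [Function.update_self]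
  congr 2
  refine Finset.sum_congr rfl fun u hu => ?_
  have : u ≠ l := fun h => hl (h ▸ hu)
  simp [this, Function.update_of_ne]

/-- Leaf elimination for the numerator with a function of spins not depending on the leaf. -/
lemma Ex_tilt_leaf (hT : G.IsTree) {θ : ℝ} (h0 : 0 ≤ θ) (h1 : θ < 1) {B : Finset V}
    (hB : Conv G B) {p l : V} (hp : p ∈ B) (hl : l ∉ B) (hadj : G.Adj p l) (X : V → ℝ)
    (F : (V → ℝ) → ℝ) (hF : ∀ σ τ, F (Function.update σ l τ) = F σ) :
    Ex G θ (insert l B) (fun σ => F σ * tilt (insert l B) X σ)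
      = Cpsi θ (X l) * Ex G θ B (fun σ => F σ * tilt B (Function.update X p (X p + psi θ (X l))) σ) := by
  rw [Ex_insert hT θ hB hp hl hadj, ← Ex_const_mul]
  apply Ex_congr
  intro s
  simp only [hF, tilt_insert_update hl]
  rw [← tilt_leaf hp hl]
  have key := leaf_identity h0 h1 (X l) (sgn s p) (sgn_cases s p)
  have e1 : Real.exp (X l * 1) = Real.exp (X l) := by simp
  have e2 : Real.exp (X l * -1) = Real.exp (-X l) := by simp
  rw [e1, e2]
  calc _ = F (sgn s) * tilt B X (sgn s) * ((1 + θ * sgn s p) / 2 * Real.exp (X l)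
          + (1 - θ * sgn s p) / 2 * Real.exp (-X l)) := by ring
    _ = _ := by rw [key]; ring

lemma Mt_leaf (hT : G.IsTree) {θ : ℝ} (h0 : 0 ≤ θ) (h1 : θ < 1) {B : Finset V}
    (hB : Conv G B) {p l v : V} (hp : p ∈ B) (hl : l ∉ B) (hadj : G.Adj p l) (hv : v ∈ B)
    (X : V → ℝ) :
    Mt G θ (insert l B) v X = Mt G θ B v (Function.update X p (X p + psi θ (X l))) := by
  have hvl : v ≠ l := fun h => hl (h ▸ hv)
  unfold Mt Nt Zt
  have e1 := Ex_tilt_leaf hT h0 h1 hB hp hl hadj X (fun σ => σ v) (fun σ τ => by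
    simp [hvl, Function.update_of_ne])
  have e2 := Ex_tilt_leaf hT h0 h1 hB hp hl hadj X (fun _ => 1) (fun σ τ => rfl)
  simp only [one_mul] at e2
  rw [e1, e2, mul_div_mul_left _ _ (Cpsi_pos h0 h1 _).ne']

/-- magnetisation on a singleton -/
lemma Mt_singleton (θ : ℝ) (v : V) (X : V → ℝ) :
    Mt G θ {v} v X = (Real.exp (X v) - Real.exp (-X v)) / (Real.exp (X v) + Real.exp (-X v)) := by
  unfold Mt Nt Zt
  rw [Ex_singleton, Ex_singleton]
  unfold tilt
  simp only [Finset.sum_singleton, Function.update_self, mul_one, mul_neg, one_mul, neg_mul]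
  have : Real.exp (X v) + Real.exp (-X v) ≠ 0 := by positivity
  field_simp
  ring

lemma tanhLike_lipschitz (a b : ℝ) :
    |(Real.exp a - Real.exp (-a)) / (Real.exp a + Real.exp (-a))
      - (Real.exp b - Real.exp (-b)) / (Real.exp b + Real.exp (-b))| ≤ |a - b| := by
  let f : ℝ → ℝ := fun z => (Real.exp z - Real.exp (-z)) / (Real.exp z + Real.exp (-z))
  have hder : ∀ z, HasDerivAt f (4 / (Real.exp z + Real.exp (-z)) ^ 2) z := by
    intro z
    have e2 : HasDerivAt (fun z => Real.exp (-z)) (-Real.exp (-z)) z := by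
      simpa using (hasDerivAt_neg z).exp
    have hne : Real.exp z + Real.exp (-z) ≠ 0 := by positivity
    have d := ((Real.hasDerivAt_exp z).sub e2).div ((Real.hasDerivAt_exp z).add e2) hne
    have hexp : Real.exp z * Real.exp (-z) = 1 := by
      rw [← Real.exp_add]; simp
    refine d.congr_deriv ?_
    have num : (Real.exp z - -Real.exp (-z)) * (Real.exp z + Real.exp (-z))
        - (Real.exp z - Real.exp (-z)) * (Real.exp z + -Real.exp (-z)) = 4 := by
      have : (Real.exp z - -Real.exp (-z)) * (Real.exp z + Real.exp (-z))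
        - (Real.exp z - Real.exp (-z)) * (Real.exp z + -Real.exp (-z))
          = 4 * (Real.exp z * Real.exp (-z)) := by ring
      rw [this, hexp]; ring
    simp only [Pi.add_apply, Pi.sub_apply]
    rw [num]
  have hbound : ∀ z, ‖deriv f z‖ ≤ 1 := by
    intro z
    rw [(hder z).deriv, Real.norm_of_nonneg (by positivity)]
    have hexp : Real.exp z * Real.exp (-z) = 1 := by
      rw [← Real.exp_add]; simp
    rw [div_le_one (by positivity)]
    nlinarith [sq_nonneg (Real.exp z - Real.exp (-z))]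
  have hdiff : Differentiable ℝ f := fun z => (hder z).differentiableAt
  have := Convex.norm_image_sub_le_of_norm_deriv_le (f := f) (s := Set.univ) (x := b) (y := a)
    (fun z _ => hdiff z) (fun z _ => hbound z) convex_univ (Set.mem_univ _) (Set.mem_univ _)
  simpa [Real.norm_eq_abs, f] using this

/-- **Key estimate**: the tilted magnetisation is Lipschitz with the tree kernel. -/
theorem Mt_lipschitz (hT : G.IsTree) {θ : ℝ} (h0 : 0 ≤ θ) (h1 : θ < 1) {A : Finset V}
    (hA : Conv G A) {v : V} (hv : v ∈ A) (X X' : V → ℝ) :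
    |Mt G θ A v X - Mt G θ A v X'| ≤ ∑ u ∈ A, θ ^ G.dist u v * |X u - X' u| := by
  revert X X'
  refine grow_induction hT (conv_singleton hT v) ⟨v, by simp⟩
    (fun B => ∀ X X' : V → ℝ, |Mt G θ B v X - Mt G θ B v X'|
      ≤ ∑ u ∈ B, θ ^ G.dist u v * |X u - X' u|) ?_ ?_ hA (by simpa using hv)
  · intro X X'
    rw [Mt_singleton, Mt_singleton]
    simpa using tanhLike_lipschitz (X v) (X' v)
  · intro B p l hB hvB hp hl hadj hP X X'
    have hvB' : v ∈ B := hvB (by simp)
    rw [Mt_leaf hT h0 h1 hB hp hl hadj hvB', Mt_leaf hT h0 h1 hB hp hl hadj hvB']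
    refine (hP _ _).trans ?_
    rw [Finset.sum_insert hl]
    have hd : G.dist l v = G.dist p v + 1 := leaf_dist hT hB hp hl hadj hvB'
    have hθp : 0 ≤ θ ^ G.dist p v := pow_nonneg h0 _
    -- split the term at `p`
    have hterm : ∀ u ∈ B, θ ^ G.dist u v *
        |Function.update X p (X p + psi θ (X l)) u - Function.update X' p (X' p + psi θ (X' l)) u|
        ≤ θ ^ G.dist u v * |X u - X' u|
          + (if u = p then θ ^ G.dist p v * (θ * |X l - X' l|) else 0) := by
      intro u _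
      by_cases h : u = p
      · subst h
        simp only [Function.update_self, if_true]
        have : |X u + psi θ (X l) - (X' u + psi θ (X' l))|
            ≤ |X u - X' u| + θ * |X l - X' l| := by
          have e : X u + psi θ (X l) - (X' u + psi θ (X' l))
              = (X u - X' u) + (psi θ (X l) - psi θ (X' l)) := by ring
          rw [e]
          exact (abs_add_le _ _).trans (by gcongr; exact psi_lipschitz h0 h1 _ _)
        calc _ ≤ θ ^ G.dist u v * (|X u - X' u| + θ * |X l - X' l|) := by gcongr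
          _ = _ := by ring
      · simp [h, Function.update_of_ne]
    refine (Finset.sum_le_sum hterm).trans ?_
    rw [Finset.sum_add_distrib]
    simp only [Finset.sum_ite_eq', hp, if_true]
    rw [hd, pow_succ]
    apply le_of_eq
    ring

end Vale.Agent.Lib.P161
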