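import Vale.Agent.Lib.P161.Tree

/-!
The weighted Schur bound for the kernel `θ ^ dist` on a tree of bounded degree.
-/

open Finset

noncomputable section
namespace Vale.Agent.Lib.P161

open scoped Classical

variable {V : Type} {G : SimpleGraph V}

/-- `x` lies below `u` for the root `r` -/
def Desc (G : SimpleGraph V) (r u x : V) : Prop := G.dist x r = G.dist u r + G.dist u x

/-- children of a vertex -/
def kids (G : SimpleGraph V) (nb : V → Finset V) (r u : V) : Finset V :=
  (nb u).filter (fun c => G.dist c r = G.dist u r + 1)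

lemma kids_card_le (hT : G.IsTree) {nb : V → Finset V} (hnb : ∀ u x, x ∈ nb u ↔ G.Adj u x) {D : ℕ}
    (hD : ∀ u, (nb u).card ≤ D) {r u : V} (hu : u ≠ r) : (kids G nb r u).card + 1 ≤ D := by
  obtain ⟨p, hp, dp⟩ := toward_exists hT hu
  have hsub : kids G nb r u ⊆ (nb u).erase p := by
    intro c hc
    obtain ⟨h1, h2⟩ := Finset.mem_filter.1 hc
    refine Finset.mem_erase.2 ⟨?_, h1⟩
    rintro rfl
    omega
  have h1 := Finset.card_le_card hsub
  have hpm : p ∈ nb u := (hnb u p).2 hp
  rw [Finset.card_erase_of_mem hpm] at h1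
  have h2 : 0 < (nb u).card := Finset.card_pos.2 ⟨p, hpm⟩
  have h3 := hD u
  omega

lemma kids_card_le_root {nb : V → Finset V} {D : ℕ} (hD : ∀ u, (nb u).card ≤ D) (r u : V) :
    (kids G nb r u).card ≤ D :=
  (Finset.card_le_card (Finset.filter_subset _ _)).trans (hD u)

lemma sum_biUnion_le_of_nonneg {α β : Type} (s : Finset α) (t : α → Finset β) (f : β → ℝ)
    (hf : ∀ b, 0 ≤ f b) : ∑ x ∈ s.biUnion t, f x ≤ ∑ c ∈ s, ∑ x ∈ t c, f x := by
  induction s using Finset.induction_on with
  | empty => simp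
  | insert a s ha ih =>
    rw [Finset.biUnion_insert, Finset.sum_insert ha]
    have h1 : ∑ x ∈ t a ∪ s.biUnion t, f x ≤ ∑ x ∈ t a, f x + ∑ x ∈ s.biUnion t, f x := by
      rw [← Finset.sum_union_inter]
      have : 0 ≤ ∑ x ∈ t a ∩ s.biUnion t, f x := Finset.sum_nonneg fun b _ => hf b
      linarith
    linarith

/-- sum over the descendants of `u` in `A` -/
def hSum (G : SimpleGraph V) (r : V) (A : Finset V) (t : ℝ) (u : V) : ℝ :=
  ∑ x ∈ A.filter (Desc G r u), t ^ G.dist u x

lemma hSum_nonneg (r : V) (A : Finset V) {t : ℝ} (ht : 0 ≤ t) (u : V) : 0 ≤ hSum G r A t u :=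
  Finset.sum_nonneg fun _ _ => pow_nonneg ht _

/-- recursion over the children -/
lemma hSum_rec (hT : G.IsTree) {nb : V → Finset V} (hnb : ∀ u x, x ∈ nb u ↔ G.Adj u x) (r : V)
    (A : Finset V) {t : ℝ} (ht : 0 ≤ t) (u : V) :
    hSum G r A t u ≤ 1 + t * ∑ c ∈ kids G nb r u, hSum G r A t c := by
  unfold hSum
  have hsplit : A.filter (Desc G r u) ⊆ insert u ((kids G nb r u).biUnion
      (fun c => A.filter (Desc G r c))) := by
    intro x hx
    obtain ⟨hxA, hxd⟩ := Finset.mem_filter.1 hx
    by_cases hxu : x = u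
    · subst hxu; exact Finset.mem_insert_self _ _
    · apply Finset.mem_insert_of_mem
      obtain ⟨c, hc, dc⟩ := toward_exists hT (Ne.symm hxu)
      refine Finset.mem_biUnion.2 ⟨c, ?_, Finset.mem_filter.2 ⟨hxA, ?_⟩⟩
      · refine Finset.mem_filter.2 ⟨(hnb u c).2 hc, ?_⟩
        have h1 := dist_tri hT x c r
        have h2 := dist_tri hT c u r
        have h3 := dist_one_of_adj hc
        unfold Desc at hxd
        rw [dist_sym x c] at h1
        rw [dist_sym c u, h3] at h2
        omega
      · unfold Desc at hxd ⊢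
        have h1 := dist_tri hT x c r
        have h2 := dist_tri hT c u r
        have h3 := dist_one_of_adj hc
        rw [dist_sym x c] at h1
        rw [dist_sym c u, h3] at h2
        omega
  have hf : ∀ x, 0 ≤ (if G.dist u x = 0 then (1 : ℝ) else t ^ G.dist u x) := by
    intro x; split_ifs
    · norm_num
    · exact pow_nonneg ht _
  -- bound termwise
  calc ∑ x ∈ A.filter (Desc G r u), t ^ G.dist u x
      ≤ ∑ x ∈ insert u ((kids G nb r u).biUnion (fun c => A.filter (Desc G r c))),
          (if x = u then (1 : ℝ) else t ^ G.dist u x) := by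
        refine (Finset.sum_le_sum fun x _ => ?_).trans
          (Finset.sum_le_sum_of_subset_of_nonneg hsplit fun x _ _ => ?_)
        · by_cases h : x = u
          · subst h; simp
          · simp [h]
        · split_ifs
          · norm_num
          · exact pow_nonneg ht _
    _ ≤ 1 + ∑ x ∈ (kids G nb r u).biUnion (fun c => A.filter (Desc G r c)),
          (if x = u then (1 : ℝ) else t ^ G.dist u x) := by
        by_cases hmem : u ∈ (kids G nb r u).biUnion (fun c => A.filter (Desc G r c))
        · rw [Finset.insert_eq_of_mem hmem]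
          linarith
        · rw [Finset.sum_insert hmem]
          simp
    _ ≤ 1 + ∑ c ∈ kids G nb r u, ∑ x ∈ A.filter (Desc G r c),
          (if x = u then (1 : ℝ) else t ^ G.dist u x) := by
        have := sum_biUnion_le_of_nonneg (kids G nb r u) (fun c => A.filter (Desc G r c))
          (fun x => if x = u then (1 : ℝ) else t ^ G.dist u x) (fun x => by
            split_ifs
            · norm_num
            · exact pow_nonneg ht _)
        linarith
    _ ≤ 1 + t * ∑ c ∈ kids G nb r u, ∑ x ∈ A.filter (Desc G r c), t ^ G.dist c x := by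
        rw [Finset.mul_sum]
        gcongr with c hc
        rw [Finset.mul_sum]
        refine Finset.sum_le_sum fun x hx => ?_
        obtain ⟨_, hxd⟩ := Finset.mem_filter.1 hx
        obtain ⟨hcn, hcr⟩ := Finset.mem_filter.1 hc
        have hcadj : G.Adj u c := (hnb u c).1 hcn
        -- `x` below the child `c`, hence `x ≠ u` and the distance splits
        unfold Desc at hxd
        have hne : x ≠ u := by
          rintro rfl
          omega
        rw [if_neg hne]
        have h1 := dist_tri hT u c x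
        have h2 := dist_tri hT x u r
        rw [dist_one_of_adj hcadj] at h1
        rw [dist_sym x u] at h2
        have h3 : G.dist u x = G.dist c x + 1 := by omega
        rw [h3, pow_succ]
        apply le_of_eq
        ring

/-- The bound on the sum over descendants. -/
lemma hSum_bound (hT : G.IsTree) {nb : V → Finset V} (hnb : ∀ u x, x ∈ nb u ↔ G.Adj u x) {D : ℕ}
    (hD : ∀ u, (nb u).card ≤ D) (hD2 : 2 ≤ D) (r : V) (A : Finset V) {t s : ℝ}
    (ht : 0 ≤ t) (hs0 : 0 ≤ s) (hs1 : s < 1) (hts : t * ((D : ℝ) - 1) ≤ s) :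
    (∀ u, u ≠ r → hSum G r A t u ≤ 1 / (1 - s)) ∧ hSum G r A t r ≤ 2 / (1 - s) := by
  have hpos : 0 < 1 - s := by linarith
  have hcard : ∀ n : ℕ, ∀ u, u ≠ r → A.sup (fun x => G.dist x r) + 1 ≤ G.dist u r + n →
      hSum G r A t u ≤ 1 / (1 - s) := by
    intro n
    induction n with
    | zero =>
      intro u _ hu
      have : A.filter (Desc G r u) = ∅ := by
        refine Finset.filter_eq_empty_iff.2 fun x hx hd => ?_
        have h1 : G.dist x r ≤ A.sup (fun x => G.dist x r) :=
          Finset.le_sup (f := fun x => G.dist x r) hx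
        unfold Desc at hd
        omega
      unfold hSum
      rw [this, Finset.sum_empty]
      positivity
    | succ n ih =>
      intro u hu hn
      refine (hSum_rec hT hnb r A ht u).trans ?_
      have hkid : ∀ c ∈ kids G nb r u, hSum G r A t c ≤ 1 / (1 - s) := by
        intro c hc
        obtain ⟨_, hcr⟩ := Finset.mem_filter.1 hc
        refine ih c ?_ (by omega)
        rintro rfl
        simp at hcr
      have hsum : ∑ c ∈ kids G nb r u, hSum G r A t c
          ≤ ((D : ℝ) - 1) * (1 / (1 - s)) := by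
        refine (Finset.sum_le_card_nsmul _ _ _ hkid).trans ?_
        have hk := kids_card_le hT hnb hD hu
        have : ((kids G nb r u).card : ℝ) ≤ (D : ℝ) - 1 := by
          have : ((kids G nb r u).card : ℝ) + 1 ≤ D := by exact_mod_cast hk
          linarith
        rw [nsmul_eq_mul]
        exact mul_le_mul_of_nonneg_right this (by positivity)
      have h3 : t * ∑ c ∈ kids G nb r u, hSum G r A t c ≤ s * (1 / (1 - s)) := by
        calc _ ≤ t * (((D : ℝ) - 1) * (1 / (1 - s))) := mul_le_mul_of_nonneg_left hsum ht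
          _ = (t * ((D : ℝ) - 1)) * (1 / (1 - s)) := by ring
          _ ≤ s * (1 / (1 - s)) := mul_le_mul_of_nonneg_right hts (by positivity)
      have h4 : 1 + s * (1 / (1 - s)) = 1 / (1 - s) := by
        field_simp
        ring
      linarith
  have hall : ∀ u, u ≠ r → hSum G r A t u ≤ 1 / (1 - s) := fun u hu =>
    hcard (A.sup (fun x => G.dist x r) + 1) u hu (by omega)
  refine ⟨hall, ?_⟩
  refine (hSum_rec hT hnb r A ht r).trans ?_
  have hkid : ∀ c ∈ kids G nb r r, hSum G r A t c ≤ 1 / (1 - s) := by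
    intro c hc
    obtain ⟨_, hcr⟩ := Finset.mem_filter.1 hc
    refine hall c ?_
    rintro rfl
    simp at hcr
  have hsum : ∑ c ∈ kids G nb r r, hSum G r A t c ≤ (D : ℝ) * (1 / (1 - s)) := by
    refine (Finset.sum_le_card_nsmul _ _ _ hkid).trans ?_
    have hk := kids_card_le_root (G := G) hD r r
    have : ((kids G nb r r).card : ℝ) ≤ (D : ℝ) := by exact_mod_cast hk
    rw [nsmul_eq_mul]
    exact mul_le_mul_of_nonneg_right this (by positivity)
  have hD' : (2 : ℝ) ≤ D := by exact_mod_cast hD2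
  have htD : t * (D : ℝ) ≤ 2 * s := by
    have : t * (D : ℝ) = t * ((D : ℝ) - 1) + t := by ring
    have ht1 : t ≤ s := by
      have : t * 1 ≤ t * ((D : ℝ) - 1) := mul_le_mul_of_nonneg_left (by linarith) ht
      linarith
    linarith
  have h3 : t * ∑ c ∈ kids G nb r r, hSum G r A t c ≤ 2 * s * (1 / (1 - s)) := by
    calc _ ≤ t * ((D : ℝ) * (1 / (1 - s))) := mul_le_mul_of_nonneg_left hsum ht
      _ = (t * (D : ℝ)) * (1 / (1 - s)) := by ring
      _ ≤ 2 * s * (1 / (1 - s)) := mul_le_mul_of_nonneg_right htD (by positivity)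
  have h4 : 1 + 2 * s * (1 / (1 - s)) ≤ 2 / (1 - s) := by
    have : 2 / (1 - s) - (1 + 2 * s * (1 / (1 - s))) = 1 := by
      field_simp
      ring
    linarith
  linarith

/-- **Row sum bound.** -/
theorem row_sum (hT : G.IsTree) {nb : V → Finset V} (hnb : ∀ u x, x ∈ nb u ↔ G.Adj u x) {D : ℕ}
    (hD : ∀ u, (nb u).card ≤ D) (hD2 : 2 ≤ D) (r : V) (A : Finset V) {θ q s : ℝ}
    (hθ : 0 ≤ θ) (hq : 0 < q) (hs0 : 0 ≤ s) (hs1 : s < 1) (h1 : θ ≤ s * q)
    (h2 : θ * q * ((D : ℝ) - 1) ≤ s) (u : V) :
    ∑ x ∈ A, θ ^ G.dist u x * q ^ G.dist x r ≤ 2 / (1 - s) ^ 2 * q ^ G.dist u r := by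
  have hpos : 0 < 1 - s := by linarith
  have ht : 0 ≤ θ * q := by positivity
  obtain ⟨hb1, hb2⟩ := hSum_bound hT hnb hD hD2 r A ht hs0 hs1 h2
  have hb : ∀ u, hSum G r A (θ * q) u ≤ 2 / (1 - s) := by
    intro u
    by_cases hu : u = r
    · rw [hu]; exact hb2
    · refine (hb1 u hu).trans ?_
      apply div_le_div_of_nonneg_right (by norm_num) hpos.le
  -- the descendants
  have hdesc : ∀ u, ∑ x ∈ A.filter (Desc G r u), θ ^ G.dist u x * q ^ G.dist x r
      = q ^ G.dist u r * hSum G r A (θ * q) u := by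
    intro u
    unfold hSum
    rw [Finset.mul_sum]
    refine Finset.sum_congr rfl fun x hx => ?_
    have hd : G.dist x r = G.dist u r + G.dist u x := (Finset.mem_filter.1 hx).2
    rw [hd, pow_add, mul_pow]
    ring
  -- induction on the depth
  have main : ∀ n : ℕ, ∀ u, G.dist u r = n →
      ∑ x ∈ A, θ ^ G.dist u x * q ^ G.dist x r ≤ 2 / (1 - s) ^ 2 * q ^ G.dist u r := by
    intro n
    induction n with
    | zero =>
      intro u hu
      have hur : u = r := (dist_eq_zero' hT).1 hu
      subst hur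
      have hall : A.filter (Desc G u u) = A := by
        refine Finset.filter_true_of_mem fun x _ => ?_
        unfold Desc
        simp [dist_sym x u]
      have := hdesc u
      rw [hall] at this
      rw [this]
      simp only [SimpleGraph.dist_self, pow_zero, one_mul, mul_one]
      refine (hb u).trans ?_
      have h3 : (1 - s) ^ 2 ≤ 1 - s := by nlinarith
      apply div_le_div_of_nonneg_left (by norm_num) (by positivity) h3
    | succ n ih =>
      intro u hu
      have hur : u ≠ r := by
        rintro rfl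
        simp at hu
      obtain ⟨p, hp, dp⟩ := toward_exists hT hur
      have hpd : G.dist p r = n := by omega
      have hIH := ih p hpd
      -- split
      rw [← Finset.sum_filter_add_sum_filter_not A (Desc G r u), hdesc u]
      have hother : ∑ x ∈ A.filter (fun x => ¬ Desc G r u x), θ ^ G.dist u x * q ^ G.dist x r
          ≤ θ * ∑ x ∈ A, θ ^ G.dist p x * q ^ G.dist x r := by
        rw [Finset.mul_sum]
        refine (Finset.sum_le_sum fun x hx => ?_).trans
          (Finset.sum_le_sum_of_subset_of_nonneg (Finset.filter_subset _ _) fun x _ _ => ?_)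
        · have hnd : ¬ Desc G r u x := (Finset.mem_filter.1 hx).2
          have hsplit : G.dist u x = G.dist p x + 1 := by
            rcases dist_adj hT x hp with h | h
            · rw [dist_sym u x, dist_sym p x]; exact h
            · exfalso
              apply hnd
              exact desc_of_away hT r _ u p x rfl hp dp (by
                rw [dist_sym p x, dist_sym u x]; exact h)
          rw [hsplit, pow_succ]
          apply le_of_eq
          ring
        · positivity
      have h3 := mul_le_mul_of_nonneg_left hIH hθ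
      have hqpow : q ^ G.dist u r = q * q ^ G.dist p r := by
        rw [← dp, pow_succ]; ring
      have h4 : θ * (2 / (1 - s) ^ 2 * q ^ G.dist p r)
          ≤ s * (2 / (1 - s) ^ 2) * q ^ G.dist u r := by
        rw [hqpow]
        have hqp : 0 ≤ q ^ G.dist p r := by positivity
        have hc : 0 ≤ 2 / (1 - s) ^ 2 := by positivity
        calc θ * (2 / (1 - s) ^ 2 * q ^ G.dist p r)
            ≤ (s * q) * (2 / (1 - s) ^ 2 * q ^ G.dist p r) :=
              mul_le_mul_of_nonneg_right h1 (by positivity)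
          _ = _ := by ring
      have h5 : q ^ G.dist u r * hSum G r A (θ * q) u ≤ q ^ G.dist u r * (2 / (1 - s)) :=
        mul_le_mul_of_nonneg_left (hb u) (by positivity)
      have h6 : 2 / (1 - s) + s * (2 / (1 - s) ^ 2) = 2 / (1 - s) ^ 2 := by
        field_simp
        ring
      have h7 : q ^ G.dist u r * (2 / (1 - s)) + s * (2 / (1 - s) ^ 2) * q ^ G.dist u r
          = 2 / (1 - s) ^ 2 * q ^ G.dist u r := by
        calc q ^ G.dist u r * (2 / (1 - s)) + s * (2 / (1 - s) ^ 2) * q ^ G.dist u r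
            = (2 / (1 - s) + s * (2 / (1 - s) ^ 2)) * q ^ G.dist u r := by ring
          _ = _ := by rw [h6]
      linarith
  exact main _ u rfl

/-- **Weighted Schur bound.** Here `w x = (q₂ / q₁) ^ dist x r`. -/
theorem schur_bound (hT : G.IsTree) {nb : V → Finset V} (hnb : ∀ u x, x ∈ nb u ↔ G.Adj u x) {D : ℕ}
    (hD : ∀ u, (nb u).card ≤ D) (hD2 : 2 ≤ D) (r : V) (A : Finset V) {θ q₁ q₂ s : ℝ}
    (hθ : 0 ≤ θ) (hq₁ : 0 < q₁) (hq₂ : 0 < q₂) (hs0 : 0 ≤ s) (hs1 : s < 1)
    (h11 : θ ≤ s * q₁) (h12 : θ * q₁ * ((D : ℝ) - 1) ≤ s)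
    (h21 : θ ≤ s * q₂) (h22 : θ * q₂ * ((D : ℝ) - 1) ≤ s) (f : V → ℝ) :
    ∑ u ∈ A, (q₂ / q₁) ^ G.dist u r * (∑ x ∈ A, θ ^ G.dist u x * f x) ^ 2
      ≤ (2 / (1 - s) ^ 2) ^ 2 * ∑ u ∈ A, (q₂ / q₁) ^ G.dist u r * f u ^ 2 := by
  have hpos : 0 < 1 - s := by linarith
  set C := 2 / (1 - s) ^ 2 with hC
  have hC0 : 0 ≤ C := by positivity
  -- Cauchy-Schwarz for each row
  have hrow : ∀ u, (∑ x ∈ A, θ ^ G.dist u x * f x) ^ 2
      ≤ (C * q₁ ^ G.dist u r) *
        ∑ x ∈ A, θ ^ G.dist u x * ((q₁⁻¹) ^ G.dist x r * f x ^ 2) := by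
    intro u
    have h1 := Finset.sum_sq_le_sum_mul_sum_of_sq_le_mul (s := A)
      (r := fun x => θ ^ G.dist u x * f x)
      (f := fun x => θ ^ G.dist u x * q₁ ^ G.dist x r)
      (g := fun x => θ ^ G.dist u x * ((q₁⁻¹) ^ G.dist x r * f x ^ 2))
      (fun x _ => by positivity) (fun x _ => by positivity) (fun x _ => le_of_eq <| by
        have hqq : q₁ ^ G.dist x r * (q₁⁻¹) ^ G.dist x r = 1 := by
          rw [← mul_pow, mul_inv_cancel₀ hq₁.ne', one_pow]
        calc (θ ^ G.dist u x * f x) ^ 2
            = θ ^ G.dist u x * θ ^ G.dist u x * f x ^ 2 * 1 := by ring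
          _ = _ := by rw [← hqq]; ring)
    refine h1.trans ?_
    have h2 := row_sum hT hnb hD hD2 r A hθ hq₁ hs0 hs1 h11 h12 u
    exact mul_le_mul_of_nonneg_right h2 (Finset.sum_nonneg fun x _ => by positivity)
  have hw : ∀ u, 0 ≤ (q₂ / q₁) ^ G.dist u r := fun u => by positivity
  calc ∑ u ∈ A, (q₂ / q₁) ^ G.dist u r * (∑ x ∈ A, θ ^ G.dist u x * f x) ^ 2
      ≤ ∑ u ∈ A, (q₂ / q₁) ^ G.dist u r * ((C * q₁ ^ G.dist u r) *
          ∑ x ∈ A, θ ^ G.dist u x * ((q₁⁻¹) ^ G.dist x r * f x ^ 2)) :=
        Finset.sum_le_sum fun u _ => mul_le_mul_of_nonneg_left (hrow u) (hw u)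
    _ = C * ∑ u ∈ A, ∑ x ∈ A, (θ ^ G.dist x u * q₂ ^ G.dist u r) *
          ((q₁⁻¹) ^ G.dist x r * f x ^ 2) := by
        rw [Finset.mul_sum]
        refine Finset.sum_congr rfl fun u _ => ?_
        rw [Finset.mul_sum, Finset.mul_sum, Finset.mul_sum]
        refine Finset.sum_congr rfl fun x _ => ?_
        have hq : (q₂ / q₁) ^ G.dist u r * q₁ ^ G.dist u r = q₂ ^ G.dist u r := by
          rw [← mul_pow, div_mul_cancel₀ _ hq₁.ne']
        rw [dist_sym x u, ← hq]
        ring
    _ = C * ∑ x ∈ A, (∑ u ∈ A, θ ^ G.dist x u * q₂ ^ G.dist u r) *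
          ((q₁⁻¹) ^ G.dist x r * f x ^ 2) := by
        congr 1
        rw [Finset.sum_comm]
        refine Finset.sum_congr rfl fun x _ => ?_
        rw [Finset.sum_mul]
    _ ≤ C * ∑ x ∈ A, (C * q₂ ^ G.dist x r) * ((q₁⁻¹) ^ G.dist x r * f x ^ 2) := by
        refine mul_le_mul_of_nonneg_left (Finset.sum_le_sum fun x _ => ?_) hC0
        exact mul_le_mul_of_nonneg_right
          (row_sum hT hnb hD hD2 r A hθ hq₂ hs0 hs1 h21 h22 x) (by positivity)
    _ = C ^ 2 * ∑ u ∈ A, (q₂ / q₁) ^ G.dist u r * f u ^ 2 := by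
        rw [pow_two, mul_assoc]
        congr 1
        rw [Finset.mul_sum]
        refine Finset.sum_congr rfl fun x _ => ?_
        have : (q₂ / q₁) ^ G.dist x r = q₂ ^ G.dist x r * (q₁⁻¹) ^ G.dist x r := by
          rw [div_eq_mul_inv, mul_pow]
        rw [this]
        ring

end Vale.Agent.Lib.P161
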