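import Vale.Agent.Lib.P161.Code
import Vale.Agent.Lib.P161.Schur

/-!
Final assembly: the free Ising state on a regular tree is a factor of iid for `(d-1) θ^2 < 1`.
-/

open MeasureTheory Finset

noncomputable section
namespace Vale.Agent.Lib.P161

open scoped Classical

/-- A small channel parameter. -/
lemma exists_eps {B : ℝ} (hB : 0 ≤ B) : ∃ ε : ℝ, 0 < ε ∧ ε < 1 ∧ cTwo ε ^ 2 * B ≤ 1 / 4 := by
  set x : ℝ := 1 / (1 + B) with hx
  have h1B : 0 < 1 + B := by linarith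
  have hx0 : 0 < x := by positivity
  have hx1 : x ≤ 1 := by
    rw [hx, div_le_one h1B]; linarith
  have hxB : x * (1 + B) = 1 := by
    rw [hx]; field_simp
  refine ⟨x / 2, by positivity, by linarith, ?_⟩
  set ε := x / 2 with hε
  have hε0 : 0 < ε := by positivity
  have hε1 : ε ≤ 1 / 2 := by linarith
  have hden : 1 / 4 ≤ (1 - ε ^ 2) * (1 - ε) := by nlinarith [sq_nonneg ε]
  have hden0 : 0 < (1 - ε ^ 2) * (1 - ε) := by linarith
  have hc : cTwo ε ≤ 2 * ε ^ 2 := by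
    unfold cTwo cOne
    have : ε / ((1 - ε ^ 2) * (1 - ε)) ≤ 4 * ε := by
      rw [div_le_iff₀ hden0]
      nlinarith
    calc ε / ((1 - ε ^ 2) * (1 - ε)) * (ε / 2) ≤ 4 * ε * (ε / 2) :=
          mul_le_mul_of_nonneg_right this (by positivity)
      _ = 2 * ε ^ 2 := by ring
  have hc0 : 0 ≤ cTwo ε := by
    unfold cTwo cOne
    positivity
  have hc2 : cTwo ε ^ 2 ≤ (2 * ε ^ 2) ^ 2 := pow_le_pow_left₀ hc0 hc 2
  have hfinal : (2 * ε ^ 2) ^ 2 * B ≤ 1 / 4 := by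
    have e : (2 * ε ^ 2) ^ 2 * B = (1 / 4) * (x ^ 4 * B) := by
      rw [hε]; ring
    rw [e]
    have h3 : x ^ 4 * B ≤ 1 := by
      have h4 : x ^ 4 * (1 + B) = x ^ 3 := by
        calc x ^ 4 * (1 + B) = x ^ 3 * (x * (1 + B)) := by ring
          _ = x ^ 3 := by rw [hxB, mul_one]
      have h5 : x ^ 3 ≤ 1 := pow_le_one₀ hx0.le hx1
      have h6 : 0 ≤ x ^ 4 := by positivity
      nlinarith
    linarith
  exact (mul_le_mul_of_nonneg_right hc2 hB).trans hfinal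

/-- The choice of the parameters of the Schur test. -/
lemma exists_params {d : ℕ} (hd : 3 ≤ d) {θ : ℝ} (h0 : 0 ≤ θ) (hκ : ((d : ℝ) - 1) * θ ^ 2 < 1) :
    ∃ q₁ q₂ s : ℝ, 0 < q₁ ∧ 0 < q₂ ∧ 0 ≤ s ∧ s < 1 ∧ θ ≤ s * q₁ ∧ θ * q₁ * ((d : ℝ) - 1) ≤ s ∧
      θ ≤ s * q₂ ∧ θ * q₂ * ((d : ℝ) - 1) ≤ s ∧ 1 < q₂ / q₁ := by
  have hd' : (3 : ℝ) ≤ d := by exact_mod_cast hd
  set a := Real.sqrt ((d : ℝ) - 1) with ha
  have ha2 : a ^ 2 = (d : ℝ) - 1 := Real.sq_sqrt (by linarith)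
  have ha0 : 0 < a := Real.sqrt_pos.2 (by linarith)
  set ρ := θ * a with hρ
  have hρ0 : 0 ≤ ρ := by positivity
  have hρ2 : ρ ^ 2 < 1 := by
    rw [hρ, mul_pow, ha2]
    linarith
  have hρ1 : ρ < 1 := by nlinarith
  set s₀ := (1 + ρ) / 2 with hs₀
  have hs₀0 : 0 < s₀ := by positivity
  have hs₀1 : s₀ < 1 := by rw [hs₀]; linarith
  have hρs : ρ < s₀ := by rw [hs₀]; linarith
  have hs₀2 : s₀ ^ 2 ≤ 1 := by nlinarith
  refine ⟨s₀ / a, 1 / (s₀ * a), ρ / s₀, by positivity, by positivity, by positivity, ?_, ?_, ?_, ?_,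
    ?_, ?_⟩
  · rw [div_lt_one hs₀0]; exact hρs
  · have : ρ / s₀ * (s₀ / a) = θ := by
      rw [hρ]; field_simp
    rw [this]
  · have e : θ * (s₀ / a) * ((d : ℝ) - 1) = ρ * s₀ := by
      rw [← ha2, hρ]; field_simp
    rw [e, le_div_iff₀ hs₀0]
    nlinarith
  · have e : ρ / s₀ * (1 / (s₀ * a)) = θ / s₀ ^ 2 := by
      rw [hρ]; field_simp
    rw [e, le_div_iff₀ (by positivity)]
    nlinarith
  · have e : θ * (1 / (s₀ * a)) * ((d : ℝ) - 1) = ρ / s₀ := by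
      rw [← ha2, hρ]; field_simp
    rw [e]
  · have e : 1 / (s₀ * a) / (s₀ / a) = 1 / s₀ ^ 2 := by
      field_simp
    rw [e, lt_div_iff₀ (by positivity)]
    nlinarith

/-- **Main theorem.** -/
theorem free_ising_fiid {d : ℕ} (hd : 3 ≤ d) {V : Type} {G : SimpleGraph V} (hT : G.IsTree)
    (hdeg : ∀ v, (G.neighborSet v).ncard = d) {θ : ℝ} (h0 : 0 ≤ θ)
    (hκ : ((d : ℝ) - 1) * θ ^ 2 < 1) :
    ∃ Φ : (V → unitInterval) → (V → Bool), Measurable Φ ∧
      (∀ g : G ≃g G, ∀ᵐ U ∂unif V, Φ (fun v => U (g.symm v)) = fun v => Φ U (g.symm v)) ∧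
      ∀ D : Finset V, (G.induce (D : Set V)).Connected → ∀ η : V → Bool,
        (unif V).real {U | ∀ v ∈ D, Φ U v = η v} = isingWeight G θ D (fun v => spinOf (η v)) := by
  have hd' : (3 : ℝ) ≤ d := by exact_mod_cast hd
  have hθ1 : θ < 1 := by nlinarith
  have hfin : ∀ v, (G.neighborSet v).Finite := fun v =>
    Set.finite_of_ncard_ne_zero (by rw [hdeg v]; omega)
  let nb : V → Finset V := fun v => (hfin v).toFinset
  have hnb : ∀ u x, x ∈ nb u ↔ G.Adj u x := fun u x => by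
    simp [nb]
  have hcard : ∀ u, (nb u).card ≤ d := fun u => by
    have := Set.ncard_eq_toFinset_card _ (hfin u)
    rw [hdeg u] at this
    exact this.ge
  obtain ⟨q₁, q₂, s, hq₁, hq₂, hs0, hs1, h11, h12, h21, h22, hW⟩ := exists_params hd h0 hκ
  have hB : 0 ≤ (2 / (1 - s) ^ 2) ^ 2 := by positivity
  obtain ⟨ε, hε0, hε1, hsmall⟩ := exists_eps hB
  have p : Hyp G nb θ ε (q₂ / q₁) ((2 / (1 - s) ^ 2) ^ 2) :=
    { hT := hT
      hnb := hnb
      h0 := h0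
      h1 := hθ1
      he0 := hε0.le
      he1 := hε1
      hW := hW
      hB := hB
      hsmall := hsmall
      hK := fun r A f => schur_bound hT hnb hcard (by omega) r A h0 hq₁ hq₂ hs0 hs1 h11 h12 h21 h22 f }
  obtain ⟨Φ₀, hΦm, hlaw, heq⟩ := exists_factor p hε0
  obtain ⟨code, hcm, hmap, hcode⟩ := exists_code (V := V)
  refine ⟨fun U => Φ₀ (code U), hΦm.comp hcm, ?_, ?_⟩
  · intro g
    have h1 := heq g.toEquiv (fun u x => g.map_adj_iff)
    have h2 : ∀ᵐ ω ∂(unif V).map code, ∀ v, Φ₀ (act g.toEquiv ω) (g.toEquiv v) = Φ₀ ω v := by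
      rw [hmap]; exact h1
    have h3 := ae_of_ae_map hcm.aemeasurable h2
    filter_upwards [h3] with U hU
    funext v
    have e1 : (fun v => U (g.symm v)) = fun v => U (g.toEquiv.symm v) := rfl
    show Φ₀ (code (fun v => U (g.symm v))) v = Φ₀ (code U) (g.symm v)
    rw [e1, hcode g.toEquiv U]
    have h4 := hU (g.toEquiv.symm v)
    rw [Equiv.apply_symm_apply] at h4
    exact h4
  · intro D hD η
    have hconv := conv_of_connected hT hD
    have hne : D.Nonempty := by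
      obtain ⟨⟨x, hx⟩⟩ := hD.nonempty
      exact ⟨x, hx⟩
    have h1 := hlaw D hconv hne η
    have hS : MeasurableSet {ω : Om V | ∀ v ∈ D, Φ₀ ω v = η v} := by
      have : {ω : Om V | ∀ v ∈ D, Φ₀ ω v = η v} = ⋂ v ∈ D, {ω | Φ₀ ω v = η v} := by
        ext ω
        simp
      rw [this]
      refine Finset.measurableSet_biInter _ fun v _ => ?_
      exact (measurable_pi_iff.1 hΦm v) (measurableSet_singleton (η v))
    rw [← hmap, map_measureReal_apply hcm hS] at h1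
    exact h1

end Vale.Agent.Lib.P161
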