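import Mathlib

/-!
Statement-level definitions for the free Ising measure on a tree.
-/

open Finset

noncomputable section
namespace Vale.Agent.Lib.P161

open scoped Classical

variable {V : Type}

/-- The spin coded by a Boolean: `true` is `+1`, `false` is `-1`. -/
def spinOf (b : Bool) : ℝ := if b then 1 else -1

/-- The edges of the graph `G` with both endpoints in the finite set `D`. -/
def edgesIn (G : SimpleGraph V) (D : Finset V) : Finset (Sym2 V) :=
  D.sym2.filter (fun e => e ∈ G.edgeSet)

/-- The factor `(1 + θ σ_u σ_v) / 2` of an edge `{u, v}`. -/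
def edgeFactor (θ : ℝ) (σ : V → ℝ) : Sym2 V → ℝ :=
  Sym2.lift ⟨fun u v => (1 + θ * σ u * σ v) / 2, fun u v => by ring⟩

/-- The probability `(1/2) ∏_{ {u,v} ∈ E(D) } (1 + θ σ_u σ_v) / 2` of the free Ising measure. -/
def isingWeight (G : SimpleGraph V) (θ : ℝ) (D : Finset V) (σ : V → ℝ) : ℝ :=
  (1 / 2) * ∏ e ∈ edgesIn G D, edgeFactor θ σ e

end Vale.Agent.Lib.P161
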