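import Vale.Agent.Lib.P161.Relabel

/-!
The factor map on the space of labels and noises: spins are read off as limits of empirical means.
-/

open MeasureTheory Filter Topology Finset

noncomputable section
namespace Vale.Agent.Lib.P161

open scoped Classical

variable {V : Type} {G : SimpleGraph V} {nb : V → Finset V} {θ ε W B : ℝ}

lemma Wv_refl {Q : Finset (St V)} {v : V} {N : ℕ} (h : ∀ i < N, (i, v) ∈ Q) (R : St V → ℝ) :
    Wv v N (refl Q R) = Wv v N R := by
  unfold Wv
  congr 1
  refine Finset.sum_congr rfl fun i hi => ?_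
  simp only [refl, if_pos (h i (Finset.mem_range.1 hi)), cl_cl]

lemma Wv_congr {Q : Finset (St V)} {v : V} {N : ℕ} (h : ∀ i < N, (i, v) ∈ Q) {y y' : St V → ℝ}
    (hy : ∀ j ∈ Q, y j = y' j) : Wv v N y = Wv v N y' := by
  unfold Wv
  congr 1
  refine Finset.sum_congr rfl fun i hi => ?_
  rw [hy _ (h i (Finset.mem_range.1 hi))]

lemma Dens_congr {Q : Finset (St V)} {v : V} {N : ℕ} (ε t : ℝ) (h : ∀ i < N, (i, v) ∈ Q)
    {y y' : St V → ℝ} (hy : ∀ j ∈ Q, y j = y' j) : Dens ε t v N y = Dens ε t v N y' := by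
  unfold Dens
  refine Finset.prod_congr rfl fun i hi => ?_
  rw [hy _ (h i (Finset.mem_range.1 hi))]

lemma prod_density_site (ε : ℝ) (σ : V → ℝ) (D : Finset V) (N : ℕ) (R : St V → ℝ) :
    ∏ j ∈ Finset.range N ×ˢ D, (1 + ε * σ j.2 * cl (R j)) = ∏ v ∈ D, Dens ε (σ v) v N R := by
  rw [Finset.prod_product_right]
  rfl

lemma abs_eps_sgn_le {ε : ℝ} (he0 : 0 ≤ ε) (he1 : ε < 1) (t : Finset V) (v : V) :
    |ε * sgn t v| ≤ 1 := by
  rw [abs_mul, abs_sgn, mul_one, abs_of_nonneg he0]
  exact he1.le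

/-- The test function: the product of the affine indicators. -/
def fD (c : ℝ) (D : Finset V) (s : V → ℝ) (N : ℕ) (y : St V → ℝ) : ℝ :=
  ∏ v ∈ D, ((1 + s v * Wv v N y / c) / 2)

lemma abs_factor_le {c : ℝ} (hc : 0 < c) (s x : ℝ) (hx : |x| ≤ 1) :
    |(1 + s * x / c) / 2| ≤ 1 + |s| / c := by
  have h1 : |s * x / c| ≤ |s| / c := by
    rw [abs_div, abs_mul, abs_of_pos hc]
    have : |s| * |x| ≤ |s| * 1 := mul_le_mul_of_nonneg_left hx (abs_nonneg _)
    rw [mul_one] at this
    exact div_le_div_of_nonneg_right this hc.le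
  have h2 : |1 + s * x / c| ≤ 1 + |s| / c := by
    calc _ ≤ |(1 : ℝ)| + |s * x / c| := abs_add_le _ _
      _ ≤ 1 + |s| / c := by rw [abs_one]; linarith
  rw [abs_div]
  have h3 : |(2 : ℝ)| = 2 := by norm_num
  rw [h3]
  have h4 : 0 ≤ |s| / c := by positivity
  have h5 := abs_nonneg (1 + s * x / c)
  calc |1 + s * x / c| / 2 ≤ |1 + s * x / c| := by linarith
    _ ≤ _ := h2

lemma continuous_fD (c : ℝ) (D : Finset V) (s : V → ℝ) (N : ℕ) [Countable V] :
    Continuous (fD c D s N) := by
  unfold fD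
  refine continuous_finset_prod _ fun v _ => ?_
  exact ((continuous_const.add ((continuous_const.mul (continuous_Wv v N)).div_const c))).div_const 2

lemma abs_fD_le {c : ℝ} (hc : 0 < c) (D : Finset V) (s : V → ℝ) (N : ℕ) (y : St V → ℝ) :
    |fD c D s N y| ≤ ∏ v ∈ D, (1 + |s v| / c) := by
  unfold fD
  rw [Finset.abs_prod]
  exact Finset.prod_le_prod (fun _ _ => abs_nonneg _) fun v _ =>
    abs_factor_le hc _ _ (abs_Wv_le v N y)

/-- One site. -/
lemma site_mean {ε t : ℝ} (hε : 0 < ε) (h : |ε * t| ≤ 1) (v : V) {N : ℕ} (hN : 1 ≤ N) (s : ℝ) :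
    ∫ R, ((1 + s * Wv v N R / (ε / 3)) / 2) * Dens ε t v N R ∂noise (St V) = (1 + s * t) / 2 := by
  have e : ∀ R : St V → ℝ, ((1 + s * Wv v N R / (ε / 3)) / 2) * Dens ε t v N R
      = (1 / 2) * Dens ε t v N R + (s / (ε / 3) / 2) * (Wv v N R * Dens ε t v N R) := by
    intro R; ring
  simp only [e]
  have hD := measurable_Dens ε t v N
  have i1 : Integrable (fun R : St V → ℝ => (1 / 2 : ℝ) * Dens ε t v N R) (noise (St V)) :=
    (intg hD (abs_Dens_le h v N)).const_mul _
  have i2 : Integrable (fun R : St V → ℝ => (s / (ε / 3) / 2) * (Wv v N R * Dens ε t v N R))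
      (noise (St V)) := by
    refine Integrable.const_mul ?_ _
    refine intg (F := fun R : St V → ℝ => Wv v N R * Dens ε t v N R)
      ((measurable_Wv v N).mul hD) (C := 1 * 2 ^ N) (fun R => ?_)
    rw [abs_mul]
    exact mul_le_mul (abs_Wv_le v N R) (abs_Dens_le h v N R) (abs_nonneg _) (by norm_num)
  rw [integral_add i1 i2, integral_const_mul, integral_const_mul, integral_Dens h v N,
    integral_Wv_Dens h v hN]
  field_simp

/-- The tilted law of the test function. -/
lemma Tl_fD {ε : ℝ} (hε : 0 < ε) (he1 : ε < 1) (D : Finset V) (s : V → ℝ) {N : ℕ} (hN : 1 ≤ N)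
    (t : Finset V) :
    Tl ε (Finset.range N ×ˢ D) (sgn t) (fD (ε / 3) D s N)
      = ∏ v ∈ D, ((1 + s v * sgn t v) / 2) := by
  unfold Tl
  set Q := Finset.range N ×ˢ D with hQ
  have hc : 0 < ε / 3 := by positivity
  let F : V → (St V → ℝ) → ℝ := fun v R =>
    ((1 + s v * Wv v N R / (ε / 3)) / 2) * Dens ε (sgn t v) v N R
  have e : ∀ R : St V → ℝ, fD (ε / 3) D s N (refl Q R)
      * ∏ j ∈ Q, (1 + ε * sgn t j.2 * cl (R j)) = ∏ v ∈ D, F v R := by
    intro R
    rw [hQ, prod_density_site]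
    unfold fD
    rw [← Finset.prod_mul_distrib]
    refine Finset.prod_congr rfl fun v hv => ?_
    have hvQ : ∀ i < N, (i, v) ∈ Finset.range N ×ˢ D := fun i hi =>
      Finset.mem_product.2 ⟨Finset.mem_range.2 hi, hv⟩
    simp only [F]
    rw [Wv_refl hvQ]
  simp only [e]
  rw [block_prod D (fun v => Finset.range N ×ˢ {v}) (C := fun v => (1 + |s v| / (ε / 3)) * 2 ^ N)]
  · refine Finset.prod_congr rfl fun v _ => ?_
    exact site_mean hε (abs_eps_sgn_le hε.le he1 t v) v hN (s v)
  · intro a _ b _ hab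
    rw [Finset.disjoint_left]
    intro x hx hx'
    have h1 := (Finset.mem_product.1 hx).2
    have h2 := (Finset.mem_product.1 hx').2
    rw [Finset.mem_singleton] at h1 h2
    exact hab (h1.symm.trans h2)
  · intro v
    refine Measurable.mul ?_ (measurable_Dens ε (sgn t v) v N)
    exact (measurable_const.add (((measurable_Wv v N).const_mul _).div_const _)).div_const _
  · intro v R
    simp only [F]
    rw [abs_mul]
    refine mul_le_mul (abs_factor_le hc _ _ (abs_Wv_le v N R))
      (abs_Dens_le (abs_eps_sgn_le hε.le he1 t v) v N R) (abs_nonneg _) (by positivity)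
  · intro v R R' h
    have hvQ : ∀ i < N, (i, v) ∈ Finset.range N ×ˢ ({v} : Finset V) := fun i hi =>
      Finset.mem_product.2 ⟨Finset.mem_range.2 hi, Finset.mem_singleton_self v⟩
    simp only [F]
    rw [Wv_congr hvQ h, Dens_congr ε _ hvQ h]

lemma spinOf_mul_self (b : Bool) : spinOf b * spinOf b = 1 := by
  cases b <;> simp [spinOf]

/-- The mixture of the indicators is the Ising weight. -/
lemma Ex_indicator (θ : ℝ) (D : Finset V) (η : V → Bool) :
    Ex G θ D (fun σ => ∏ v ∈ D, ((1 + spinOf (η v) * σ v) / 2))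
      = isingWeight G θ D (fun v => spinOf (η v)) := by
  unfold Ex
  set t₀ := D.filter (fun v => η v = true) with ht₀
  have hsgn : ∀ v ∈ D, sgn t₀ v = spinOf (η v) := by
    intro v hv
    unfold sgn spinOf
    by_cases hη : η v = true
    · have h2 : v ∈ t₀ := Finset.mem_filter.2 ⟨hv, hη⟩
      simp only [h2, if_true, hη]
    · have h2 : v ∉ t₀ := fun h => hη (Finset.mem_filter.1 h).2
      simp [h2, hη]
  rw [Finset.sum_eq_single t₀]
  · have h1 : ∏ v ∈ D, ((1 + spinOf (η v) * sgn t₀ v) / 2) = 1 := by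
      refine Finset.prod_eq_one fun v hv => ?_
      rw [hsgn v hv, spinOf_mul_self]
      norm_num
    beta_reduce
    rw [h1, mul_one]
    exact isingWeight_congr θ D hsgn
  · intro t ht hne
    have hsub : t ⊆ D := Finset.mem_powerset.1 ht
    have hex : ∃ v ∈ D, sgn t v ≠ spinOf (η v) := by
      by_contra hall
      push Not at hall
      apply hne
      ext v
      by_cases hv : v ∈ D
      · have h2 := hall v hv
        have h3 := hsgn v hv
        by_cases hvt : v ∈ t
        · have : sgn t v = 1 := by simp [sgn, hvt]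
          rw [← h2, this] at h3
          have h4 : v ∈ t₀ := by
            by_contra h5
            simp only [sgn, if_neg h5] at h3
            norm_num at h3
          exact ⟨fun _ => h4, fun _ => hvt⟩
        · have : sgn t v = -1 := by simp [sgn, hvt]
          rw [← h2, this] at h3
          have h4 : v ∉ t₀ := by
            intro h5
            simp only [sgn, if_pos h5] at h3
            norm_num at h3
          exact ⟨fun h => absurd h hvt, fun h => absurd h h4⟩
      · exact ⟨fun h => absurd (hsub h) hv, fun h => absurd (Finset.mem_filter.1 h).1 hv⟩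
    obtain ⟨v, hv, hne'⟩ := hex
    have hz : ∏ v ∈ D, ((1 + spinOf (η v) * sgn t v) / 2) = 0 := by
      refine Finset.prod_eq_zero hv ?_
      have h1 : spinOf (η v) = 1 ∨ spinOf (η v) = -1 := by
        cases η v <;> simp [spinOf]
      rcases sgn_cases t v with h2 | h2 <;> rcases h1 with h1 | h1 <;>
        simp [h1, h2] at hne' ⊢
    beta_reduce
    rw [hz, mul_zero]
  · intro h
    exact absurd (Finset.mem_powerset.2 (Finset.filter_subset _ _)) h

section limit

variable {c₀ : V} {φ : ℕ → ℕ} {H : St V → Om V → ℝ}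

/-- The expectation of the test function in the limit is the Ising weight. -/
theorem integral_fD_H (p : Hyp G nb θ ε W B) (hε : 0 < ε) (hφ : ∀ j, j ≤ φ j)
    (hH : ∀ᵐ ω ∂topNoise V, ∀ k,
        Tendsto (fun j => yA G θ ε (ballF nb c₀ (φ j)) ω.1 ω.2 k) atTop (𝓝 (H k ω)))
    {D : Finset V} (hD : Conv G D) (hne : D.Nonempty) (η : V → Bool) {N : ℕ} (hN : 1 ≤ N) :
    ∫ ω, fD (ε / 3) D (fun v => spinOf (η v)) N (fun k => H k ω) ∂topNoise V
      = isingWeight G θ D (fun v => spinOf (η v)) := by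
  have := p.countable
  have hc : 0 < ε / 3 := by positivity
  set s : V → ℝ := fun v => spinOf (η v) with hs
  have hcont := continuous_fD (ε / 3) D s N
  have hbd := abs_fD_le hc D s N
  have hQ : ∀ j ∈ Finset.range N ×ˢ D, j.2 ∈ D := fun j hj => (Finset.mem_product.1 hj).2
  have hdep : ∀ y y' : St V → ℝ, (∀ j ∈ Finset.range N ×ˢ D, y j = y' j) →
      fD (ε / 3) D s N y = fD (ε / 3) D s N y' := by
    intro y y' h
    unfold fD
    refine Finset.prod_congr rfl fun v hv => ?_
    rw [Wv_congr (fun i hi => Finset.mem_product.2 ⟨Finset.mem_range.2 hi, hv⟩) h]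
  rw [moment_formula p hφ hH hD hne hQ hcont hbd hdep,
    integral_Zq_eq_Ex θ p.he0 p.he1 D _ hcont.measurable hbd]
  rw [← Ex_indicator θ D η]
  apply Ex_congr
  intro t
  exact Tl_fD hε p.he1 D s hN t

/-- A bound for a test function of the observations at one site. -/
lemma moment_site_le (p : Hyp G nb θ ε W B) (hφ : ∀ j, j ≤ φ j)
    (hH : ∀ᵐ ω ∂topNoise V, ∀ k,
        Tendsto (fun j => yA G θ ε (ballF nb c₀ (φ j)) ω.1 ω.2 k) atTop (𝓝 (H k ω)))
    (v : V) (M : ℕ) {f : (St V → ℝ) → ℝ} (hf : Continuous f) {C : ℝ} (hb : ∀ y, |f y| ≤ C)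
    (hdep : ∀ y y' : St V → ℝ, (∀ j ∈ Finset.range M ×ˢ ({v} : Finset V), y j = y' j) → f y = f y')
    {K : ℝ} (hK : ∀ t : Finset V,
      ∫ R, f (refl (Finset.range M ×ˢ {v}) R) * Dens ε (sgn t v) v M R ∂noise (St V) ≤ K) :
    ∫ ω, f (fun k => H k ω) ∂topNoise V ≤ K := by
  have := p.countable
  have hQ : ∀ j ∈ Finset.range M ×ˢ ({v} : Finset V), j.2 ∈ ({v} : Finset V) :=
    fun j hj => (Finset.mem_product.1 hj).2
  rw [moment_formula p hφ hH (conv_singleton p.hT v) ⟨v, Finset.mem_singleton_self v⟩ hQ hf hb hdep,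
    integral_Zq_eq_Ex θ p.he0 p.he1 _ _ hf.measurable hb]
  have h1 : Ex G θ {v} (fun σ => Tl ε (Finset.range M ×ˢ {v}) σ f) ≤ Ex G θ {v} (fun _ => K) := by
    apply Ex_mono p.h0 p.h1
    intro t
    unfold Tl
    simp only [prod_density_site, Finset.prod_singleton]
    exact hK t
  refine h1.trans (le_of_eq ?_)
  have e : (fun _ : V → ℝ => K) = fun _ => K * 1 := by
    funext _; ring
  rw [e, Ex_const_mul, Ex_one p.hT θ (conv_singleton p.hT v) ⟨v, Finset.mem_singleton_self v⟩,
    mul_one]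

/-- The empirical means are Cauchy in `L²`. -/
lemma integral_Wv_diff_le (p : Hyp G nb θ ε W B) (hφ : ∀ j, j ≤ φ j)
    (hH : ∀ᵐ ω ∂topNoise V, ∀ k,
        Tendsto (fun j => yA G θ ε (ballF nb c₀ (φ j)) ω.1 ω.2 k) atTop (𝓝 (H k ω)))
    (v : V) {n m : ℕ} (hn : 1 ≤ n) (hm : 1 ≤ m) :
    ∫ ω, (Wv v n (fun k => H k ω) - Wv v m (fun k => H k ω)) ^ 2 ∂topNoise V
      ≤ (8 : ℝ) / n + (8 : ℝ) / m := by
  have := p.countable
  set M := max n m with hM
  have hnM : n ≤ M := le_max_left _ _
  have hmM : m ≤ M := le_max_right _ _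
  have hQ : ∀ L ≤ M, ∀ i < L, (i, v) ∈ Finset.range M ×ˢ ({v} : Finset V) := fun L hL i hi =>
    Finset.mem_product.2 ⟨Finset.mem_range.2 (lt_of_lt_of_le hi hL), Finset.mem_singleton_self v⟩
  have hcont : Continuous (fun y : St V → ℝ => (Wv v n y - Wv v m y) ^ 2) :=
    ((continuous_Wv v n).sub (continuous_Wv v m)).pow 2
  refine moment_site_le p hφ hH v M (f := fun y => (Wv v n y - Wv v m y) ^ 2) hcont (C := 2 ^ 2)
    (fun y => ?_) (fun y y' h => ?_) (fun t => ?_)
  · rw [abs_pow]
    exact pow_le_pow_left₀ (abs_nonneg _)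
      ((abs_sub _ _).trans (by linarith [abs_Wv_le v n y, abs_Wv_le v m y])) 2
  · beta_reduce
    rw [Wv_congr (hQ n hnM) h, Wv_congr (hQ m hmM) h]
  · have h1 := abs_eps_sgn_le p.he0 p.he1 t v
    set τ := sgn t v
    set a := ε * τ / 3
    simp only [Wv_refl (hQ n hnM), Wv_refl (hQ m hmM)]
    have hb1 : ∀ (L : ℕ) (R : St V → ℝ), |(Wv v L R - a) ^ 2 * Dens ε τ v M R| ≤ 2 ^ 2 * 2 ^ M := by
      intro L R
      have ha : |a| ≤ 1 := by
        simp only [a]
        rw [abs_div]
        have : |(3 : ℝ)| = 3 := by norm_num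
        rw [this]
        linarith
      rw [abs_mul, abs_pow]
      exact mul_le_mul (pow_le_pow_left₀ (abs_nonneg _)
        ((abs_sub _ _).trans (by linarith [abs_Wv_le v L R])) 2) (abs_Dens_le h1 v M R)
        (abs_nonneg _) (by positivity)
    have hm1 : ∀ L : ℕ, Measurable (fun R : St V → ℝ => (Wv v L R - a) ^ 2 * Dens ε τ v M R) :=
      fun L => (((measurable_Wv v L).sub measurable_const).pow_const 2).mul
        (measurable_Dens ε τ v M)
    have i1 := fun L => intg (μ := noise (St V)) (hm1 L) (hb1 L)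
    have h3 := integral_Wv_sub_sq h1 v hn hnM
    have h4 := integral_Wv_sub_sq h1 v hm hmM
    calc ∫ R, (Wv v n R - Wv v m R) ^ 2 * Dens ε τ v M R ∂noise (St V)
        ≤ ∫ R, (2 * ((Wv v n R - a) ^ 2 * Dens ε τ v M R)
            + 2 * ((Wv v m R - a) ^ 2 * Dens ε τ v M R)) ∂noise (St V) := by
          refine integral_mono_of_nonneg (ae_of_all _ fun R => ?_)
            (((i1 n).const_mul 2).add ((i1 m).const_mul 2)) (ae_of_all _ fun R => ?_)
          · exact mul_nonneg (sq_nonneg _) (Dens_nonneg h1 v M R)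
          · have h5 := Dens_nonneg h1 v M R
            have h6 : (Wv v n R - Wv v m R) ^ 2
                ≤ 2 * (Wv v n R - a) ^ 2 + 2 * (Wv v m R - a) ^ 2 := by
              nlinarith [sq_nonneg (Wv v n R + Wv v m R - 2 * a)]
            simp only
            nlinarith
      _ = 2 * ∫ R, (Wv v n R - a) ^ 2 * Dens ε τ v M R ∂noise (St V)
            + 2 * ∫ R, (Wv v m R - a) ^ 2 * Dens ε τ v M R ∂noise (St V) := by
          rw [integral_add ((i1 n).const_mul 2) ((i1 m).const_mul 2), integral_const_mul,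
            integral_const_mul]
      _ ≤ 2 * ((4 : ℝ) / n) + 2 * ((4 : ℝ) / m) := by linarith
      _ = (8 : ℝ) / n + (8 : ℝ) / m := by ring

/-- The empirical means concentrate on `± ε / 3`. -/
lemma integral_Wv_sq_le (p : Hyp G nb θ ε W B) (hφ : ∀ j, j ≤ φ j)
    (hH : ∀ᵐ ω ∂topNoise V, ∀ k,
        Tendsto (fun j => yA G θ ε (ballF nb c₀ (φ j)) ω.1 ω.2 k) atTop (𝓝 (H k ω)))
    (v : V) {n : ℕ} (hn : 1 ≤ n) :
    ∫ ω, (Wv v n (fun k => H k ω) ^ 2 - (ε / 3) ^ 2) ^ 2 ∂topNoise V ≤ (16 : ℝ) / n := by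
  have := p.countable
  have hQ : ∀ i < n, (i, v) ∈ Finset.range n ×ˢ ({v} : Finset V) := fun i hi =>
    Finset.mem_product.2 ⟨Finset.mem_range.2 hi, Finset.mem_singleton_self v⟩
  have hcont : Continuous (fun y : St V → ℝ => (Wv v n y ^ 2 - (ε / 3) ^ 2) ^ 2) :=
    (((continuous_Wv v n).pow 2).sub continuous_const).pow 2
  have hε1 : |ε / 3| ≤ 1 := by
    rw [abs_div, abs_of_nonneg p.he0]
    have : |(3 : ℝ)| = 3 := by norm_num
    rw [this]
    linarith [p.he1]
  refine moment_site_le p hφ hH v n (f := fun y => (Wv v n y ^ 2 - (ε / 3) ^ 2) ^ 2) hcont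
    (C := 2 ^ 2) (fun y => ?_) (fun y y' h => ?_) (fun t => ?_)
  · rw [abs_pow]
    refine pow_le_pow_left₀ (abs_nonneg _) ?_ 2
    refine (abs_sub _ _).trans ?_
    rw [abs_pow, abs_pow]
    have h1 : |Wv v n y| ^ 2 ≤ 1 := pow_le_one₀ (abs_nonneg _) (abs_Wv_le v n y)
    have h2 : |ε / 3| ^ 2 ≤ 1 := pow_le_one₀ (abs_nonneg _) hε1
    linarith
  · beta_reduce
    rw [Wv_congr hQ h]
  · have h1 := abs_eps_sgn_le p.he0 p.he1 t v
    set τ := sgn t v with hτ
    set a := ε * τ / 3 with ha
    have hτ2 : τ ^ 2 = 1 := by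
      rw [sq, hτ]
      exact sgn_sq t v
    have ha2 : a ^ 2 = (ε / 3) ^ 2 := by
      rw [ha]
      have : (ε * τ / 3) ^ 2 = τ ^ 2 * (ε / 3) ^ 2 := by ring
      rw [this, hτ2, one_mul]
    have ha1 : |a| ≤ 1 := by
      rw [ha, abs_div]
      have : |(3 : ℝ)| = 3 := by norm_num
      rw [this]
      linarith
    simp only [Wv_refl hQ]
    have hb1 : ∀ R : St V → ℝ, |(Wv v n R - a) ^ 2 * Dens ε τ v n R| ≤ 2 ^ 2 * 2 ^ n := by
      intro R
      rw [abs_mul, abs_pow]
      exact mul_le_mul (pow_le_pow_left₀ (abs_nonneg _)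
        ((abs_sub _ _).trans (by linarith [abs_Wv_le v n R])) 2) (abs_Dens_le h1 v n R)
        (abs_nonneg _) (by positivity)
    have hm1 : Measurable (fun R : St V → ℝ => (Wv v n R - a) ^ 2 * Dens ε τ v n R) :=
      (((measurable_Wv v n).sub measurable_const).pow_const 2).mul (measurable_Dens ε τ v n)
    have i1 := intg (μ := noise (St V)) hm1 hb1
    have h3 := integral_Wv_sub_sq h1 v hn le_rfl
    calc ∫ R, (Wv v n R ^ 2 - (ε / 3) ^ 2) ^ 2 * Dens ε τ v n R ∂noise (St V)
        ≤ ∫ R, 4 * ((Wv v n R - a) ^ 2 * Dens ε τ v n R) ∂noise (St V) := by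
          refine integral_mono_of_nonneg (ae_of_all _ fun R => ?_) (i1.const_mul 4)
            (ae_of_all _ fun R => ?_)
          · exact mul_nonneg (sq_nonneg _) (Dens_nonneg h1 v n R)
          · have h5 := Dens_nonneg h1 v n R
            have h6 : (Wv v n R ^ 2 - (ε / 3) ^ 2) ^ 2 ≤ 4 * (Wv v n R - a) ^ 2 := by
              have e2 : (Wv v n R ^ 2 - (ε / 3) ^ 2) ^ 2
                  = (Wv v n R - a) ^ 2 * (Wv v n R + a) ^ 2 := by
                rw [← ha2]; ring
              rw [e2]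
              have h7 : (Wv v n R + a) ^ 2 ≤ 2 ^ 2 := by
                rw [← sq_abs]
                exact pow_le_pow_left₀ (abs_nonneg _)
                  ((abs_add_le _ _).trans (by linarith [abs_Wv_le v n R])) 2
              nlinarith [sq_nonneg (Wv v n R - a)]
            simp only
            nlinarith
      _ = 4 * ∫ R, (Wv v n R - a) ^ 2 * Dens ε τ v n R ∂noise (St V) := by
          rw [integral_const_mul]
      _ ≤ 4 * ((4 : ℝ) / n) := by linarith
      _ = (16 : ℝ) / n := by ring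

/-- The read-out of the spin at a site from the limit of empirical means. -/
def readout (Wl : V → Om V → ℝ) (ω : Om V) (v : V) : Bool := if 0 < Wl v ω then true else false

lemma measurable_readout {Wl : V → Om V → ℝ} (hm : ∀ v, Measurable (Wl v)) :
    Measurable (readout Wl) := by
  refine measurable_pi_iff.2 fun v => ?_
  unfold readout
  exact Measurable.ite (measurableSet_lt measurable_const (hm v)) measurable_const measurable_const

/-- The values of the factor at a site. -/
lemma factor_eq {c : ℝ} (hc : 0 < c) {Wl : V → Om V → ℝ} {ω : Om V} {v : V}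
    (h : Wl v ω ^ 2 = c ^ 2) (b : Bool) :
    (1 + spinOf b * Wl v ω / c) / 2 = if readout Wl ω v = b then 1 else 0 := by
  have hne : c ≠ 0 := hc.ne'
  have h2 : (Wl v ω - c) * (Wl v ω + c) = 0 := by ring_nf; nlinarith
  by_cases hp : 0 < Wl v ω
  · have hw : Wl v ω = c := by
      rcases mul_eq_zero.1 h2 with h3 | h3
      · linarith
      · linarith
    have hr : readout Wl ω v = true := by simp [readout, hp]
    rw [hr, hw]
    cases b <;> simp [spinOf] <;> field_simp <;> ring
  · have hw : Wl v ω = -c := by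
      rcases mul_eq_zero.1 h2 with h3 | h3
      · exfalso; apply hp; linarith
      · linarith
    have hr : readout Wl ω v = false := by simp [readout, hp]
    rw [hr, hw]
    cases b <;> simp [spinOf] <;> field_simp <;> ring

/-- The exact law of the read-out. -/
theorem law_readout (p : Hyp G nb θ ε W B) (hε : 0 < ε) (hφ : ∀ j, j ≤ φ j)
    (hH : ∀ᵐ ω ∂topNoise V, ∀ k,
        Tendsto (fun j => yA G θ ε (ballF nb c₀ (φ j)) ω.1 ω.2 k) atTop (𝓝 (H k ω)))
    {ψ : ℕ → ℕ} {Wl : V → Om V → ℝ} (hWm : ∀ v, Measurable (Wl v))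
    (hWl : ∀ᵐ ω ∂topNoise V, ∀ v,
        Tendsto (fun j => Wv v (ψ j + 1) (fun k => H k ω)) atTop (𝓝 (Wl v ω)))
    (hsq : ∀ᵐ ω ∂topNoise V, ∀ v, Wl v ω ^ 2 = (ε / 3) ^ 2)
    (hHm : ∀ k, Measurable (H k))
    {D : Finset V} (hD : Conv G D) (hne : D.Nonempty) (η : V → Bool) :
    (topNoise V).real {ω | ∀ v ∈ D, readout Wl ω v = η v}
      = isingWeight G θ D (fun v => spinOf (η v)) := by
  have := p.countable
  have hc : 0 < ε / 3 := by positivity
  set s : V → ℝ := fun v => spinOf (η v) with hs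
  set S := {ω | ∀ v ∈ D, readout Wl ω v = η v} with hS
  have hSm : MeasurableSet S := by
    have : S = ⋂ v ∈ D, {ω | readout Wl ω v = η v} := by
      ext ω
      simp [hS]
    rw [this]
    refine Finset.measurableSet_biInter _ fun v _ => ?_
    have hm := measurable_pi_iff.1 (measurable_readout hWm) v
    exact hm (measurableSet_singleton (η v))
  -- the limit of the test function
  have hmH : Measurable (fun ω : Om V => fun k => H k ω) := measurable_pi_iff.2 hHm
  have hlim := tendsto_integral_bdd (P := topNoise V)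
    (a := fun j ω => fD (ε / 3) D s (ψ j + 1) (fun k => H k ω))
    (b := fun ω => ∏ v ∈ D, ((1 + s v * Wl v ω / (ε / 3)) / 2))
    (fun j => (continuous_fD (ε / 3) D s (ψ j + 1)).measurable.comp hmH)
    (fun j ω => abs_fD_le hc D s (ψ j + 1) _)
    (by
      filter_upwards [hWl] with ω hω
      unfold fD
      refine tendsto_finset_prod _ fun v _ => ?_
      exact (((hω v).const_mul (s v)).div_const (ε / 3) |>.const_add 1).div_const 2)
  have hval : ∀ j, ∫ ω, fD (ε / 3) D s (ψ j + 1) (fun k => H k ω) ∂topNoise V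
      = isingWeight G θ D s := fun j =>
    integral_fD_H p hε hφ hH hD hne η (Nat.succ_le_succ (Nat.zero_le _))
  simp only [hval] at hlim
  have hI : ∫ ω, ∏ v ∈ D, ((1 + s v * Wl v ω / (ε / 3)) / 2) ∂topNoise V = isingWeight G θ D s :=
    tendsto_nhds_unique hlim tendsto_const_nhds
  rw [← hI]
  -- indicator
  have hae : (fun ω => ∏ v ∈ D, ((1 + s v * Wl v ω / (ε / 3)) / 2))
      =ᵐ[topNoise V] S.indicator (fun _ => (1 : ℝ)) := by
    filter_upwards [hsq] with ω hω
    have hfac : ∀ v, (1 + s v * Wl v ω / (ε / 3)) / 2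
        = if readout Wl ω v = η v then 1 else 0 := fun v => factor_eq hc (hω v) (η v)
    simp only [hfac]
    by_cases hωS : ω ∈ S
    · rw [Set.indicator_of_mem hωS]
      exact Finset.prod_eq_one fun v hv => by rw [if_pos (hωS v hv)]
    · rw [Set.indicator_of_notMem hωS]
      have hex : ∃ v ∈ D, readout Wl ω v ≠ η v := by
        by_contra hall
        push Not at hall
        exact hωS hall
      obtain ⟨v, hv, hne'⟩ := hex
      exact Finset.prod_eq_zero hv (by rw [if_neg hne'])
  rw [integral_congr_ae hae, integral_indicator_const _ hSm]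
  simp

end limit

end Vale.Agent.Lib.P161
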