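import Vale.Agent.Lib.P161.Factor

/-!
The factor map on the space of labels and noises: existence, law and equivariance.
-/

open MeasureTheory Filter Topology Finset

noncomputable section
namespace Vale.Agent.Lib.P161

open scoped Classical

variable {V : Type} {G : SimpleGraph V} {nb : V → Finset V} {θ ε W B : ℝ}

section limit

variable {c₀ : V} {φ : ℕ → ℕ} {H : St V → Om V → ℝ}

/-- The limit variables commute with automorphisms. -/
lemma H_equivariant (p : Hyp G nb θ ε W B) (hφ : ∀ j, j ≤ φ j) (hHm : ∀ k, Measurable (H k))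
    (hHb : ∀ k ω, |H k ω| ≤ 1)
    (hH : ∀ᵐ ω ∂topNoise V, ∀ k,
        Tendsto (fun j => yA G θ ε (ballF nb c₀ (φ j)) ω.1 ω.2 k) atTop (𝓝 (H k ω)))
    {e : V ≃ V} (he : ∀ u x, G.Adj (e u) (e x) ↔ G.Adj u x) (i : ℕ) (v : V) :
    ∀ᵐ ω ∂topNoise V, H (i, e v) (act e ω) = H (i, v) ω := by
  have := p.countable
  have hφt : Tendsto φ atTop atTop := tendsto_atTop_mono hφ tendsto_id
  let A : ℕ → Finset V := fun j => mapF e.symm (ballF nb c₀ (φ j))
  let A' : ℕ → Finset V := fun j => ballF nb c₀ (φ j)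
  have hS : ∀ S : Finset V, ∀ᶠ j in atTop, S ⊆ A j ∧ S ⊆ A' j := by
    intro S
    have h1 := hφt.eventually (subset_ballF (G := G) (nb := nb) p.hT p.hnb c₀ S)
    have h2 := hφt.eventually (subset_ballF (G := G) (nb := nb) p.hT p.hnb c₀ (mapF e S))
    filter_upwards [h1, h2] with j h3 h4
    refine ⟨fun x hx => ?_, h3⟩
    simp only [A]
    rw [mem_mapF]
    simp only [Equiv.symm_symm]
    exact h4 (apply_mem_mapF.2 hx)
  have h0 := tendsto_L2 p (l := atTop) (A := A) (A' := A')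
    (fun j => conv_map p.hT (adj_symm he) (conv_ballF p.hT p.hnb c₀ _))
    (fun j => conv_ballF p.hT p.hnb c₀ _) hS (i, v)
  have hact := ae_act (e := e) hH
  have hm1 : Measurable (fun ω : Om V => (H (i, e v) (act e ω) - H (i, v) ω) ^ 2) :=
    (((hHm _).comp (measurable_act e)).sub (hHm _)).pow_const 2
  have hlim := tendsto_integral_bdd (P := topNoise V)
    (a := fun j ω => (yA G θ ε (A j) ω.1 ω.2 (i, v) - yA G θ ε (A' j) ω.1 ω.2 (i, v)) ^ 2)
    (b := fun ω => (H (i, e v) (act e ω) - H (i, v) ω) ^ 2)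
    (fun j => measurable_sq_diff θ ε (A j) (A' j) (i, v)) (C := 2 ^ 2)
    (fun j ω => abs_sq_diff_le θ ε (A j) (A' j) (i, v) ω.1 ω.2)
    (by
      filter_upwards [hH, hact] with ω h1 h2
      have h3 := h2 (i, e v)
      have e1 : ∀ j, yA G θ ε (ballF nb c₀ (φ j)) (act e ω).1 (act e ω).2 (i, e v)
          = yA G θ ε (A j) ω.1 ω.2 (i, v) := by
        intro j
        have := yA_map (G := G) he θ ε (A j) ω.1 ω.2 i v
        rw [← this]
        simp only [A]
        rw [mapF_symm_mapF]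
        rfl
      simp only [e1] at h3
      exact (h3.sub (h1 (i, v))).pow 2)
  have hz : ∫ ω, (H (i, e v) (act e ω) - H (i, v) ω) ^ 2 ∂topNoise V = 0 :=
    tendsto_nhds_unique hlim h0
  have hb1 : ∀ ω, |(H (i, e v) (act e ω) - H (i, v) ω) ^ 2| ≤ 2 ^ 2 := by
    intro ω
    rw [abs_pow]
    refine pow_le_pow_left₀ (abs_nonneg _) ?_ 2
    exact (abs_sub _ _).trans (by linarith [hHb (i, e v) (act e ω), hHb (i, v) ω])
  have hzero := (integral_eq_zero_iff_of_nonneg (fun ω => sq_nonneg _)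
    (intg hm1 hb1)).1 hz
  filter_upwards [hzero] with ω hω
  have : (H (i, e v) (act e ω) - H (i, v) ω) ^ 2 = 0 := hω
  have := pow_eq_zero_iff (two_ne_zero) |>.1 this
  linarith

end limit

/-- **The factor on the space of labels and noises.** -/
theorem exists_factor (p : Hyp G nb θ ε W B) (hε : 0 < ε) :
    ∃ Φ₀ : Om V → V → Bool, Measurable Φ₀ ∧
      (∀ D : Finset V, Conv G D → D.Nonempty → ∀ η : V → Bool,
        (topNoise V).real {ω | ∀ v ∈ D, Φ₀ ω v = η v}
          = isingWeight G θ D (fun v => spinOf (η v))) ∧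
      (∀ e : V ≃ V, (∀ u x, G.Adj (e u) (e x) ↔ G.Adj u x) →
        ∀ᵐ ω ∂topNoise V, ∀ v, Φ₀ (act e ω) (e v) = Φ₀ ω v) := by
  have := p.countable
  obtain ⟨c₀⟩ := p.hT.1.nonempty
  obtain ⟨φ, H, hφ, hHm, hHb, hH⟩ := exists_H p c₀
  have hmH : Measurable (fun ω : Om V => fun k => H k ω) := measurable_pi_iff.2 hHm
  -- the limit of the empirical means
  obtain ⟨ψ, Wl, hψ, hWm, hWb, hWl⟩ := exists_ae_limit (P := topNoise V)
    (h := fun (v : V) (n : ℕ) (ω : Om V) => Wv v (n + 1) (fun k => H k ω))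
    (fun v n => (measurable_Wv v (n + 1)).comp hmH) (fun v n ω => abs_Wv_le v (n + 1) _)
    (by
      intro v δ hδ
      obtain ⟨N, hN⟩ := exists_nat_gt (16 / δ)
      refine ⟨N, fun n m hn hm => ?_⟩
      refine (integral_Wv_diff_le p hφ hH v (Nat.succ_le_succ (Nat.zero_le _))
        (Nat.succ_le_succ (Nat.zero_le _))).trans ?_
      have hN0 : (0 : ℝ) < N := lt_of_le_of_lt (by positivity) hN
      have h1 : (N : ℝ) ≤ (n + 1 : ℕ) := by
        have : N ≤ n + 1 := by omega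
        exact_mod_cast this
      have h2 : (N : ℝ) ≤ (m + 1 : ℕ) := by
        have : N ≤ m + 1 := by omega
        exact_mod_cast this
      have h3 : (8 : ℝ) / (n + 1 : ℕ) ≤ 8 / N := div_le_div_of_nonneg_left (by norm_num) hN0 h1
      have h4 : (8 : ℝ) / (m + 1 : ℕ) ≤ 8 / N := div_le_div_of_nonneg_left (by norm_num) hN0 h2
      have h5 : (16 : ℝ) / N ≤ δ := by
        rw [div_lt_iff₀ hδ] at hN
        rw [div_le_iff₀ hN0]
        linarith
      have e6 : (8 : ℝ) / N + 8 / N = 16 / N := by ring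
      linarith)
  -- the limit has square `c ^ 2`
  have hsq : ∀ᵐ ω ∂topNoise V, ∀ v, Wl v ω ^ 2 = (ε / 3) ^ 2 := by
    refine ae_all_iff.2 fun v => ?_
    have hc1 : |ε / 3| ≤ 1 := by
      rw [abs_div, abs_of_nonneg p.he0]
      have : |(3 : ℝ)| = 3 := by norm_num
      rw [this]
      linarith [p.he1]
    have hbd : ∀ x : ℝ, |x| ≤ 1 → |(x ^ 2 - (ε / 3) ^ 2) ^ 2| ≤ 2 ^ 2 := by
      intro x hx
      rw [abs_pow]
      refine pow_le_pow_left₀ (abs_nonneg _) ?_ 2
      refine (abs_sub _ _).trans ?_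
      rw [abs_pow, abs_pow]
      have h1 : |x| ^ 2 ≤ 1 := pow_le_one₀ (abs_nonneg _) hx
      have h2 : |ε / 3| ^ 2 ≤ 1 := pow_le_one₀ (abs_nonneg _) hc1
      linarith
    have hlim := tendsto_integral_bdd (P := topNoise V)
      (a := fun j ω => (Wv v (ψ j + 1) (fun k => H k ω) ^ 2 - (ε / 3) ^ 2) ^ 2)
      (b := fun ω => (Wl v ω ^ 2 - (ε / 3) ^ 2) ^ 2)
      (fun j => ((((measurable_Wv v (ψ j + 1)).comp hmH).pow_const 2).sub measurable_const).pow_const 2)
      (C := 2 ^ 2) (fun j ω => hbd _ (abs_Wv_le v _ _))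
      (by
        filter_upwards [hWl] with ω hω
        exact (((hω v).pow 2).sub tendsto_const_nhds).pow 2)
    have hle : ∀ j, ∫ ω, (Wv v (ψ j + 1) (fun k => H k ω) ^ 2 - (ε / 3) ^ 2) ^ 2 ∂topNoise V
        ≤ 16 * (1 / ((j : ℝ) + 1)) := by
      intro j
      refine (integral_Wv_sq_le p hφ hH v (Nat.succ_le_succ (Nat.zero_le _))).trans ?_
      have h1 : (j : ℝ) + 1 ≤ (ψ j + 1 : ℕ) := by
        have := hψ j
        push_cast
        have h2 : (j : ℝ) ≤ ψ j := by exact_mod_cast this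
        linarith
      rw [mul_one_div]
      exact div_le_div_of_nonneg_left (by norm_num) (by positivity) h1
    have h0 : Tendsto (fun j : ℕ => 16 * (1 / ((j : ℝ) + 1))) atTop (𝓝 (16 * 0)) :=
      tendsto_one_div_add_atTop_nhds_zero_nat.const_mul 16
    rw [mul_zero] at h0
    have hle0 := le_of_tendsto_of_tendsto' hlim h0 hle
    have hnn : 0 ≤ ∫ ω, (Wl v ω ^ 2 - (ε / 3) ^ 2) ^ 2 ∂topNoise V :=
      integral_nonneg fun ω => sq_nonneg _
    have hz : ∫ ω, (Wl v ω ^ 2 - (ε / 3) ^ 2) ^ 2 ∂topNoise V = 0 := le_antisymm hle0 hnn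
    have hzero := (integral_eq_zero_iff_of_nonneg (fun ω => sq_nonneg _)
      (intg ((((hWm v).pow_const 2).sub measurable_const).pow_const 2) (C := 2 ^ 2)
        (fun ω => hbd _ (hWb v ω)))).1 hz
    filter_upwards [hzero] with ω hω
    have h1 : (Wl v ω ^ 2 - (ε / 3) ^ 2) ^ 2 = 0 := hω
    have h2 := pow_eq_zero_iff (two_ne_zero) |>.1 h1
    linarith
  refine ⟨readout Wl, measurable_readout hWm, ?_, ?_⟩
  · intro D hD hne η
    exact law_readout p hε hφ hH hWm hWl hsq hHm hD hne η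
  · intro e he
    have h1 : ∀ᵐ ω ∂topNoise V, ∀ i v, H (i, e v) (act e ω) = H (i, v) ω :=
      ae_all_iff.2 fun i => ae_all_iff.2 fun v => H_equivariant p hφ hHm hHb hH he i v
    have h2 := ae_act (e := e) hWl
    filter_upwards [h1, h2, hWl] with ω hω1 hω2 hω3 v
    have h3 : ∀ N, Wv (e v) N (fun k => H k (act e ω)) = Wv v N (fun k => H k ω) := by
      intro N
      unfold Wv
      congr 1
      refine Finset.sum_congr rfl fun i _ => ?_
      beta_reduce
      rw [hω1 i v]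
    have h4 := hω2 (e v)
    simp only [h3] at h4
    have h5 := tendsto_nhds_unique h4 (hω3 v)
    unfold readout
    rw [h5]

end Vale.Agent.Lib.P161
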