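import Vale.Agent.Lib.P161.Cauchy
import Vale.Agent.Lib.P161.Block

/-!
The sampler with random order: the joint probability space of labels and noises, the limit of the
outputs along growing balls, and the exact moment formula for the limit.
-/

open MeasureTheory Filter Topology Finset

noncomputable section
namespace Vale.Agent.Lib.P161

open scoped Classical

variable {V : Type} {G : SimpleGraph V}

/-- the sample space of labels and noises -/
abbrev Om (V : Type) := (V → ℝ) × (St V → ℝ)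

/-- the law of labels and noises -/
def topNoise (V : Type) : Measure (Om V) := (noise V).prod (noise (St V))

instance : IsProbabilityMeasure (topNoise V) := by
  unfold topNoise; infer_instance

lemma noise_eq_null {u v : V} (h : u ≠ v) : noise V {τ | τ u = τ v} = 0 := by
  have hS : MeasurableSet {τ : V → ℝ | τ u = τ v} :=
    measurableSet_eq_fun (measurable_pi_apply u) (measurable_pi_apply v)
  rw [← noise_update_map u, Measure.map_apply measurable_update' hS,
    Measure.prod_apply (measurable_update' hS)]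
  have hz : ∀ τ : V → ℝ, lam (Prod.mk τ ⁻¹'
      ((fun p : (V → ℝ) × ℝ => Function.update p.1 u p.2) ⁻¹' {τ | τ u = τ v})) = 0 := by
    intro τ
    have : Prod.mk τ ⁻¹'
        ((fun p : (V → ℝ) × ℝ => Function.update p.1 u p.2) ⁻¹' {τ | τ u = τ v}) = {τ v} := by
      ext t
      simp [Function.update_of_ne h.symm]
    rw [this]
    exact lam_singleton _
  refine (lintegral_congr hz).trans ?_
  simp

lemma ae_injective [Countable V] : ∀ᵐ τ ∂noise V, Function.Injective τ := by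
  have h : ∀ u v : V, ∀ᵐ τ ∂noise V, u ≠ v → τ u ≠ τ v := by
    intro u v
    by_cases huv : u = v
    · exact ae_of_all _ fun τ h => absurd huv h
    · have := noise_eq_null huv
      rw [← compl_compl {τ : V → ℝ | τ u = τ v}] at this
      filter_upwards [compl_mem_ae_iff.2 this] with τ hτ _
      simpa using hτ
  have h' : ∀ᵐ τ ∂noise V, ∀ u v : V, u ≠ v → τ u ≠ τ v :=
    ae_all_iff.2 fun u => ae_all_iff.2 fun v => h u v
  filter_upwards [h'] with τ hτ u v huv
  by_contra hne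
  exact hτ u v hne huv

/-- The standing hypotheses. -/
structure Hyp (G : SimpleGraph V) (nb : V → Finset V) (θ ε W B : ℝ) : Prop where
  hT : G.IsTree
  hnb : ∀ u x, x ∈ nb u ↔ G.Adj u x
  h0 : 0 ≤ θ
  h1 : θ < 1
  he0 : 0 ≤ ε
  he1 : ε < 1
  hW : 1 < W
  hB : 0 ≤ B
  hsmall : cTwo ε ^ 2 * B ≤ 1 / 4
  hK : ∀ (r : V) (A : Finset V) (f : V → ℝ),
      ∑ u ∈ A, W ^ G.dist u r * (∑ x ∈ A, θ ^ G.dist u x * f x) ^ 2
        ≤ B * ∑ u ∈ A, W ^ G.dist u r * f u ^ 2

variable {nb : V → Finset V} {θ ε W B : ℝ}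

lemma Hyp.countable (p : Hyp G nb θ ε W B) : Countable V := countable_of_tree p.hT p.hnb

/-- the square difference of two outputs is bounded -/
lemma abs_sq_diff_le (θ ε : ℝ) (A A' : Finset V) (k : St V) (τ : V → ℝ) (R : St V → ℝ) :
    |(yA G θ ε A τ R k - yA G θ ε A' τ R k) ^ 2| ≤ 2 ^ 2 := by
  rw [abs_pow]
  refine pow_le_pow_left₀ (abs_nonneg _) ?_ 2
  have h1 := abs_yA_le (G := G) θ ε A τ R k
  have h2 := abs_yA_le (G := G) θ ε A' τ R k
  exact (abs_sub _ _).trans (by linarith)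

lemma measurable_sq_diff (θ ε : ℝ) (A A' : Finset V) (k : St V) :
    Measurable (fun ω : Om V => (yA G θ ε A ω.1 ω.2 k - yA G θ ε A' ω.1 ω.2 k) ^ 2) :=
  ((measurable_yA θ ε A k).sub (measurable_yA θ ε A' k)).pow_const 2

/-- Convergence in `L²` of the sampler with random order along growing convex sets. -/
theorem tendsto_L2 (p : Hyp G nb θ ε W B) {ι : Type} {l : Filter ι} [l.IsCountablyGenerated]
    {A A' : ι → Finset V} (hA : ∀ i, Conv G (A i)) (hA' : ∀ i, Conv G (A' i))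
    (hS : ∀ S : Finset V, ∀ᶠ i in l, S ⊆ A i ∧ S ⊆ A' i) (k : St V) :
    Tendsto (fun i => ∫ ω, (yA G θ ε (A i) ω.1 ω.2 k - yA G θ ε (A' i) ω.1 ω.2 k) ^ 2
      ∂topNoise V) l (𝓝 0) := by
  have := p.countable
  let g : ι → (V → ℝ) → ℝ := fun i τ =>
    ∫ R, (yA G θ ε (A i) τ R k - yA G θ ε (A' i) τ R k) ^ 2 ∂noise (St V)
  have e : ∀ i, ∫ ω, (yA G θ ε (A i) ω.1 ω.2 k - yA G θ ε (A' i) ω.1 ω.2 k) ^ 2 ∂topNoise V
      = ∫ τ, g i τ ∂noise V := by
    intro i
    unfold topNoise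
    rw [integral_prod _ (intg (measurable_sq_diff θ ε (A i) (A' i) k) (C := 2 ^ 2)
      (fun ω => abs_sq_diff_le θ ε (A i) (A' i) k ω.1 ω.2))]
  simp only [e]
  have hgm : ∀ i, Measurable (g i) := by
    intro i
    have h : StronglyMeasurable (Function.uncurry fun (τ : V → ℝ) (R : St V → ℝ) =>
        (yA G θ ε (A i) τ R k - yA G θ ε (A' i) τ R k) ^ 2) :=
      (measurable_sq_diff (G := G) θ ε (A i) (A' i) k).stronglyMeasurable
    exact (h.integral_prod_right (ν := noise (St V))).measurable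
  have hgb : ∀ i τ, ‖g i τ‖ ≤ 2 ^ 2 := by
    intro i τ
    have := norm_integral_le_of_norm_le_const (μ := noise (St V))
      (f := fun R => (yA G θ ε (A i) τ R k - yA G θ ε (A' i) τ R k) ^ 2) (C := 2 ^ 2)
      (ae_of_all _ fun R => by
        rw [Real.norm_eq_abs]
        exact abs_sq_diff_le θ ε (A i) (A' i) k τ R)
    have hreal : (noise (St V)).real Set.univ = 1 := by simp [Measure.real]
    rwa [hreal, mul_one] at this
  have hlim : ∀ᵐ τ ∂noise V, Tendsto (fun i => g i τ) l (𝓝 0) := by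
    filter_upwards [ae_injective] with τ hτ
    rw [Metric.tendsto_nhds]
    intro δ hδ
    obtain ⟨A₀, hA₀, -, hA₀b⟩ := cauchy_yA (G := G) p.hT p.hnb p.h0 p.h1 p.he0 p.he1 p.hW p.hB
      p.hsmall p.hK hτ k (half_pos hδ)
    filter_upwards [hS A₀] with i hi
    have h1 := hA₀b (A i) (A' i) (hA i) (hA' i) hi.1 hi.2
    have h2 : 0 ≤ g i τ := integral_nonneg fun R => sq_nonneg _
    rw [Real.dist_eq, sub_zero, abs_of_nonneg h2]
    show g i τ < δ
    have h3 : g i τ ≤ δ / 2 := h1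
    linarith
  have := tendsto_integral_filter_of_dominated_convergence (μ := noise V) (l := l) (F := g)
    (f := fun _ => (0 : ℝ)) (fun _ => (2 : ℝ) ^ 2)
    (Eventually.of_forall fun i => (hgm i).aestronglyMeasurable)
    (Eventually.of_forall fun i => ae_of_all _ fun τ => hgb i τ) (integrable_const _) hlim
  simpa using this

/-- every finite set is eventually in the balls -/
lemma subset_ballF (hT : G.IsTree) (hnb : ∀ u x, x ∈ nb u ↔ G.Adj u x) (c : V) (S : Finset V) :
    ∀ᶠ n in atTop, S ⊆ ballF nb c n := by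
  filter_upwards [eventually_ge_atTop (S.sup (fun x => G.dist x c))] with n hn x hx
  rw [mem_ballF hT hnb]
  exact (Finset.le_sup (f := fun x => G.dist x c) hx).trans hn

/-- The limit of the outputs along a fast sequence of balls. -/
theorem exists_H (p : Hyp G nb θ ε W B) (c₀ : V) :
    ∃ (φ : ℕ → ℕ) (H : St V → Om V → ℝ), (∀ j, j ≤ φ j) ∧ (∀ k, Measurable (H k)) ∧
      (∀ k ω, |H k ω| ≤ 1) ∧ ∀ᵐ ω ∂topNoise V, ∀ k,
        Tendsto (fun j => yA G θ ε (ballF nb c₀ (φ j)) ω.1 ω.2 k) atTop (𝓝 (H k ω)) := by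
  have := p.countable
  refine exists_ae_limit (P := topNoise V)
    (h := fun k n ω => yA G θ ε (ballF nb c₀ n) ω.1 ω.2 k)
    (fun k n => measurable_yA θ ε _ k) (fun k n ω => abs_yA_le θ ε _ ω.1 ω.2 k) ?_
  intro k δ hδ
  have hS := subset_ballF p.hT p.hnb c₀
  have h := tendsto_L2 (G := G) p (l := atTop ×ˢ atTop)
    (A := fun q : ℕ × ℕ => ballF nb c₀ q.1) (A' := fun q : ℕ × ℕ => ballF nb c₀ q.2)
    (fun q => conv_ballF p.hT p.hnb c₀ q.1) (fun q => conv_ballF p.hT p.hnb c₀ q.2)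
    (fun S => ((hS S).prod_inl atTop).and ((hS S).prod_inr atTop)) k
  have h2 : ∀ᶠ q : ℕ × ℕ in atTop ×ˢ atTop,
      ∫ ω, (yA G θ ε (ballF nb c₀ q.1) ω.1 ω.2 k - yA G θ ε (ballF nb c₀ q.2) ω.1 ω.2 k) ^ 2
        ∂topNoise V < δ := h.eventually (gt_mem_nhds hδ)
  rw [prod_atTop_atTop_eq] at h2
  obtain ⟨N, hN⟩ := eventually_atTop_prod_self'.1 h2
  exact ⟨N, fun n m hn hm => (hN n hn m hm).le⟩

section moments

variable {c₀ : V} {φ : ℕ → ℕ} {H : St V → Om V → ℝ}

/-- The law of the outputs on a large volume, after integrating over the labels. -/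
lemma integral_top_yA (p : Hyp G nb θ ε W B) {D A : Finset V} (hD : Conv G D) (hA : Conv G A)
    (hne : D.Nonempty) (hsub : D ⊆ A) {Q : Finset (St V)} (hQ : ∀ j ∈ Q, j.2 ∈ D)
    {f : (St V → ℝ) → ℝ} (hf : Measurable f) {C : ℝ} (hb : ∀ y, |f y| ≤ C)
    (hdep : ∀ y y' : St V → ℝ, (∀ j ∈ Q, y j = y' j) → f y = f y') :
    ∫ ω, f (fun k => yA G θ ε A ω.1 ω.2 k) ∂topNoise V
      = ∫ R, f (refl Q R) * Zq G θ ε D Q (refl Q R) ∂noise (St V) := by
  have := p.countable
  have hm : Measurable (fun ω : Om V => fun k => yA G θ ε A ω.1 ω.2 k) :=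
    measurable_pi_iff.2 fun k => measurable_yA θ ε A k
  unfold topNoise
  have hint : Integrable (fun ω : Om V => f (fun k => yA G θ ε A ω.1 ω.2 k))
      ((noise V).prod (noise (St V))) := intg (hf.comp hm) (fun ω => hb _)
  rw [integral_prod _ hint]
  have hc : ∀ᵐ τ ∂noise V, ∫ R, f (fun k => yA G θ ε A τ R k) ∂noise (St V)
      = ∫ R, f (refl Q R) * Zq G θ ε D Q (refl Q R) ∂noise (St V) := by
    filter_upwards [ae_injective] with τ hτ
    exact law_yA p.hT p.h0 p.h1 p.he0 p.he1 hD hA hne hsub hτ.injOn hQ hf hb hdep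
  rw [integral_congr_ae hc, integral_const]
  simp [Measure.real]

/-- **Moment formula for the limit.** -/
theorem moment_formula (p : Hyp G nb θ ε W B)
    (hφ : ∀ j, j ≤ φ j)
    (hH : ∀ᵐ ω ∂topNoise V, ∀ k,
        Tendsto (fun j => yA G θ ε (ballF nb c₀ (φ j)) ω.1 ω.2 k) atTop (𝓝 (H k ω)))
    {D : Finset V} (hD : Conv G D) (hne : D.Nonempty) {Q : Finset (St V)}
    (hQ : ∀ j ∈ Q, j.2 ∈ D) {f : (St V → ℝ) → ℝ} (hf : Continuous f) {C : ℝ}
    (hb : ∀ y, |f y| ≤ C) (hdep : ∀ y y' : St V → ℝ, (∀ j ∈ Q, y j = y' j) → f y = f y') :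
    ∫ ω, f (fun k => H k ω) ∂topNoise V
      = ∫ R, f (refl Q R) * Zq G θ ε D Q (refl Q R) ∂noise (St V) := by
  have := p.countable
  have hfm : Measurable f := hf.measurable
  have hlim := tendsto_integral_bdd (P := topNoise V)
    (a := fun j ω => f (fun k => yA G θ ε (ballF nb c₀ (φ j)) ω.1 ω.2 k))
    (b := fun ω => f (fun k => H k ω))
    (fun j => hfm.comp (measurable_pi_iff.2 fun k => measurable_yA θ ε _ k))
    (C := C) (fun j ω => hb _)
    (by
      filter_upwards [hH] with ω hω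
      exact hf.continuousAt.tendsto.comp (tendsto_pi_nhds.2 hω))
  refine tendsto_nhds_unique hlim ?_
  refine tendsto_const_nhds.congr' ?_
  have h1 := subset_ballF (G := G) (nb := nb) p.hT p.hnb c₀ D
  have h2 : Tendsto φ atTop atTop := tendsto_atTop_mono hφ tendsto_id
  filter_upwards [h2.eventually h1] with j hj
  exact (integral_top_yA p hD (conv_ballF p.hT p.hnb c₀ _) hne hj hQ hfm hb hdep).symm

end moments

/-- The tilted law of the observations in `Q` under the spins `σ`. -/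
def Tl (ε : ℝ) (Q : Finset (St V)) (σ : V → ℝ) (f : (St V → ℝ) → ℝ) : ℝ :=
  ∫ R, f (refl Q R) * ∏ j ∈ Q, (1 + ε * σ j.2 * cl (R j)) ∂noise (St V)

lemma measurable_prod_density (ε : ℝ) (Q : Finset (St V)) (σ : V → ℝ) :
    Measurable (fun R : St V → ℝ => ∏ j ∈ Q, (1 + ε * σ j.2 * cl (R j))) :=
  Finset.measurable_prod _ fun j _ =>
    measurable_const.add (measurable_const.mul (measurable_cl.comp (measurable_pi_apply j)))

lemma abs_prod_density_le {ε : ℝ} (he0 : 0 ≤ ε) (he1 : ε < 1) (Q : Finset (St V)) (s : Finset V)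
    (R : St V → ℝ) : |∏ j ∈ Q, (1 + ε * sgn s j.2 * cl (R j))| ≤ 2 ^ Q.card := by
  rw [Finset.abs_prod]
  calc _ ≤ ∏ _j ∈ Q, (2 : ℝ) := Finset.prod_le_prod (fun _ _ => abs_nonneg _) fun j _ => by
        refine density_le ?_ _
        rw [abs_mul, abs_sgn, mul_one, abs_of_nonneg he0]
        exact he1.le
    _ = 2 ^ Q.card := by simp

/-- The partition function unfolded: mixture of the tilted laws. -/
theorem integral_Zq_eq_Ex {ε : ℝ} (θ : ℝ) (he0 : 0 ≤ ε) (he1 : ε < 1) (D : Finset V)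
    (Q : Finset (St V)) {f : (St V → ℝ) → ℝ} (hf : Measurable f) {C : ℝ} (hb : ∀ y, |f y| ≤ C) :
    ∫ R, f (refl Q R) * Zq G θ ε D Q (refl Q R) ∂noise (St V)
      = Ex G θ D (fun σ => Tl ε Q σ f) := by
  have hC : 0 ≤ C := (abs_nonneg _).trans (hb (fun _ => 0))
  have hrefl : ∀ (R : St V → ℝ) (σ : V → ℝ), ∏ j ∈ Q, (1 + ε * σ j.2 * refl Q R j)
      = ∏ j ∈ Q, (1 + ε * σ j.2 * cl (R j)) := by
    intro R σ
    refine Finset.prod_congr rfl fun j hj => ?_
    simp only [refl, if_pos hj]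
  have e : ∀ R : St V → ℝ, f (refl Q R) * Zq G θ ε D Q (refl Q R)
      = ∑ s ∈ D.powerset, isingWeight G θ D (sgn s)
          * (f (refl Q R) * ∏ j ∈ Q, (1 + ε * sgn s j.2 * cl (R j))) := by
    intro R
    unfold Zq Wq Ex
    rw [Finset.mul_sum]
    refine Finset.sum_congr rfl fun s _ => ?_
    beta_reduce
    rw [hrefl]
    ring
  simp only [e]
  have hi : ∀ s : Finset V, Integrable (fun R : St V → ℝ =>
      f (refl Q R) * ∏ j ∈ Q, (1 + ε * sgn s j.2 * cl (R j))) (noise (St V)) := by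
    intro s
    refine intg ((hf.comp (measurable_refl Q)).mul (measurable_prod_density ε Q (sgn s)))
      (C := C * 2 ^ Q.card) (fun R => ?_)
    rw [abs_mul]
    exact mul_le_mul (hb _) (abs_prod_density_le he0 he1 Q s R) (abs_nonneg _) hC
  rw [integral_finsetSum _ fun s _ => (hi s).const_mul _]
  unfold Ex Tl
  refine Finset.sum_congr rfl fun s _ => ?_
  rw [integral_const_mul]

end Vale.Agent.Lib.P161
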