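import Vale.Agent.Lib.P161.Sampler

/-!
The exact law of the sampler: density with respect to the reference product measure.
-/

open MeasureTheory Finset

noncomputable section
namespace Vale.Agent.Lib.P161

open scoped Classical

variable {V : Type} {G : SimpleGraph V}

/-- weighted partition function of the observations in `Q` -/
def Wq (G : SimpleGraph V) (θ ε : ℝ) (A : Finset V) (F : (V → ℝ) → ℝ) (Q : Finset (St V))
    (y : St V → ℝ) : ℝ :=
  Ex G θ A (fun σ => F σ * ∏ j ∈ Q, (1 + ε * σ j.2 * y j))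

/-- partition function of the observations in `Q` -/
abbrev Zq (G : SimpleGraph V) (θ ε : ℝ) (A : Finset V) (Q : Finset (St V)) (y : St V → ℝ) : ℝ :=
  Wq G θ ε A (fun _ => 1) Q y

/-- numerator of the conditional mean at `v` -/
abbrev Nq (G : SimpleGraph V) (θ ε : ℝ) (A : Finset V) (v : V) (Q : Finset (St V))
    (y : St V → ℝ) : ℝ :=
  Wq G θ ε A (fun σ => σ v) Q y

/-- reference configuration: clamped noise on `Q`, zero elsewhere -/
def refl (Q : Finset (St V)) (R : St V → ℝ) (j : St V) : ℝ := if j ∈ Q then cl (R j) else 0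

lemma abs_refl_le (Q : Finset (St V)) (R : St V → ℝ) (j : St V) : |refl Q R j| ≤ 1 := by
  unfold refl
  split_ifs
  · exact abs_cl_le _
  · simp

lemma measurable_refl (Q : Finset (St V)) : Measurable (refl Q) := by
  refine measurable_pi_iff.2 fun j => ?_
  unfold refl
  split_ifs
  · exact measurable_cl.comp (measurable_pi_apply j)
  · exact measurable_const

lemma refl_update_notMem {Q : Finset (St V)} {j : St V} (hj : j ∉ Q) (R : St V → ℝ) (t : ℝ) :
    refl Q (Function.update R j t) = refl Q R := by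
  funext l
  unfold refl
  split_ifs with hl
  · have : l ≠ j := fun h => hj (h ▸ hl)
    rw [Function.update_of_ne this]
  · rfl

lemma refl_insert_update {Q : Finset (St V)} (j : St V) (R : St V → ℝ) (t : ℝ) :
    refl (insert j Q) (Function.update R j t) = Function.update (refl Q R) j (cl t) := by
  funext l
  by_cases h : l = j
  · subst h
    simp [refl]
  · rw [Function.update_of_ne h]
    unfold refl
    simp only [Finset.mem_insert, h, false_or, Function.update_of_ne h]

lemma Wq_congr (θ ε : ℝ) (A : Finset V) (F : (V → ℝ) → ℝ) {Q : Finset (St V)} {y y' : St V → ℝ}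
    (h : ∀ j ∈ Q, y j = y' j) : Wq G θ ε A F Q y = Wq G θ ε A F Q y' := by
  unfold Wq
  apply Ex_congr
  intro s
  congr 1
  exact Finset.prod_congr rfl fun j hj => by rw [h j hj]

lemma Wq_insert (θ ε : ℝ) (A : Finset V) (F : (V → ℝ) → ℝ) {Q : Finset (St V)} {j : St V}
    (hj : j ∉ Q) (y : St V → ℝ) :
    Wq G θ ε A F (insert j Q) y
      = Wq G θ ε A F Q y + ε * y j * Wq G θ ε A (fun σ => F σ * σ j.2) Q y := by
  unfold Wq
  rw [← Ex_const_mul, ← Ex_add]
  apply Ex_congr
  intro s
  rw [Finset.prod_insert hj]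
  ring

lemma Wq_empty (hT : G.IsTree) (θ ε : ℝ) {A : Finset V} (hA : Conv G A) (hne : A.Nonempty)
    (y : St V → ℝ) : Zq G θ ε A ∅ y = 1 := by
  unfold Zq Wq
  simp only [Finset.prod_empty, mul_one]
  exact Ex_one hT θ hA hne

lemma measurable_Wq (θ ε : ℝ) (A : Finset V) (F : (V → ℝ) → ℝ) (Q : Finset (St V)) :
    Measurable (Wq G θ ε A F Q) := by
  unfold Wq Ex
  refine Finset.measurable_sum _ fun s _ => Measurable.const_mul ?_ _
  refine Measurable.const_mul ?_ _
  refine Finset.measurable_prod _ fun j _ => ?_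
  exact ((measurable_pi_apply j).const_mul _).const_add _

/-- bound on the partition function -/
lemma abs_Wq_le (hT : G.IsTree) {θ ε : ℝ} (h0 : 0 ≤ θ) (h1 : θ < 1) (he0 : 0 ≤ ε) (he1 : ε < 1)
    {A : Finset V} (hA : Conv G A) (hne : A.Nonempty) {F : (V → ℝ) → ℝ}
    (hF : ∀ s : Finset V, |F (sgn s)| ≤ 1) (Q : Finset (St V)) {y : St V → ℝ}
    (hy : ∀ j, |y j| ≤ 1) : |Wq G θ ε A F Q y| ≤ 2 ^ Q.card := by
  unfold Wq
  refine (abs_Ex_le h0 h1 A _).trans ?_
  have : Ex G θ A (fun σ => |F σ * ∏ j ∈ Q, (1 + ε * σ j.2 * y j)|)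
      ≤ Ex G θ A (fun _ => (2 : ℝ) ^ Q.card) := by
    apply Ex_mono h0 h1
    intro s
    rw [abs_mul, Finset.abs_prod]
    have h2 : ∏ j ∈ Q, |1 + ε * sgn s j.2 * y j| ≤ ∏ _j ∈ Q, (2 : ℝ) := by
      refine Finset.prod_le_prod (fun j _ => abs_nonneg _) fun j _ => ?_
      have h3 : |ε * sgn s j.2 * y j| ≤ 1 := by
        rw [abs_mul, abs_mul, abs_sgn, mul_one, abs_of_nonneg he0]
        calc ε * |y j| ≤ 1 * 1 := mul_le_mul he1.le (hy j) (abs_nonneg _) (by norm_num)
          _ = 1 := by norm_num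
      calc _ ≤ |(1 : ℝ)| + |ε * sgn s j.2 * y j| := abs_add_le _ _
        _ ≤ 2 := by rw [abs_one]; linarith
    rw [Finset.prod_const] at h2
    calc |F (sgn s)| * _ ≤ 1 * (2 : ℝ) ^ Q.card :=
          mul_le_mul (hF s) h2 (Finset.prod_nonneg fun j _ => abs_nonneg _) (by norm_num)
      _ = _ := one_mul _
  refine this.trans (le_of_eq ?_)
  have e : (fun _ : V → ℝ => (2 : ℝ) ^ Q.card) = fun _ => (2 : ℝ) ^ Q.card * 1 := by
    funext _; ring
  rw [e, Ex_const_mul, Ex_one hT θ hA hne, mul_one]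

/-- Marginalisation for partition functions. -/
lemma Wq_marginal (hT : G.IsTree) (θ ε : ℝ) {A₀ A : Finset V} (hA₀ : Conv G A₀) (hA : Conv G A)
    (hne : A₀.Nonempty) (hsub : A₀ ⊆ A) {F : (V → ℝ) → ℝ}
    (hF : ∀ σ σ' : V → ℝ, (∀ u ∈ A₀, σ u = σ' u) → F σ = F σ') {Q : Finset (St V)}
    (hQ : ∀ j ∈ Q, j.2 ∈ A₀) (y : St V → ℝ) :
    Wq G θ ε A F Q y = Wq G θ ε A₀ F Q y := by
  unfold Wq
  apply Ex_marginal hT θ hA₀ hA hne hsub
  intro σ σ' h
  rw [hF σ σ' h]
  congr 1
  exact Finset.prod_congr rfl fun j hj => by rw [h _ (hQ j hj)]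

/-! ### the ratio formula -/

/-- the field of a set of observations -/
def Xq (ε : ℝ) (Q : Finset (St V)) (y : St V → ℝ) (u : V) : ℝ :=
  ∑ j ∈ Q.filter (fun j => j.2 = u), zeta ε (y j)

lemma prod_eq_tilt {ε : ℝ} (he0 : 0 ≤ ε) (he1 : ε < 1) {A : Finset V} {Q : Finset (St V)}
    (hQ : ∀ j ∈ Q, j.2 ∈ A) {y : St V → ℝ} (hy : ∀ j ∈ Q, |y j| ≤ 1) (s : Finset V) :
    ∏ j ∈ Q, (1 + ε * sgn s j.2 * y j)
      = (∏ j ∈ Q, Real.sqrt (1 - ε ^ 2 * y j ^ 2)) * tilt A (Xq ε Q y) (sgn s) := by
  have h1 : ∀ j ∈ Q, 1 + ε * sgn s j.2 * y j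
      = Real.sqrt (1 - ε ^ 2 * y j ^ 2) * Real.exp (sgn s j.2 * zeta ε (y j)) :=
    fun j hj => zeta_identity he0 he1 (hy j hj) (sgn_cases s j.2)
  rw [Finset.prod_congr rfl h1, Finset.prod_mul_distrib, ← Real.exp_sum]
  congr 1
  unfold tilt
  congr 1
  unfold Xq
  have h2 : ∀ u ∈ A, (∑ j ∈ Q.filter (fun j => j.2 = u), zeta ε (y j)) * sgn s u
      = ∑ j ∈ Q.filter (fun j => j.2 = u), sgn s j.2 * zeta ε (y j) := by
    intro u _
    rw [Finset.sum_mul]
    refine Finset.sum_congr rfl fun j hj => ?_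
    rw [(Finset.mem_filter.1 hj).2]
    ring
  rw [Finset.sum_congr rfl h2]
  exact (Finset.sum_fiberwise_of_maps_to (s := Q) (t := A) (g := fun j => j.2) hQ _).symm

lemma prod_sqrt_pos {ε : ℝ} (he0 : 0 ≤ ε) (he1 : ε < 1) {Q : Finset (St V)} {y : St V → ℝ}
    (hy : ∀ j ∈ Q, |y j| ≤ 1) : 0 < ∏ j ∈ Q, Real.sqrt (1 - ε ^ 2 * y j ^ 2) := by
  refine Finset.prod_pos fun j hj => Real.sqrt_pos.2 ?_
  have h1 : y j ^ 2 ≤ 1 := (sq_le_one_iff_abs_le_one _).2 (hy j hj)
  nlinarith [sq_nonneg ε, sq_nonneg (y j)]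

lemma Wq_eq_tilt {θ ε : ℝ} (he0 : 0 ≤ ε) (he1 : ε < 1) {A : Finset V} (F : (V → ℝ) → ℝ)
    {Q : Finset (St V)} (hQ : ∀ j ∈ Q, j.2 ∈ A) {y : St V → ℝ} (hy : ∀ j ∈ Q, |y j| ≤ 1) :
    Wq G θ ε A F Q y = (∏ j ∈ Q, Real.sqrt (1 - ε ^ 2 * y j ^ 2))
      * Ex G θ A (fun σ => F σ * tilt A (Xq ε Q y) σ) := by
  unfold Wq
  rw [← Ex_const_mul]
  apply Ex_congr
  intro s
  rw [prod_eq_tilt he0 he1 hQ hy s]
  ring

lemma Zq_pos {θ ε : ℝ} (h0 : 0 ≤ θ) (h1 : θ < 1) (he0 : 0 ≤ ε) (he1 : ε < 1) {A : Finset V}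
    {Q : Finset (St V)} (hQ : ∀ j ∈ Q, j.2 ∈ A) {y : St V → ℝ} (hy : ∀ j ∈ Q, |y j| ≤ 1) :
    0 < Zq G θ ε A Q y := by
  unfold Zq
  rw [Wq_eq_tilt he0 he1 _ hQ hy]
  refine mul_pos (prod_sqrt_pos he0 he1 hy) ?_
  exact Ex_pos h0 h1 A (fun s => by simpa using tilt_pos A _ _)

/-- magnetisation as a ratio -/
lemma Mt_mul_Zq {θ ε : ℝ} (h0 : 0 ≤ θ) (h1 : θ < 1) (he0 : 0 ≤ ε) (he1 : ε < 1) {A : Finset V}
    (v : V) {Q : Finset (St V)} (hQ : ∀ j ∈ Q, j.2 ∈ A) {y : St V → ℝ}
    (hy : ∀ j ∈ Q, |y j| ≤ 1) :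
    Mt G θ A v (Xq ε Q y) * Zq G θ ε A Q y = Nq G θ ε A v Q y := by
  unfold Zq Nq
  rw [Wq_eq_tilt he0 he1 _ hQ hy, Wq_eq_tilt he0 he1 _ hQ hy]
  simp only [one_mul]
  unfold Mt Nt Zt
  have hZ := Zt_pos (G := G) h0 h1 A (Xq ε Q y)
  unfold Zt at hZ
  field_simp

/-- the prior field is the field of the prior steps -/
lemma Xprior_eq_Xq (ε : ℝ) {A : Finset V} (τ : V → ℝ) (k : St V) (y : St V → ℝ) {u : V}
    (hu : u ∈ A) : Xprior ε τ k y u = Xq ε (Prior A τ k) y u := by
  unfold Xprior Xq
  have hfil : (Prior A τ k).filter (fun j => j.2 = u)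
      = ((Finset.range k.1).image (fun i => ((i, u) : St V))) ∪
        (if τ u < τ k.2 then {(k.1, u)} else ∅) := by
    ext j
    simp only [Finset.mem_filter, mem_Prior, Finset.mem_union, Finset.mem_image, Finset.mem_range]
    constructor
    · rintro ⟨⟨_, h⟩, rfl⟩
      rcases h with h | ⟨h, h'⟩
      · exact Or.inl ⟨j.1, h, rfl⟩
      · right
        rw [if_pos h']
        simp [Prod.ext_iff, h]
    · rintro (⟨i, hi, rfl⟩ | h)
      · exact ⟨⟨hu, Or.inl hi⟩, rfl⟩
      · by_cases hlt : τ u < τ k.2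
        · rw [if_pos hlt, Finset.mem_singleton] at h
          subst h
          exact ⟨⟨hu, Or.inr ⟨rfl, hlt⟩⟩, rfl⟩
        · rw [if_neg hlt] at h
          simp at h
  rw [hfil, Finset.sum_union, Finset.sum_image]
  · congr 1
    split_ifs <;> simp
  · intro a _ b _ h
    simpa using congrArg Prod.fst h
  · rw [Finset.disjoint_left]
    intro j hj hj2
    obtain ⟨i, hi, rfl⟩ := Finset.mem_image.1 hj
    split_ifs at hj2 with hlt
    · rw [Finset.mem_singleton] at hj2
      have : i = k.1 := congrArg Prod.fst hj2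
      have hi' := Finset.mem_coe.1 hi
      rw [Finset.mem_range] at hi'
      omega
    · simp at hj2

/-- conditional mean at a step is the ratio of partition functions -/
lemma stepM_mul_Zq {θ ε : ℝ} (h0 : 0 ≤ θ) (h1 : θ < 1) (he0 : 0 ≤ ε) (he1 : ε < 1) {A : Finset V}
    (τ : V → ℝ) (k : St V) {y : St V → ℝ} (hy : ∀ j ∈ Prior A τ k, |y j| ≤ 1) :
    stepM G θ ε A τ k y * Zq G θ ε A (Prior A τ k) y = Nq G θ ε A k.2 (Prior A τ k) y := by
  have hQ : ∀ j ∈ Prior A τ k, j.2 ∈ A := fun j hj => (mem_Prior.1 hj).1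
  rw [← Mt_mul_Zq h0 h1 he0 he1 k.2 hQ hy]
  congr 1
  unfold stepM
  exact Mt_congr θ A k.2 (fun u hu => Xprior_eq_Xq ε τ k y hu)

lemma Dn_rk_eq_Prior {A : Finset V} (τ : V → ℝ) {k : St V} (hk : k.2 ∈ A) :
    Dn A τ (rk A τ k) = Prior A τ k := by
  ext j
  rw [mem_Dn, mem_Prior]
  constructor
  · rintro ⟨h1, h2⟩
    exact ⟨h1, (rk_lt_iff h1 hk).1 h2⟩
  · rintro ⟨h1, h2⟩
    exact ⟨h1, (rk_lt_iff h1 hk).2 h2⟩

/-! ### integrating out observations -/

/-- One coordinate. -/
lemma integral_out_one (hT : G.IsTree) {θ ε : ℝ} (h0 : 0 ≤ θ) (h1 : θ < 1) (he0 : 0 ≤ ε)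
    (he1 : ε < 1) {A : Finset V} (hA : Conv G A) (hne : A.Nonempty) {F : (V → ℝ) → ℝ}
    (hF : ∀ s : Finset V, |F (sgn s)| ≤ 1) {Q : Finset (St V)} {j : St V} (hj : j ∉ Q)
    {g : (St V → ℝ) → ℝ} (hg : Measurable g) {D : ℝ} (hgb : ∀ R, |g R| ≤ D)
    (hgi : ∀ R t, g (Function.update R j t) = g R) :
    ∫ R, g R * Wq G θ ε A F (insert j Q) (refl (insert j Q) R) ∂noise (St V)
      = ∫ R, g R * Wq G θ ε A F Q (refl Q R) ∂noise (St V) := by
  have hD : 0 ≤ D := (abs_nonneg _).trans (hgb (fun _ => 0))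
  have hF' : ∀ s : Finset V, |(fun σ : V → ℝ => F σ * σ j.2) (sgn s)| ≤ 1 := by
    intro s
    simp only [abs_mul, abs_sgn, mul_one]
    exact hF s
  have hbd : ∀ R, |g R * Wq G θ ε A F (insert j Q) (refl (insert j Q) R)|
      ≤ D * 2 ^ (insert j Q).card := by
    intro R
    rw [abs_mul]
    exact mul_le_mul (hgb R) (abs_Wq_le hT h0 h1 he0 he1 hA hne hF _ (abs_refl_le _ R))
      (abs_nonneg _) hD
  rw [integral_resample j (F := fun R => g R * Wq G θ ε A F (insert j Q) (refl (insert j Q) R))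
    (hg.mul ((measurable_Wq θ ε A F _).comp (measurable_refl _))) hbd]
  refine integral_congr_ae (ae_of_all _ fun R => ?_)
  simp only [hgi]
  have e : ∀ t, Wq G θ ε A F (insert j Q) (refl (insert j Q) (Function.update R j t))
      = Wq G θ ε A F Q (refl Q R)
        + ε * Wq G θ ε A (fun σ => F σ * σ j.2) Q (refl Q R) * cl t := by
    intro t
    rw [Wq_insert θ ε A F hj, refl_insert_update, Function.update_self]
    have hc : ∀ F' : (V → ℝ) → ℝ, Wq G θ ε A F' Q (Function.update (refl Q R) j (cl t))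
        = Wq G θ ε A F' Q (refl Q R) := by
      intro F'
      apply Wq_congr
      intro l hl
      have : l ≠ j := fun h => hj (h ▸ hl)
      rw [Function.update_of_ne this]
    rw [hc, hc]
    ring
  simp only [e]
  rw [integral_const_mul, integral_add (integrable_const _) (integrable_cl_lam.const_mul _),
    integral_const_mul, integral_cl_lam]
  simp

/-- A finite set of coordinates. -/
lemma integral_out (hT : G.IsTree) {θ ε : ℝ} (h0 : 0 ≤ θ) (h1 : θ < 1) (he0 : 0 ≤ ε)
    (he1 : ε < 1) {A : Finset V} (hA : Conv G A) (hne : A.Nonempty) {F : (V → ℝ) → ℝ}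
    (hF : ∀ s : Finset V, |F (sgn s)| ≤ 1) {Q D' : Finset (St V)} (hsub : Q ⊆ D')
    {g : (St V → ℝ) → ℝ} (hg : Measurable g) {D : ℝ} (hgb : ∀ R, |g R| ≤ D)
    (hgi : ∀ j ∈ D' \ Q, ∀ R t, g (Function.update R j t) = g R) :
    ∫ R, g R * Wq G θ ε A F D' (refl D' R) ∂noise (St V)
      = ∫ R, g R * Wq G θ ε A F Q (refl Q R) ∂noise (St V) := by
  have main : ∀ E : Finset (St V), Disjoint E Q →
      (∀ j ∈ E, ∀ R t, g (Function.update R j t) = g R) →
      ∫ R, g R * Wq G θ ε A F (E ∪ Q) (refl (E ∪ Q) R) ∂noise (St V)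
        = ∫ R, g R * Wq G θ ε A F Q (refl Q R) ∂noise (St V) := by
    intro E
    induction E using Finset.induction_on with
    | empty => intro _ _; simp
    | insert j E hjE ih =>
      intro hdis hi
      have hjQ : j ∉ Q := fun h => (Finset.disjoint_left.1 hdis) (Finset.mem_insert_self _ _) h
      have hjU : j ∉ E ∪ Q := by
        simp only [Finset.mem_union, not_or]
        exact ⟨hjE, hjQ⟩
      rw [Finset.insert_union, integral_out_one hT h0 h1 he0 he1 hA hne hF hjU hg hgb
        (hi j (Finset.mem_insert_self _ _))]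
      exact ih (Finset.disjoint_left.2 fun x hx hq =>
        (Finset.disjoint_left.1 hdis) (Finset.mem_insert_of_mem hx) hq)
        (fun l hl => hi l (Finset.mem_insert_of_mem hl))
  have hU : (D' \ Q) ∪ Q = D' := Finset.sdiff_union_of_subset hsub
  have := main (D' \ Q) Finset.sdiff_disjoint hgi
  rwa [hU] at this

/-! ### the law of the sampler -/

/-- The law of the state of the sampler. -/
theorem law_state (hT : G.IsTree) {θ ε : ℝ} (h0 : 0 ≤ θ) (h1 : θ < 1) (he0 : 0 ≤ ε) (he1 : ε < 1)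
    {A : Finset V} (hA : Conv G A) (hne : A.Nonempty) {τ : V → ℝ} (hτ : Set.InjOn τ A) (n : ℕ) :
    ∀ (f : (St V → ℝ) → ℝ), Measurable f → ∀ C : ℝ, (∀ y, |f y| ≤ C) →
      ∫ R, f (state G θ ε A τ R n) ∂noise (St V)
        = ∫ R, f (refl (Dn A τ n) R) * Zq G θ ε A (Dn A τ n) (refl (Dn A τ n) R) ∂noise (St V) := by
  induction n with
  | zero =>
    intro f _ C _
    have hD : Dn A τ 0 = ∅ := by
      ext j; simp [mem_Dn]
    rw [hD]
    have e1 : ∀ R, state G θ ε A τ R 0 = refl ∅ R := by
      intro R; funext j; simp [state, refl]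
    have e2 : ∀ R, Zq G θ ε A ∅ (refl ∅ R) = 1 := fun R => Wq_empty hT θ ε hA hne _
    simp only [e1, e2, mul_one]
  | succ n ih =>
    intro f hf C hb
    have hC : 0 ≤ C := (abs_nonneg _).trans (hb (fun _ => 0))
    by_cases hex : ∃ k : St V, k.2 ∈ A ∧ rk A τ k = n
    · obtain ⟨k, hkA, hkr⟩ := hex
      -- the state after the step
      have hstate : ∀ R, state G θ ε A τ R (n + 1)
          = Function.update (state G θ ε A τ R n) k
            (Sf (R k) (ε * stepM G θ ε A τ k (state G θ ε A τ R n))) := by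
        intro R
        funext j
        by_cases hjk : j = k
        · subst hjk
          rw [state_succ, if_pos ⟨hkA, hkr⟩, Function.update_self]
        · rw [state_succ, Function.update_of_ne hjk, if_neg]
          rintro ⟨h1', h2'⟩
          exact hjk (rk_inj hτ h1' hkA (by omega))
      have hD : Dn A τ (n + 1) = insert k (Dn A τ n) := by
        ext j
        rw [mem_Dn, Finset.mem_insert, mem_Dn]
        constructor
        · rintro ⟨h1', h2'⟩
          by_cases hjn : rk A τ j = n
          · exact Or.inl (rk_inj hτ h1' hkA (by omega))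
          · exact Or.inr ⟨h1', by omega⟩
        · rintro (rfl | ⟨h1', h2'⟩)
          · exact ⟨hkA, by omega⟩
          · exact ⟨h1', by omega⟩
      have hknot : k ∉ Dn A τ n := by
        intro h
        have := (mem_Dn.1 h).2
        omega
      have hEP : Dn A τ n = Prior A τ k := by
        rw [← hkr]; exact Dn_rk_eq_Prior τ hkA
      -- abbreviations
      set E := Dn A τ n with hE
      let m : (St V → ℝ) → ℝ := stepM G θ ε A τ k
      have hm : Measurable m := measurable_stepM_right θ ε A τ k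
      have hmb : ∀ y, |m y| ≤ 1 := fun y => abs_Mt_le h0 h1 A k.2 _
      have hcb : ∀ y, |ε * m y| ≤ ε := by
        intro y
        rw [abs_mul, abs_of_nonneg he0]
        calc ε * |m y| ≤ ε * 1 := by gcongr; exact hmb y
          _ = ε := mul_one _
      let g : (St V → ℝ) → ℝ := fun y =>
        ∫ t, f (Function.update y k (cl t)) * (1 + ε * m y * cl t) ∂lam
      have hgj : Measurable (fun p : (St V → ℝ) × ℝ =>
          f (Function.update p.1 k (cl p.2)) * (1 + ε * m p.1 * cl p.2)) := by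
        have h2 : Measurable (fun p : (St V → ℝ) × ℝ => Function.update p.1 k (cl p.2)) := by
          have : Measurable (fun p : (St V → ℝ) × ℝ => ((p.1, cl p.2) : (St V → ℝ) × ℝ)) :=
            measurable_fst.prodMk (measurable_cl.comp measurable_snd)
          exact measurable_update'.comp this
        refine (hf.comp h2).mul ?_
        exact measurable_const.add (((hm.comp measurable_fst).const_mul ε).mul
          (measurable_cl.comp measurable_snd))
      have hgm : Measurable g :=
        (hgj.stronglyMeasurable.integral_prod_right (ν := lam)).measurable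
      have hdens : ∀ (y : St V → ℝ) (t : ℝ), |1 + ε * m y * cl t| ≤ 2 := by
        intro y t
        have : |ε * m y * cl t| ≤ 1 := by
          rw [abs_mul]
          calc |ε * m y| * |cl t| ≤ ε * 1 :=
                mul_le_mul (hcb y) (abs_cl_le t) (abs_nonneg _) he0
            _ ≤ 1 := by linarith
        calc _ ≤ |(1 : ℝ)| + |ε * m y * cl t| := abs_add_le _ _
          _ ≤ 2 := by rw [abs_one]; linarith
      have hgb : ∀ y, |g y| ≤ C * 2 := by
        intro y
        have := norm_integral_le_of_norm_le_const (μ := lam)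
          (f := fun t => f (Function.update y k (cl t)) * (1 + ε * m y * cl t)) (C := C * 2)
          (ae_of_all _ fun t => by
            rw [Real.norm_eq_abs, abs_mul]
            exact mul_le_mul (hb _) (hdens y t) (abs_nonneg _) hC)
        have hreal : lam.real Set.univ = 1 := by simp [Measure.real]
        rw [hreal, mul_one, Real.norm_eq_abs] at this
        exact this
      -- first half: from the state to `g`
      have hL : ∫ R, f (state G θ ε A τ R (n + 1)) ∂noise (St V)
          = ∫ R, g (state G θ ε A τ R n) ∂noise (St V) := by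
        have hFm : Measurable (fun R => f (state G θ ε A τ R (n + 1))) :=
          hf.comp (measurable_state_right θ ε A τ (n + 1))
        rw [integral_resample k hFm (fun R => hb _)]
        refine integral_congr_ae (ae_of_all _ fun R => ?_)
        have : ∀ t, f (state G θ ε A τ (Function.update R k t) (n + 1))
            = f (Function.update (state G θ ε A τ R n) k
                (Sf t (ε * m (state G θ ε A τ R n)))) := by
          intro t
          rw [hstate, state_update θ ε A τ R n hknot t, Function.update_self]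
        have key := integral_Sf he1 (hcb (state G θ ε A τ R n))
          (fun x => f (Function.update (state G θ ε A τ R n) k x))
        have e3 : (∫ t, f (state G θ ε A τ (Function.update R k t) (n + 1)) ∂lam)
            = ∫ t, f (Function.update (state G θ ε A τ R n) k
                (Sf t (ε * m (state G θ ε A τ R n)))) ∂lam :=
          integral_congr_ae (ae_of_all _ this)
        show (∫ t, f (state G θ ε A τ (Function.update R k t) (n + 1)) ∂lam) = _
        rw [e3]
        exact key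
      -- second half: from `g` to the reference measure
      have hZb : ∀ R, |Zq G θ ε A (insert k E) (refl (insert k E) R)| ≤ 2 ^ (insert k E).card :=
        fun R => abs_Wq_le hT h0 h1 he0 he1 hA hne (fun s => by simp) _ (abs_refl_le _ R)
      have hR : ∫ R, f (refl (insert k E) R) * Zq G θ ε A (insert k E) (refl (insert k E) R)
            ∂noise (St V)
          = ∫ R, g (refl E R) * Zq G θ ε A E (refl E R) ∂noise (St V) := by
        have hFm : Measurable (fun R => f (refl (insert k E) R)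
            * Zq G θ ε A (insert k E) (refl (insert k E) R)) :=
          (hf.comp (measurable_refl _)).mul
            ((measurable_Wq θ ε A _ _).comp (measurable_refl _))
        rw [integral_resample k hFm (C := C * 2 ^ (insert k E).card) (fun R => by
          rw [abs_mul]
          exact mul_le_mul (hb _) (hZb R) (abs_nonneg _) hC)]
        refine integral_congr_ae (ae_of_all _ fun R => ?_)
        simp only [g]
        rw [← integral_mul_const]
        congr 1
        funext t
        have hy : ∀ j ∈ Prior A τ k, |refl E R j| ≤ 1 := fun j _ => abs_refl_le _ _ _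
        have hratio := stepM_mul_Zq (G := G) h0 h1 he0 he1 τ k hy
        rw [← hEP] at hratio
        rw [refl_insert_update]
        unfold Zq
        rw [Wq_insert θ ε A _ hknot, Function.update_self]
        have hc : ∀ F' : (V → ℝ) → ℝ, Wq G θ ε A F' E (Function.update (refl E R) k (cl t))
            = Wq G θ ε A F' E (refl E R) := by
          intro F'
          apply Wq_congr
          intro l hl
          have : l ≠ k := fun h => hknot (h ▸ hl)
          rw [Function.update_of_ne this]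
        rw [hc, hc]
        simp only [one_mul]
        have hN : Wq G θ ε A (fun σ => σ k.2) E (refl E R)
            = m (refl E R) * Wq G θ ε A (fun _ => 1) E (refl E R) := hratio.symm
        rw [hN]
        ring
      rw [hL, ih g hgm (C * 2) hgb, hD, hR]
    · -- no step of this rank
      have hstate : ∀ R, state G θ ε A τ R (n + 1) = state G θ ε A τ R n := by
        intro R
        funext j
        rw [state_succ, if_neg]
        rintro ⟨h1', h2'⟩
        exact hex ⟨j, h1', h2'⟩
      have hD : Dn A τ (n + 1) = Dn A τ n := by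
        ext j
        rw [mem_Dn, mem_Dn]
        constructor
        · rintro ⟨h1', h2'⟩
          refine ⟨h1', ?_⟩
          have : rk A τ j ≠ n := fun e => hex ⟨j, h1', e⟩
          omega
        · rintro ⟨h1', h2'⟩
          exact ⟨h1', by omega⟩
      simp only [hstate, hD]
      exact ih f hf C hb

/-- The law of the output of the sampler on a finite set of observations. -/
theorem law_yA (hT : G.IsTree) {θ ε : ℝ} (h0 : 0 ≤ θ) (h1 : θ < 1) (he0 : 0 ≤ ε) (he1 : ε < 1)
    {A₀ A : Finset V} (hA₀ : Conv G A₀) (hA : Conv G A) (hne : A₀.Nonempty) (hsub : A₀ ⊆ A)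
    {τ : V → ℝ} (hτ : Set.InjOn τ A) {Q : Finset (St V)} (hQ : ∀ j ∈ Q, j.2 ∈ A₀)
    {f : (St V → ℝ) → ℝ} (hf : Measurable f) {C : ℝ} (hb : ∀ y, |f y| ≤ C)
    (hdep : ∀ y y' : St V → ℝ, (∀ j ∈ Q, y j = y' j) → f y = f y') :
    ∫ R, f (yA G θ ε A τ R) ∂noise (St V)
      = ∫ R, f (refl Q R) * Zq G θ ε A₀ Q (refl Q R) ∂noise (St V) := by
  have hneA : A.Nonempty := hne.mono hsub
  -- a state containing all of `Q`
  let N := (Q.sup (fun j => j.1) + 1) * A.card + 1
  have hQN : Q ⊆ Dn A τ N := by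
    intro j hj
    have hjA : j.2 ∈ A := hsub (hQ j hj)
    refine mem_Dn.2 ⟨hjA, ?_⟩
    have h2 := vpos_lt_card τ hjA
    have h3 : j.1 ≤ Q.sup (fun j => j.1) := Finset.le_sup (f := fun j : St V => j.1) hj
    have h4 : (j.1 + 1) * A.card ≤ (Q.sup (fun j => j.1) + 1) * A.card :=
      Nat.mul_le_mul_right _ (by omega)
    have h5 : (j.1 + 1) * A.card = j.1 * A.card + A.card := by ring
    show j.1 * A.card + vpos A τ j.2 < _
    omega
  have e1 : ∀ R, f (yA G θ ε A τ R) = f (state G θ ε A τ R N) := fun R =>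
    hdep _ _ fun j hj => (state_eq_yA θ ε τ R (hQN hj)).symm
  have e2 : ∀ R, f (refl (Dn A τ N) R) = f (refl Q R) := fun R => hdep _ _ fun j hj => by
    simp [refl, hj, hQN hj]
  simp only [e1]
  rw [law_state hT h0 h1 he0 he1 hA hneA hτ N f hf C hb]
  simp only [e2]
  have hout := integral_out (G := G) hT h0 h1 he0 he1 hA hneA (F := fun _ => 1)
    (fun s => by simp) hQN (g := fun R => f (refl Q R)) (hf.comp (measurable_refl Q))
    (fun R => hb _) (fun j hj R t => by
      rw [refl_update_notMem (Finset.mem_sdiff.1 hj).2])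
  refine hout.trans ?_
  refine integral_congr_ae (ae_of_all _ fun R => ?_)
  simp only
  rw [Wq_marginal hT θ ε hA₀ hA hne hsub (fun _ _ _ => rfl) hQ]

end Vale.Agent.Lib.P161
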