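import Vale.Agent.Lib.P161.Noise

/-!
Almost sure limits along fast subsequences of sequences that are Cauchy in `L²`.
-/

open MeasureTheory Filter Topology

noncomputable section
namespace Vale.Agent.Lib.P161

variable {Ω : Type} [MeasurableSpace Ω] {P : Measure Ω} [IsProbabilityMeasure P]

/-- Markov and Borel-Cantelli along a fast sequence. -/
lemma ae_eventually_small {h : ℕ → Ω → ℝ} (hm : ∀ n, Measurable (h n)) {C : ℝ}
    (hb : ∀ n x, |h n x| ≤ C) (hf : ∀ j, ∫ x, (h j x) ^ 2 ∂P ≤ (1 / 16 : ℝ) ^ j) :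
    ∀ᵐ x ∂P, ∀ᶠ j in atTop, |h j x| < (1 / 2 : ℝ) ^ j := by
  let s : ℕ → Set Ω := fun j => {x | (1 / 2 : ℝ) ^ j ≤ |h j x|}
  have hsreal : ∀ j, P.real (s j) ≤ (1 / 4 : ℝ) ^ j := by
    intro j
    have hint : Integrable (fun x => (h j x) ^ 2) P :=
      intg ((hm j).pow_const 2) (C := C ^ 2) (fun x => by
        rw [abs_pow]; exact pow_le_pow_left₀ (abs_nonneg _) (hb j x) 2)
    have h1 := mul_meas_ge_le_integral_of_nonneg (μ := P) (f := fun x => (h j x) ^ 2)
      (ae_of_all _ fun x => sq_nonneg _) hint ((1 / 4 : ℝ) ^ j)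
    have hsub : s j ⊆ {x | (1 / 4 : ℝ) ^ j ≤ (h j x) ^ 2} := by
      intro x hx
      have hx' : (1 / 2 : ℝ) ^ j ≤ |h j x| := hx
      show (1 / 4 : ℝ) ^ j ≤ (h j x) ^ 2
      have e : (1 / 4 : ℝ) ^ j = ((1 / 2 : ℝ) ^ j) ^ 2 := by
        rw [← pow_mul, mul_comm, pow_mul]; norm_num
      rw [e, ← sq_abs (h j x)]
      exact pow_le_pow_left₀ (by positivity) hx' 2
    have h2 : P.real (s j) ≤ P.real {x | (1 / 4 : ℝ) ^ j ≤ (h j x) ^ 2} :=
      measureReal_mono hsub
    have h3 := hf j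
    have e2 : (1 / 16 : ℝ) ^ j = (1 / 4 : ℝ) ^ j * (1 / 4 : ℝ) ^ j := by
      rw [← mul_pow]; norm_num
    have hpos : 0 < (1 / 4 : ℝ) ^ j := by positivity
    have h4 : (1 / 4 : ℝ) ^ j * P.real {x | (1 / 4 : ℝ) ^ j ≤ (h j x) ^ 2}
        ≤ (1 / 4 : ℝ) ^ j * (1 / 4 : ℝ) ^ j := by
      rw [← e2]; exact h1.trans h3
    exact h2.trans (le_of_mul_le_mul_left h4 hpos)
  have hsum : (∑' j, P (s j)) ≠ ⊤ := by
    have hg : Summable (fun j : ℕ => (1 / 4 : ℝ) ^ j) :=
      summable_geometric_of_lt_one (by norm_num) (by norm_num)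
    refine ne_top_of_le_ne_top hg.tsum_ofReal_ne_top ?_
    refine ENNReal.tsum_le_tsum fun j => ?_
    rw [← ofReal_measureReal]
    exact ENNReal.ofReal_le_ofReal (hsreal j)
  filter_upwards [ae_eventually_notMem hsum] with x hx
  filter_upwards [hx] with j hj
  exact not_le.1 hj

/-- Fast sequences converge almost surely. -/
lemma ae_exists_tendsto_of_fast {h : ℕ → Ω → ℝ} (hm : ∀ n, Measurable (h n))
    (hb : ∀ n x, |h n x| ≤ 1) (hf : ∀ j, ∫ x, (h (j + 1) x - h j x) ^ 2 ∂P ≤ (1 / 16 : ℝ) ^ j) :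
    ∀ᵐ x ∂P, ∃ l, Tendsto (fun j => h j x) atTop (𝓝 l) := by
  have hsmall := ae_eventually_small (P := P) (h := fun j x => h (j + 1) x - h j x)
    (fun j => (hm (j + 1)).sub (hm j)) (C := 2)
    (fun j x => (abs_sub _ _).trans (by linarith [hb (j + 1) x, hb j x])) hf
  filter_upwards [hsmall] with x hx
  have hs : Summable (fun j => dist (h j x) (h (j + 1) x)) := by
    have hg : Summable (fun j : ℕ => (1 / 2 : ℝ) ^ j) :=
      summable_geometric_of_lt_one (by norm_num) (by norm_num)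
    refine Summable.of_norm_bounded_eventually_nat hg ?_
    filter_upwards [hx] with j hj
    rw [Real.norm_eq_abs, abs_of_nonneg dist_nonneg, dist_comm, Real.dist_eq]
    exact hj.le
  exact cauchySeq_tendsto_of_complete (cauchySeq_of_summable_dist hs)

/-- Bounded convergence in the form used below. -/
lemma tendsto_integral_bdd {a : ℕ → Ω → ℝ} {b : Ω → ℝ} (hm : ∀ j, Measurable (a j)) {C : ℝ}
    (hb : ∀ j x, |a j x| ≤ C) (hlim : ∀ᵐ x ∂P, Tendsto (fun j => a j x) atTop (𝓝 (b x))) :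
    Tendsto (fun j => ∫ x, a j x ∂P) atTop (𝓝 (∫ x, b x ∂P)) := by
  refine tendsto_integral_of_dominated_convergence (fun _ => C)
    (fun j => (hm j).aestronglyMeasurable) (integrable_const _)
    (fun j => ae_of_all _ fun x => by simpa [Real.norm_eq_abs] using hb j x) hlim

/-- Sequences that are Cauchy in `L²` have almost surely convergent subsequences, uniformly in a
countable family of indices. -/
theorem exists_ae_limit {ι : Type} [Countable ι] {h : ι → ℕ → Ω → ℝ}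
    (hm : ∀ i n, Measurable (h i n)) (hb : ∀ i n x, |h i n x| ≤ 1)
    (hc : ∀ i, ∀ δ > 0, ∃ N, ∀ n m, N ≤ n → N ≤ m → ∫ x, (h i n x - h i m x) ^ 2 ∂P ≤ δ) :
    ∃ (φ : ℕ → ℕ) (H : ι → Ω → ℝ), (∀ j, j ≤ φ j) ∧ (∀ i, Measurable (H i)) ∧
      (∀ i x, |H i x| ≤ 1) ∧ ∀ᵐ x ∂P, ∀ i, Tendsto (fun j => h i (φ j) x) atTop (𝓝 (H i x)) := by
  obtain ⟨e, he⟩ := exists_injective_nat ι
  have hN : ∀ j : ℕ, ∃ N : ℕ, j ≤ N ∧ ∀ i, e i ≤ j → ∀ n m, N ≤ n → N ≤ m →
      ∫ x, (h i n x - h i m x) ^ 2 ∂P ≤ (1 / 16 : ℝ) ^ j := by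
    intro j
    have hfin : {i | e i ≤ j}.Finite := (Set.finite_le_nat j).preimage he.injOn
    have hev : ∀ᶠ N in atTop, ∀ i ∈ {i | e i ≤ j}, ∀ n m, N ≤ n → N ≤ m →
        ∫ x, (h i n x - h i m x) ^ 2 ∂P ≤ (1 / 16 : ℝ) ^ j := by
      rw [Filter.eventually_all_finite hfin]
      intro i _
      obtain ⟨N, hN⟩ := hc i _ (by positivity : (0 : ℝ) < (1 / 16 : ℝ) ^ j)
      filter_upwards [eventually_ge_atTop N] with N' hN' n m hn hm'
      exact hN n m (hN'.trans hn) (hN'.trans hm')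
    obtain ⟨N, h1, h2⟩ := (hev.and (eventually_ge_atTop j)).exists
    exact ⟨N, h2, fun i hi => h1 i hi⟩
  choose N hN1 hN2 using hN
  let φ : ℕ → ℕ := fun j => (Finset.range (j + 1)).sup N
  have hφN : ∀ j, N j ≤ φ j := fun j =>
    Finset.le_sup (f := N) (Finset.mem_range.2 (Nat.lt_succ_self j))
  have hφmono : Monotone φ := by
    intro a b hab
    apply Finset.sup_mono
    intro x hx
    rw [Finset.mem_range] at hx ⊢
    omega
  have hconv : ∀ i, ∀ᵐ x ∂P, ∃ l, Tendsto (fun j => h i (φ j) x) atTop (𝓝 l) := by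
    intro i
    have := ae_exists_tendsto_of_fast (P := P) (h := fun j => h i (φ (j + e i)))
      (fun j => hm i _) (fun j x => hb i _ x) (fun j => ?_)
    · filter_upwards [this] with x hx
      obtain ⟨l, hl⟩ := hx
      exact ⟨l, (tendsto_add_atTop_iff_nat (f := fun j => h i (φ j) x) (e i)).1 hl⟩
    · have h1 := hN2 (j + e i) i (by omega) (φ (j + 1 + e i)) (φ (j + e i))
        ((hφN _).trans (hφmono (by omega))) (hφN _)
      refine h1.trans ?_
      exact pow_le_pow_of_le_one (by norm_num) (by norm_num) (by omega)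
  have hall : ∀ᵐ x ∂P, ∀ i, ∃ l, Tendsto (fun j => h i (φ j) x) atTop (𝓝 l) :=
    ae_all_iff.2 hconv
  refine ⟨φ, fun i x => cl (limsup (fun j => h i (φ j) x) atTop), ?_, ?_, ?_, ?_⟩
  · intro j
    exact (hN1 j).trans (hφN j)
  · intro i
    exact measurable_cl.comp (Measurable.limsup fun j => hm i (φ j))
  · intro i x
    exact abs_cl_le _
  · filter_upwards [hall] with x hx i
    obtain ⟨l, hl⟩ := hx i
    have hlim := hl.limsup_eq
    simp only [hlim]
    have hl1 : |l| ≤ 1 := by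
      refine le_of_tendsto hl.abs (Eventually.of_forall fun j => hb i _ x)
    rw [cl_of_mem (abs_le.1 hl1)]
    exact hl

end Vale.Agent.Lib.P161
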