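import Vale.Agent.Lib.P161.Channel

/-!
The product noise: resampling a coordinate, and an Efron-Stein estimate for functions that are
Lipschitz in the clamped coordinates.
-/

open MeasureTheory Set

noncomputable section
namespace Vale.Agent.Lib.P161

/-- bounded measurable functions are integrable -/
lemma intg {α : Type*} [MeasurableSpace α] {μ : Measure α} [IsFiniteMeasure μ] {F : α → ℝ}
    (hF : Measurable F) {C : ℝ} (hb : ∀ x, |F x| ≤ C) : Integrable F μ :=
  Integrable.of_bound hF.aestronglyMeasurable C (ae_of_all _ fun x => by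
    simpa [Real.norm_eq_abs] using hb x)

variable {ι : Type} [DecidableEq ι]

/-- The product noise on `ι → ℝ`. -/
def noise (ι : Type) : Measure (ι → ℝ) := Measure.infinitePi (fun _ : ι => lam)

instance : IsProbabilityMeasure (noise ι) := by
  unfold noise; infer_instance

lemma noise_update_map (j : ι) :
    ((noise ι).prod lam).map (fun p : (ι → ℝ) × ℝ => Function.update p.1 j p.2) = noise ι := by
  apply Measure.eq_infinitePi
  intro s t ht
  rw [Measure.map_apply measurable_update' (MeasurableSet.pi s.countable_toSet (fun i _ => ht i))]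
  have hpre : (fun p : (ι → ℝ) × ℝ => Function.update p.1 j p.2) ⁻¹' (Set.pi s t)
      = (Set.pi (↑(s.erase j)) t) ×ˢ (if j ∈ s then t j else Set.univ) := by
    ext ⟨R, x⟩
    simp only [Set.mem_preimage, Set.mem_pi, Finset.mem_coe, Set.mem_prod, Finset.mem_erase]
    constructor
    · intro h
      refine ⟨fun i hi => ?_, ?_⟩
      · have := h i hi.2
        rwa [Function.update_of_ne hi.1] at this
      · by_cases hj : j ∈ s
        · rw [if_pos hj]
          simpa using h j hj
        · rw [if_neg hj]; exact Set.mem_univ _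
    · rintro ⟨h1, h2⟩ i hi
      by_cases hij : i = j
      · subst hij
        rw [if_pos hi] at h2
        simpa using h2
      · rw [Function.update_of_ne hij]
        exact h1 i ⟨hij, hi⟩
  rw [hpre, Measure.prod_prod, noise, Measure.infinitePi_pi _ (fun i _ => ht i)]
  by_cases hj : j ∈ s
  · rw [if_pos hj, Finset.prod_erase_mul _ _ hj]
  · rw [if_neg hj, Finset.erase_eq_of_notMem hj, measure_univ, mul_one]

/-- Resampling a coordinate. -/
theorem integral_resample (j : ι) {F : (ι → ℝ) → ℝ} (hF : Measurable F) {C : ℝ}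
    (hb : ∀ R, |F R| ≤ C) :
    ∫ R, F R ∂noise ι = ∫ R, (∫ t, F (Function.update R j t) ∂lam) ∂noise ι := by
  have hFu : Measurable (fun p : (ι → ℝ) × ℝ => F (Function.update p.1 j p.2)) :=
    hF.comp measurable_update'
  have hint : Integrable (fun p : (ι → ℝ) × ℝ => F (Function.update p.1 j p.2))
      ((noise ι).prod lam) := intg hFu (fun p => hb _)
  conv_lhs => rw [← noise_update_map j]
  rw [integral_map measurable_update'.aemeasurable hF.aestronglyMeasurable]
  exact integral_prod _ hint

/-- integrating out one coordinate -/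
def avg (j : ι) (F : (ι → ℝ) → ℝ) (R : ι → ℝ) : ℝ := ∫ t, F (Function.update R j t) ∂lam

lemma measurable_avg (j : ι) {F : (ι → ℝ) → ℝ} (hF : Measurable F) : Measurable (avg j F) := by
  have h : StronglyMeasurable
      (Function.uncurry fun (R : ι → ℝ) (t : ℝ) => F (Function.update R j t)) :=
    (hF.comp measurable_update').stronglyMeasurable
  exact (h.integral_prod_right (ν := lam)).measurable

lemma abs_avg_le (j : ι) {F : (ι → ℝ) → ℝ} {C : ℝ} (hb : ∀ R, |F R| ≤ C) (R : ι → ℝ) :
    |avg j F R| ≤ C := by
  have := norm_integral_le_of_norm_le_const (μ := lam) (f := fun t => F (Function.update R j t))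
    (C := C) (ae_of_all _ fun t => by simpa [Real.norm_eq_abs] using hb _)
  simpa [Real.norm_eq_abs, avg] using this

lemma avg_update_same (j : ι) (F : (ι → ℝ) → ℝ) (R : ι → ℝ) (s : ℝ) :
    avg j F (Function.update R j s) = avg j F R := by
  unfold avg
  simp

lemma avg_of_indep (j : ι) {F : (ι → ℝ) → ℝ} (h : ∀ R t, F (Function.update R j t) = F R)
    (R : ι → ℝ) : avg j F R = F R := by
  unfold avg
  simp [h]

lemma avg_indep_of_indep {j l : ι} (hjl : j ≠ l) {F : (ι → ℝ) → ℝ}
    (h : ∀ R t, F (Function.update R l t) = F R) (R : ι → ℝ) (s : ℝ) :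
    avg j F (Function.update R l s) = avg j F R := by
  unfold avg
  congr 1
  funext t
  rw [Function.update_comm hjl.symm, h]

/-- Orthogonality: averaging in a coordinate on which `h` does not depend. -/
lemma integral_avg_mul (j : ι) {F h : (ι → ℝ) → ℝ} (hF : Measurable F) (hh : Measurable h)
    {C D : ℝ} (hbF : ∀ R, |F R| ≤ C) (hbh : ∀ R, |h R| ≤ D)
    (hind : ∀ R t, h (Function.update R j t) = h R) :
    ∫ R, avg j F R * h R ∂noise ι = ∫ R, F R * h R ∂noise ι := by
  have hC : 0 ≤ C := (abs_nonneg _).trans (hbF (fun _ => 0))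
  have hD : 0 ≤ D := (abs_nonneg _).trans (hbh (fun _ => 0))
  rw [integral_resample j (F := fun R => F R * h R) (hF.mul hh) (C := C * D) (fun R => by
    rw [abs_mul]; exact mul_le_mul (hbF R) (hbh R) (abs_nonneg _) hC)]
  refine integral_congr_ae (ae_of_all _ fun R => ?_)
  simp only [hind, avg]
  rw [integral_mul_const]

/-- Lipschitz in the clamped coordinates of a finite set. -/
def LipOn (J : Finset ι) (T : ι → ℝ) (F : (ι → ℝ) → ℝ) : Prop :=
  ∀ R R' : ι → ℝ, |F R - F R'| ≤ ∑ l ∈ J, T l * |cl (R l) - cl (R' l)|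

lemma LipOn.indep {J : Finset ι} {T : ι → ℝ} {F : (ι → ℝ) → ℝ} (h : LipOn J T F) {l : ι}
    (hl : l ∉ J) (R : ι → ℝ) (t : ℝ) : F (Function.update R l t) = F R := by
  have := h (Function.update R l t) R
  have e : ∑ k ∈ J, T k * |cl (Function.update R l t k) - cl (R k)| = 0 := by
    refine Finset.sum_eq_zero fun k hk => ?_
    have : k ≠ l := fun h => hl (h ▸ hk)
    simp [Function.update_of_ne this]
  rw [e] at this
  have h2 := abs_nonpos_iff.1 this
  linarith

lemma LipOn.avg {J : Finset ι} {T : ι → ℝ} {F : (ι → ℝ) → ℝ} (h : LipOn J T F)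
    (hF : Measurable F) {C : ℝ} (hb : ∀ R, |F R| ≤ C) (j : ι) :
    LipOn (J.erase j) T (avg j F) := by
  intro R R'
  have hint : ∀ S : ι → ℝ, Integrable (fun t => F (Function.update S j t)) lam := fun S =>
    intg (hF.comp (measurable_update S)) (fun t => hb _)
  unfold Vale.Agent.Lib.P161.avg
  rw [← integral_sub (hint R) (hint R')]
  have := norm_integral_le_of_norm_le_const (μ := lam)
    (f := fun t => F (Function.update R j t) - F (Function.update R' j t))
    (C := ∑ l ∈ J.erase j, T l * |cl (R l) - cl (R' l)|) (ae_of_all _ fun t => by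
      rw [Real.norm_eq_abs]
      refine (h _ _).trans (le_of_eq ?_)
      by_cases hj : j ∈ J
      · rw [← Finset.add_sum_erase J _ hj]
        simp only [Function.update_self, sub_self, abs_zero, mul_zero, zero_add]
        refine Finset.sum_congr rfl fun l hl => ?_
        rw [Function.update_of_ne (Finset.ne_of_mem_erase hl),
          Function.update_of_ne (Finset.ne_of_mem_erase hl)]
      · rw [Finset.erase_eq_of_notMem hj]
        refine Finset.sum_congr rfl fun l hl => ?_
        have : l ≠ j := fun h => hj (h ▸ hl)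
        rw [Function.update_of_ne this, Function.update_of_ne this])
  simpa [Real.norm_eq_abs] using this

/-- A single-coordinate average differs from the function by at most `2 T_j`. -/
lemma abs_sub_avg_le {J : Finset ι} {T : ι → ℝ} {F : (ι → ℝ) → ℝ} (h : LipOn J T F)
    (hF : Measurable F) {C : ℝ} (hb : ∀ R, |F R| ≤ C) (hT : ∀ l, 0 ≤ T l) (j : ι) (R : ι → ℝ) :
    |F R - Vale.Agent.Lib.P161.avg j F R| ≤ 2 * T j := by
  have hint : Integrable (fun t => F (Function.update R j t)) lam :=
    intg (hF.comp (measurable_update R)) (fun t => hb _)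
  have e : F R - Vale.Agent.Lib.P161.avg j F R = ∫ t, (F R - F (Function.update R j t)) ∂lam := by
    unfold Vale.Agent.Lib.P161.avg
    rw [integral_sub (integrable_const _) hint]
    simp
  rw [e]
  have := norm_integral_le_of_norm_le_const (μ := lam)
    (f := fun t => F R - F (Function.update R j t)) (C := 2 * T j) (ae_of_all _ fun t => by
      rw [Real.norm_eq_abs]
      refine (h _ _).trans ?_
      have hzero : ∀ l ∈ J, l ≠ j → T l * |cl (R l) - cl (Function.update R j t l)| = 0 := by
        intro l _ hl
        simp [Function.update_of_ne hl]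
      by_cases hj : j ∈ J
      · rw [← Finset.add_sum_erase J _ hj, Finset.sum_eq_zero
          (fun l hl => hzero l (Finset.mem_of_mem_erase hl) (Finset.ne_of_mem_erase hl))]
        simp only [Function.update_self, add_zero]
        have h1 : |cl (R j) - cl t| ≤ 2 := (abs_sub _ _).trans (by
          have := abs_cl_le (R j); have := abs_cl_le t; linarith)
        rw [mul_comm]
        exact mul_le_mul_of_nonneg_right h1 (hT j)
      · rw [Finset.sum_eq_zero (fun l hl => hzero l hl (fun h => hj (h ▸ hl)))]
        have := hT j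
        linarith)
  simpa [Real.norm_eq_abs] using this

/-- The Efron-Stein estimate: integrating out the coordinates of `L`. -/
theorem efron_stein {J : Finset ι} {T : ι → ℝ} {F : (ι → ℝ) → ℝ} (h : LipOn J T F)
    (hF : Measurable F) {C : ℝ} (hb : ∀ R, |F R| ≤ C) (hT : ∀ l, 0 ≤ T l) (L : Finset ι) :
    ∃ φ : (ι → ℝ) → ℝ, Measurable φ ∧ (∀ R, |φ R| ≤ C) ∧ LipOn (J \ L) T φ ∧
      (∀ g : (ι → ℝ) → ℝ, Measurable g → (∃ D, ∀ R, |g R| ≤ D) →
        (∀ l ∈ L, ∀ R t, g (Function.update R l t) = g R) →
          ∫ R, (F R - φ R) * g R ∂noise ι = 0) ∧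
      ∫ R, (F R - φ R) ^ 2 ∂noise ι ≤ ∑ j ∈ J ∩ L, (2 * T j) ^ 2 := by
  induction L using Finset.induction_on with
  | empty =>
    refine ⟨F, hF, hb, by simpa using h, ?_, by simp⟩
    intro g _ _ _
    simp
  | insert j L hj ih =>
    obtain ⟨φ, hφm, hφb, hφL, hφo, hφs⟩ := ih
    have hC : 0 ≤ C := (abs_nonneg _).trans (hb (fun _ => 0))
    -- the new function
    have hL' : LipOn ((J \ L).erase j) T (Vale.Agent.Lib.P161.avg j φ) := hφL.avg hφm hφb j
    have hsd : (J \ L).erase j = J \ insert j L := by
      ext x; simp only [Finset.mem_erase, Finset.mem_sdiff, Finset.mem_insert]; tauto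
    rw [hsd] at hL'
    have hbavg := abs_avg_le j hφb
    have hmavg := measurable_avg j hφm
    refine ⟨_, hmavg, hbavg, hL', ?_, ?_⟩
    · intro g hg ⟨D, hD⟩ hgi
      have h1 := hφo g hg ⟨D, hD⟩ (fun l hl => hgi l (Finset.mem_insert_of_mem hl))
      have h2 := integral_avg_mul j hφm hg hφb hD (hgi j (Finset.mem_insert_self _ _))
      have hD0 : 0 ≤ D := (abs_nonneg _).trans (hD (fun _ => 0))
      have i1 : Integrable (fun R => (F R - φ R) * g R) (noise ι) :=
        intg ((hF.sub hφm).mul hg) (C := (C + C) * D) (fun R => by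
          rw [abs_mul]
          exact mul_le_mul ((abs_sub _ _).trans (add_le_add (hb R) (hφb R))) (hD R) (abs_nonneg _)
            (by linarith))
      have i2 : Integrable (fun R => φ R * g R) (noise ι) :=
        intg (hφm.mul hg) (C := C * D) (fun R => by
          rw [abs_mul]; exact mul_le_mul (hφb R) (hD R) (abs_nonneg _) hC)
      have i3 : Integrable (fun R => Vale.Agent.Lib.P161.avg j φ R * g R) (noise ι) :=
        intg (hmavg.mul hg) (C := C * D) (fun R => by
          rw [abs_mul]; exact mul_le_mul (hbavg R) (hD R) (abs_nonneg _) hC)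
      have e : ∀ R, (F R - Vale.Agent.Lib.P161.avg j φ R) * g R
          = (F R - φ R) * g R + (φ R * g R - Vale.Agent.Lib.P161.avg j φ R * g R) := fun R => by ring
      simp_rw [e]
      have i23 : Integrable (fun R => φ R * g R - Vale.Agent.Lib.P161.avg j φ R * g R) (noise ι) :=
        i2.sub i3
      rw [integral_add i1 i23, integral_sub i2 i3, h1, h2]
      ring
    · -- Pythagoras
      set d₁ : (ι → ℝ) → ℝ := fun R => F R - φ R with hd₁
      set d₂ : (ι → ℝ) → ℝ := fun R => φ R - Vale.Agent.Lib.P161.avg j φ R with hd₂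
      have md₁ : Measurable d₁ := hF.sub hφm
      have md₂ : Measurable d₂ := hφm.sub hmavg
      have bd₁ : ∀ R, |d₁ R| ≤ C + C := fun R => (abs_sub _ _).trans (add_le_add (hb R) (hφb R))
      have bd₂ : ∀ R, |d₂ R| ≤ C + C := fun R => (abs_sub _ _).trans (add_le_add (hφb R) (hbavg R))
      -- `d₂` does not depend on the coordinates in `L`
      have ind₂ : ∀ l ∈ L, ∀ R t, d₂ (Function.update R l t) = d₂ R := by
        intro l hl R t
        have hlJ : l ∉ J \ L := fun hh => (Finset.mem_sdiff.1 hh).2 hl
        have hlj : j ≠ l := fun hh => hj (hh ▸ hl)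
        simp only [hd₂]
        rw [hφL.indep hlJ, avg_indep_of_indep hlj (hφL.indep hlJ)]
      have horth : ∫ R, d₁ R * d₂ R ∂noise ι = 0 := hφo d₂ md₂ ⟨_, bd₂⟩ ind₂
      have hs1 : ∀ {d : (ι → ℝ) → ℝ}, Measurable d → (∀ R, |d R| ≤ C + C) →
          Integrable (fun R => d R ^ 2) (noise ι) := by
        intro d md bd
        refine intg (md.pow_const 2) (C := (C + C) ^ 2) (fun R => ?_)
        rw [abs_pow]
        exact pow_le_pow_left₀ (abs_nonneg _) (bd R) 2
      have i12 : Integrable (fun R => d₁ R * d₂ R) (noise ι) :=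
        intg (md₁.mul md₂) (C := (C + C) * (C + C)) (fun R => by
          rw [abs_mul]
          exact mul_le_mul (bd₁ R) (bd₂ R) (abs_nonneg _) (by linarith))
      have e : ∀ R, (F R - Vale.Agent.Lib.P161.avg j φ R) ^ 2
          = d₁ R ^ 2 + (2 * (d₁ R * d₂ R) + d₂ R ^ 2) := fun R => by
        simp only [hd₁, hd₂]; ring
      simp_rw [e]
      have i12c : Integrable (fun R => 2 * (d₁ R * d₂ R)) (noise ι) := i12.const_mul 2
      have i2c : Integrable (fun R => 2 * (d₁ R * d₂ R) + d₂ R ^ 2) (noise ι) :=
        i12c.add (hs1 md₂ bd₂)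
      rw [integral_add (hs1 md₁ bd₁) i2c, integral_add i12c (hs1 md₂ bd₂), integral_const_mul, horth]
      -- bound for `d₂`
      by_cases hjJ : j ∈ J
      · have hinter : J ∩ insert j L = insert j (J ∩ L) := by
          ext x; simp only [Finset.mem_inter, Finset.mem_insert]
          constructor
          · rintro ⟨h1, h2 | h2⟩
            · exact Or.inl h2
            · exact Or.inr ⟨h1, h2⟩
          · rintro (h1 | ⟨h1, h2⟩)
            · exact ⟨h1 ▸ hjJ, Or.inl h1⟩
            · exact ⟨h1, Or.inr h2⟩
        have hnot : j ∉ J ∩ L := fun hh => hj (Finset.mem_inter.1 hh).2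
        rw [hinter, Finset.sum_insert hnot]
        have hd2 : ∫ R, d₂ R ^ 2 ∂noise ι ≤ (2 * T j) ^ 2 := by
          have := norm_integral_le_of_norm_le_const (μ := noise ι) (f := fun R => d₂ R ^ 2)
            (C := (2 * T j) ^ 2) (ae_of_all _ fun R => by
              rw [Real.norm_eq_abs, abs_pow]
              exact pow_le_pow_left₀ (abs_nonneg _) (abs_sub_avg_le hφL hφm hφb hT j R) 2)
          have hreal : (noise ι).real Set.univ = 1 := by simp [Measure.real]
          rw [hreal, mul_one, Real.norm_eq_abs] at this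
          exact (le_abs_self _).trans this
        linarith
      · have hinter : J ∩ insert j L = J ∩ L := by
          ext x; simp only [Finset.mem_inter, Finset.mem_insert]
          constructor
          · rintro ⟨h1, h2 | h2⟩
            · exact absurd (h2 ▸ h1) hjJ
            · exact ⟨h1, h2⟩
          · rintro ⟨h1, h2⟩
            exact ⟨h1, Or.inr h2⟩
        rw [hinter]
        have hjn : j ∉ J \ L := fun hh => hjJ (Finset.mem_sdiff.1 hh).1
        have hzero : ∀ R, d₂ R = 0 := by
          intro R
          simp only [hd₂]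
          rw [avg_of_indep j (hφL.indep hjn)]
          ring
        simp only [hzero]
        simpa using hφs

end Vale.Agent.Lib.P161
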