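import Vale.Agent.Lib.P161.Law

/-!
Martingale orthogonality of the conditional means for nested volumes.
-/

open MeasureTheory Finset

noncomputable section
namespace Vale.Agent.Lib.P161

open scoped Classical

variable {V : Type} {G : SimpleGraph V}

/-- second moment of the conditional mean at a step -/
def bb (G : SimpleGraph V) (θ ε : ℝ) (A : Finset V) (τ : V → ℝ) (k : St V) : ℝ :=
  ∫ R, stepM G θ ε A τ k (yA G θ ε A τ R) ^ 2 ∂noise (St V)

lemma Prior_subset {A₀ A : Finset V} (h : A₀ ⊆ A) (τ : V → ℝ) (k : St V) :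
    Prior A₀ τ k ⊆ Prior A τ k := by
  intro j hj
  obtain ⟨h1, h2⟩ := mem_Prior.1 hj
  exact mem_Prior.2 ⟨h h1, h2⟩

lemma refl_eq_of_subset {Q Q' : Finset (St V)} (h : Q ⊆ Q') (R : St V → ℝ) {j : St V} (hj : j ∈ Q) :
    refl Q' R j = refl Q R j := by
  simp [refl, hj, h hj]

lemma abs_stepM_le {θ : ℝ} (h0 : 0 ≤ θ) (h1 : θ < 1) (ε : ℝ) (A : Finset V) (τ : V → ℝ) (k : St V)
    (y : St V → ℝ) : |stepM G θ ε A τ k y| ≤ 1 := abs_Mt_le h0 h1 A k.2 _

section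
variable (hT : G.IsTree) {θ ε : ℝ} (h0 : 0 ≤ θ) (h1 : θ < 1) (he0 : 0 ≤ ε) (he1 : ε < 1)
  {A₀ A : Finset V} (hA₀ : Conv G A₀) (hA : Conv G A) (hsub : A₀ ⊆ A)
  {τ : V → ℝ} (hτ : Set.InjOn τ A) {k : St V} (hk : k.2 ∈ A₀)
  {g : (St V → ℝ) → ℝ} (hg : Measurable g) {D : ℝ} (hgb : ∀ y, |g y| ≤ D)
  (hgd : ∀ y y' : St V → ℝ, (∀ j ∈ Prior A₀ τ k, y j = y' j) → g y = g y')
include hT h0 h1 he0 he1 hA₀ hA hsub hτ hk hg hgb hgd

/-- The large volume conditional mean against a function of the small volume past. -/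
lemma integral_stepM_big :
    ∫ R, stepM G θ ε A τ k (yA G θ ε A τ R) * g (yA G θ ε A τ R) ∂noise (St V)
      = ∫ R, g (refl (Prior A₀ τ k) R) * Nq G θ ε A₀ k.2 (Prior A₀ τ k) (refl (Prior A₀ τ k) R)
          ∂noise (St V) := by
  have hkA : k.2 ∈ A := hsub hk
  have hneA : A.Nonempty := ⟨_, hkA⟩
  have hD : 0 ≤ D := (abs_nonneg _).trans (hgb (fun _ => 0))
  set Q := Prior A τ k with hQ
  set Q₀ := Prior A₀ τ k with hQ₀
  have hQQ : Q₀ ⊆ Q := Prior_subset hsub τ k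
  have hQA : ∀ j ∈ Q, j.2 ∈ A := fun j hj => (mem_Prior.1 hj).1
  have hf : Measurable (fun y => stepM G θ ε A τ k y * g y) :=
    (measurable_stepM_right θ ε A τ k).mul hg
  have hfb : ∀ y, |stepM G θ ε A τ k y * g y| ≤ 1 * D := fun y => by
    rw [abs_mul]
    exact mul_le_mul (abs_stepM_le h0 h1 ε A τ k y) (hgb y) (abs_nonneg _) (by norm_num)
  have hfd : ∀ y y' : St V → ℝ, (∀ j ∈ Q, y j = y' j) →
      stepM G θ ε A τ k y * g y = stepM G θ ε A τ k y' * g y' := fun y y' h => by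
    rw [stepM_congr h, hgd y y' (fun j hj => h j (hQQ hj))]
  have hlaw := law_yA hT h0 h1 he0 he1 hA hA hneA subset_rfl hτ hQA hf hfb hfd
  rw [hlaw]
  have e1 : ∀ R, stepM G θ ε A τ k (refl Q R) * g (refl Q R) * Zq G θ ε A Q (refl Q R)
      = g (refl Q₀ R) * Wq G θ ε A (fun σ => σ k.2) Q (refl Q R) := by
    intro R
    have h2 : stepM G θ ε A τ k (refl Q R) * Zq G θ ε A Q (refl Q R)
        = Wq G θ ε A (fun σ => σ k.2) Q (refl Q R) :=
      stepM_mul_Zq (G := G) (A := A) h0 h1 he0 he1 τ k (y := refl Q R)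
        (fun j _ => abs_refl_le _ _ _)
    have h3 : g (refl Q R) = g (refl Q₀ R) := hgd _ _ fun j hj => refl_eq_of_subset hQQ R hj
    rw [h3]
    calc _ = g (refl Q₀ R) * (stepM G θ ε A τ k (refl Q R) * Zq G θ ε A Q (refl Q R)) := by ring
      _ = _ := by rw [h2]
  simp only [e1]
  have hout := integral_out (G := G) hT h0 h1 he0 he1 hA hneA (F := fun σ => σ k.2)
    (fun s => by simp [abs_sgn]) hQQ (g := fun R => g (refl Q₀ R)) (hg.comp (measurable_refl Q₀))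
    (fun R => hgb _) (fun j hj R t => by
      rw [refl_update_notMem (Finset.mem_sdiff.1 hj).2])
  refine hout.trans ?_
  refine integral_congr_ae (ae_of_all _ fun R => ?_)
  simp only
  rw [Wq_marginal hT θ ε hA₀ hA ⟨_, hk⟩ hsub (F := fun σ => σ k.2)
    (fun σ σ' h => h _ hk) (fun j hj => (mem_Prior.1 hj).1)]

/-- The small volume conditional mean against a function of the small volume past. -/
lemma integral_stepM_small :
    ∫ R, stepM G θ ε A₀ τ k (yA G θ ε A τ R) * g (yA G θ ε A τ R) ∂noise (St V)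
      = ∫ R, g (refl (Prior A₀ τ k) R) * Nq G θ ε A₀ k.2 (Prior A₀ τ k) (refl (Prior A₀ τ k) R)
          ∂noise (St V) := by
  have hD : 0 ≤ D := (abs_nonneg _).trans (hgb (fun _ => 0))
  set Q₀ := Prior A₀ τ k with hQ₀
  have hQA : ∀ j ∈ Q₀, j.2 ∈ A₀ := fun j hj => (mem_Prior.1 hj).1
  have hf : Measurable (fun y => stepM G θ ε A₀ τ k y * g y) :=
    (measurable_stepM_right θ ε A₀ τ k).mul hg
  have hfb : ∀ y, |stepM G θ ε A₀ τ k y * g y| ≤ 1 * D := fun y => by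
    rw [abs_mul]
    exact mul_le_mul (abs_stepM_le h0 h1 ε A₀ τ k y) (hgb y) (abs_nonneg _) (by norm_num)
  have hfd : ∀ y y' : St V → ℝ, (∀ j ∈ Q₀, y j = y' j) →
      stepM G θ ε A₀ τ k y * g y = stepM G θ ε A₀ τ k y' * g y' := fun y y' h => by
    rw [stepM_congr h, hgd y y' h]
  have hlaw := law_yA hT h0 h1 he0 he1 hA₀ hA ⟨_, hk⟩ hsub hτ hQA hf hfb hfd
  rw [hlaw]
  refine integral_congr_ae (ae_of_all _ fun R => ?_)
  simp only
  have h2 : stepM G θ ε A₀ τ k (refl Q₀ R) * Zq G θ ε A₀ Q₀ (refl Q₀ R)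
      = Nq G θ ε A₀ k.2 Q₀ (refl Q₀ R) :=
    stepM_mul_Zq (G := G) h0 h1 he0 he1 τ k (A := A₀) (y := refl Q₀ R)
      (fun j _ => abs_refl_le _ _ _)
  calc _ = g (refl Q₀ R) * (stepM G θ ε A₀ τ k (refl Q₀ R) * Zq G θ ε A₀ Q₀ (refl Q₀ R)) := by ring
    _ = _ := by rw [h2]

end

section
variable (hT : G.IsTree) {θ ε : ℝ} (h0 : 0 ≤ θ) (h1 : θ < 1) (he0 : 0 ≤ ε) (he1 : ε < 1)
  {A₀ A : Finset V} (hA₀ : Conv G A₀) (hA : Conv G A) (hsub : A₀ ⊆ A)
  {τ : V → ℝ} (hτ : Set.InjOn τ A) {k : St V} (hk : k.2 ∈ A₀)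
include hT h0 h1 he0 he1 hA₀ hA hsub hτ hk

/-- **Orthogonality.** -/
theorem orth_eq :
    ∫ R, (stepM G θ ε A τ k (yA G θ ε A τ R) - stepM G θ ε A₀ τ k (yA G θ ε A τ R)) ^ 2
        ∂noise (St V)
      = bb G θ ε A τ k - bb G θ ε A₀ τ k := by
  have hm : Measurable (stepM G θ ε A₀ τ k) := measurable_stepM_right θ ε A₀ τ k
  have hmA : Measurable (stepM G θ ε A τ k) := measurable_stepM_right θ ε A τ k
  have hb : ∀ y, |stepM G θ ε A₀ τ k y| ≤ 1 := abs_stepM_le h0 h1 ε A₀ τ k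
  have hbA : ∀ y, |stepM G θ ε A τ k y| ≤ 1 := abs_stepM_le h0 h1 ε A τ k
  have hd : ∀ y y' : St V → ℝ, (∀ j ∈ Prior A₀ τ k, y j = y' j) →
      stepM G θ ε A₀ τ k y = stepM G θ ε A₀ τ k y' := fun y y' h => stepM_congr h
  have e1 := integral_stepM_big hT h0 h1 he0 he1 hA₀ hA hsub hτ hk hm hb hd
  have e2 := integral_stepM_small hT h0 h1 he0 he1 hA₀ hA hsub hτ hk hm hb hd
  rw [← e2] at e1
  have hy : Measurable (fun R : St V → ℝ => yA G θ ε A τ R) := measurable_yA_right θ ε A τ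
  set a : (St V → ℝ) → ℝ := fun R => stepM G θ ε A τ k (yA G θ ε A τ R) with ha
  set b : (St V → ℝ) → ℝ := fun R => stepM G θ ε A₀ τ k (yA G θ ε A τ R) with hb'
  have ma : Measurable a := hmA.comp hy
  have mb : Measurable b := hm.comp hy
  have ba : ∀ R, |a R| ≤ 1 := fun R => hbA _
  have bb' : ∀ R, |b R| ≤ 1 := fun R => hb _
  have i1 : Integrable (fun R => a R ^ 2) (noise (St V)) :=
    intg (ma.pow_const 2) (C := 1) (fun R => by
      rw [abs_pow]; exact pow_le_one₀ (abs_nonneg _) (ba R))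
  have i2 : Integrable (fun R => b R ^ 2) (noise (St V)) :=
    intg (mb.pow_const 2) (C := 1) (fun R => by
      rw [abs_pow]; exact pow_le_one₀ (abs_nonneg _) (bb' R))
  have i3 : Integrable (fun R => a R * b R) (noise (St V)) :=
    intg (ma.mul mb) (C := 1) (fun R => by
      rw [abs_mul]
      calc |a R| * |b R| ≤ 1 * 1 := mul_le_mul (ba R) (bb' R) (abs_nonneg _) (by norm_num)
        _ = 1 := by norm_num)
  have e3 : ∀ R, (a R - b R) ^ 2 = a R ^ 2 + (b R ^ 2 - 2 * (a R * b R)) := fun R => by ring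
  have i4 : Integrable (fun R => b R ^ 2 - 2 * (a R * b R)) (noise (St V)) :=
    i2.sub (i3.const_mul 2)
  have i5 : Integrable (fun R => 2 * (a R * b R)) (noise (St V)) := i3.const_mul 2
  show ∫ R, (a R - b R) ^ 2 ∂noise (St V) = _
  simp_rw [e3]
  rw [integral_add i1 i4, integral_sub i2 i5, integral_const_mul]
  have e4 : ∫ R, a R * b R ∂noise (St V) = ∫ R, b R ^ 2 ∂noise (St V) := by
    have : ∫ R, b R ^ 2 ∂noise (St V) = ∫ R, b R * b R ∂noise (St V) := by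
      congr 1; funext R; ring
    rw [this]
    exact e1
  rw [e4]
  -- `∫ b ^ 2` is the small volume second moment
  have e5 : ∫ R, b R ^ 2 ∂noise (St V) = bb G θ ε A₀ τ k := by
    have hQA : ∀ j ∈ Prior A₀ τ k, j.2 ∈ A₀ := fun j hj => (mem_Prior.1 hj).1
    have hf : Measurable (fun y => stepM G θ ε A₀ τ k y ^ 2) := hm.pow_const 2
    have hfb : ∀ y, |stepM G θ ε A₀ τ k y ^ 2| ≤ 1 := fun y => by
      rw [abs_pow]; exact pow_le_one₀ (abs_nonneg _) (hb y)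
    have hfd : ∀ y y' : St V → ℝ, (∀ j ∈ Prior A₀ τ k, y j = y' j) →
        stepM G θ ε A₀ τ k y ^ 2 = stepM G θ ε A₀ τ k y' ^ 2 := fun y y' h => by
      rw [stepM_congr h]
    have l1 := law_yA hT h0 h1 he0 he1 hA₀ hA ⟨_, hk⟩ hsub hτ hQA hf hfb hfd
    have l2 := law_yA hT h0 h1 he0 he1 hA₀ hA₀ ⟨_, hk⟩ subset_rfl
      (hτ.mono (Finset.coe_subset.2 hsub)) hQA hf hfb hfd
    show ∫ R, stepM G θ ε A₀ τ k (yA G θ ε A τ R) ^ 2 ∂noise (St V) = _
    rw [l1]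
    unfold bb
    rw [l2]
  rw [e5]
  unfold bb
  ring

/-- monotonicity of the second moment -/
theorem bb_mono : bb G θ ε A₀ τ k ≤ bb G θ ε A τ k := by
  have h := orth_eq hT h0 h1 he0 he1 hA₀ hA hsub hτ hk
  have h2 : 0 ≤ ∫ R, (stepM G θ ε A τ k (yA G θ ε A τ R) - stepM G θ ε A₀ τ k (yA G θ ε A τ R)) ^ 2
      ∂noise (St V) := integral_nonneg fun R => sq_nonneg _
  linarith

end

lemma bb_le_one {θ : ℝ} (h0 : 0 ≤ θ) (h1 : θ < 1) (ε : ℝ) (A : Finset V) (τ : V → ℝ) (k : St V) :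
    bb G θ ε A τ k ≤ 1 := by
  unfold bb
  have := norm_integral_le_of_norm_le_const (μ := noise (St V))
    (f := fun R => stepM G θ ε A τ k (yA G θ ε A τ R) ^ 2) (C := 1) (ae_of_all _ fun R => by
      rw [Real.norm_eq_abs, abs_pow]
      exact pow_le_one₀ (abs_nonneg _) (abs_stepM_le h0 h1 ε A τ k _))
  have hreal : (noise (St V)).real Set.univ = 1 := by simp [Measure.real]
  rw [hreal, mul_one, Real.norm_eq_abs] at this
  exact (le_abs_self _).trans this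

lemma bb_nonneg (θ ε : ℝ) (A : Finset V) (τ : V → ℝ) (k : St V) : 0 ≤ bb G θ ε A τ k :=
  integral_nonneg fun _ => sq_nonneg _

/-- Inversion: the noise is recovered from the observations, up to the error of the means. -/
lemma abs_cl_sub_Tc_le {θ ε : ℝ} (A₀ A : Finset V) (τ : V → ℝ) (R : St V → ℝ) {k : St V}
    (hk : k.2 ∈ A) (he0 : 0 ≤ ε) (he1 : ε < 1) :
    |cl (R k) - Tc (ε * stepM G θ ε A₀ τ k (yA G θ ε A τ R)) (yA G θ ε A τ R k)|
      ≤ |stepM G θ ε A τ k (yA G θ ε A τ R) - stepM G θ ε A₀ τ k (yA G θ ε A τ R)| := by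
  set m := stepM G θ ε A τ k (yA G θ ε A τ R) with hm
  set m₀ := stepM G θ ε A₀ τ k (yA G θ ε A τ R) with hm₀
  have e := yA_rec (G := G) θ ε τ R hk
  rw [← hm] at e
  have h1 : Tc (ε * m) (yA G θ ε A τ R k) = cl (R k) := by
    rw [e]; exact Tc_Sf _ _
  rw [← h1]
  refine (abs_Tc_sub_param_le _ _ (abs_yA_le θ ε A τ R k)).trans ?_
  rw [← mul_sub, abs_mul, abs_of_nonneg he0]
  have h2 : 0 ≤ |m - m₀| := abs_nonneg _
  nlinarith

end Vale.Agent.Lib.P161
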