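import Vale.Agent.Lib.P161.Fiber

/-!
The sampler commutes with graph automorphisms.
-/

open MeasureTheory Filter Topology Finset

noncomputable section
namespace Vale.Agent.Lib.P161

open scoped Classical

variable {V : Type} {G : SimpleGraph V}

/-- the action on functions on vertices -/
def actV (e : V ≃ V) (τ : V → ℝ) : V → ℝ := fun v => τ (e.symm v)

/-- the action on functions on steps -/
def actS (e : V ≃ V) (R : St V → ℝ) : St V → ℝ := fun k => R (k.1, e.symm k.2)

/-- the action on finite sets -/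
def mapF (e : V ≃ V) (A : Finset V) : Finset V := A.map e.toEmbedding

lemma mem_mapF {e : V ≃ V} {A : Finset V} {u : V} : u ∈ mapF e A ↔ e.symm u ∈ A :=
  Finset.mem_map_equiv

lemma apply_mem_mapF {e : V ≃ V} {A : Finset V} {u : V} : e u ∈ mapF e A ↔ u ∈ A := by
  rw [mem_mapF, Equiv.symm_apply_apply]

lemma mapF_symm_mapF (e : V ≃ V) (A : Finset V) : mapF e (mapF e.symm A) = A := by
  ext u
  rw [mem_mapF, mem_mapF]
  simp

lemma actV_sgn (e : V ≃ V) (s : Finset V) : actV e (sgn s) = sgn (mapF e s) := by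
  funext u
  unfold actV sgn
  simp only [mem_mapF]

lemma actV_apply (e : V ≃ V) (τ : V → ℝ) (v : V) : actV e τ (e v) = τ v := by
  unfold actV
  rw [Equiv.symm_apply_apply]

lemma edgeFactor_map (e : V ≃ V) (θ : ℝ) (σ : V → ℝ) (x : Sym2 V) :
    edgeFactor θ (actV e σ) (Sym2.map e x) = edgeFactor θ σ x := by
  induction x using Sym2.ind with
  | _ a b =>
    rw [Sym2.map_mk, edgeFactor_mk, edgeFactor_mk, actV_apply, actV_apply]

/-- the weight is invariant -/
lemma isingWeight_map {e : V ≃ V} (he : ∀ u x, G.Adj (e u) (e x) ↔ G.Adj u x) (θ : ℝ)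
    (A : Finset V) (σ : V → ℝ) :
    isingWeight G θ (mapF e A) (actV e σ) = isingWeight G θ A σ := by
  unfold isingWeight
  congr 1
  symm
  refine Finset.prod_nbij' (Sym2.map e) (Sym2.map e.symm) ?_ ?_ ?_ ?_ ?_
  · intro x hx
    induction x using Sym2.ind with
    | _ a b =>
      rw [Sym2.map_mk, mem_edgesIn]
      rw [mem_edgesIn] at hx
      exact ⟨apply_mem_mapF.2 hx.1, apply_mem_mapF.2 hx.2.1, (he a b).2 hx.2.2⟩
  · intro x hx
    induction x using Sym2.ind with
    | _ a b =>
      rw [Sym2.map_mk, mem_edgesIn]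
      rw [mem_edgesIn] at hx
      refine ⟨mem_mapF.1 hx.1, mem_mapF.1 hx.2.1, ?_⟩
      have := he (e.symm a) (e.symm b)
      simp only [Equiv.apply_symm_apply] at this
      exact this.1 hx.2.2
  · intro x _
    rw [Sym2.map_map]
    simp
  · intro x _
    rw [Sym2.map_map]
    simp
  · intro x _
    exact (edgeFactor_map e θ σ x).symm

/-- Ising expectations are invariant -/
lemma Ex_map {e : V ≃ V} (he : ∀ u x, G.Adj (e u) (e x) ↔ G.Adj u x) (θ : ℝ)
    (A : Finset V) (F : (V → ℝ) → ℝ) :
    Ex G θ (mapF e A) F = Ex G θ A (fun σ => F (actV e σ)) := by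
  unfold Ex
  symm
  refine Finset.sum_nbij' (mapF e) (mapF e.symm) ?_ ?_ ?_ ?_ ?_
  · intro s hs
    rw [Finset.mem_powerset] at hs ⊢
    intro u hu
    rw [mem_mapF] at hu ⊢
    exact hs hu
  · intro s hs
    rw [Finset.mem_powerset] at hs ⊢
    intro u hu
    rw [mem_mapF] at hu
    have := hs hu
    rw [mem_mapF] at this
    simpa using this
  · intro s _
    have := mapF_symm_mapF e.symm s
    simpa using this
  · intro s _
    exact mapF_symm_mapF e s
  · intro s _
    rw [← actV_sgn, isingWeight_map he]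

lemma tilt_map (e : V ≃ V) (A : Finset V) (X σ : V → ℝ) :
    tilt (mapF e A) (actV e X) (actV e σ) = tilt A X σ := by
  unfold tilt mapF
  rw [Finset.sum_map]
  congr 2
  funext u
  simp [actV]

/-- the tilted magnetisation is equivariant -/
lemma Mt_map {e : V ≃ V} (he : ∀ u x, G.Adj (e u) (e x) ↔ G.Adj u x) (θ : ℝ)
    (A : Finset V) (v : V) (X : V → ℝ) :
    Mt G θ (mapF e A) (e v) (actV e X) = Mt G θ A v X := by
  unfold Mt Nt Zt
  rw [Ex_map he, Ex_map he]
  simp only [tilt_map, actV_apply]

lemma vpos_map (e : V ≃ V) (A : Finset V) (τ : V → ℝ) (v : V) :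
    vpos (mapF e A) (actV e τ) (e v) = vpos A τ v := by
  unfold vpos mapF
  rw [Finset.filter_map, Finset.card_map]
  congr 1
  ext x
  simp [actV]

lemma rk_map (e : V ≃ V) (A : Finset V) (τ : V → ℝ) (i : ℕ) (v : V) :
    rk (mapF e A) (actV e τ) (i, e v) = rk A τ (i, v) := by
  unfold rk
  simp only
  rw [vpos_map]
  unfold mapF
  rw [Finset.card_map]

lemma Xprior_map (e : V ≃ V) (ε : ℝ) (τ : V → ℝ) (i : ℕ) (v : V) (y : St V → ℝ) :
    Xprior ε (actV e τ) (i, e v) (actS e y) = actV e (Xprior ε τ (i, v) y) := by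
  funext u
  unfold Xprior actV actS
  simp

lemma stepM_map {e : V ≃ V} (he : ∀ u x, G.Adj (e u) (e x) ↔ G.Adj u x) (θ ε : ℝ)
    (A : Finset V) (τ : V → ℝ) (i : ℕ) (v : V) (y : St V → ℝ) :
    stepM G θ ε (mapF e A) (actV e τ) (i, e v) (actS e y) = stepM G θ ε A τ (i, v) y := by
  unfold stepM
  simp only
  rw [Xprior_map, Mt_map he]

lemma state_map {e : V ≃ V} (he : ∀ u x, G.Adj (e u) (e x) ↔ G.Adj u x) (θ ε : ℝ)
    (A : Finset V) (τ : V → ℝ) (R : St V → ℝ) (n : ℕ) :
    state G θ ε (mapF e A) (actV e τ) (actS e R) n = actS e (state G θ ε A τ R n) := by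
  induction n with
  | zero =>
    funext k
    simp [state, actS]
  | succ n ih =>
    funext k
    obtain ⟨i, u⟩ := k
    obtain ⟨v, rfl⟩ := e.surjective u
    rw [state_succ, ih]
    have e1 : actS e (state G θ ε A τ R (n + 1)) (i, e v) = state G θ ε A τ R (n + 1) (i, v) := by
      simp [actS]
    rw [e1, state_succ]
    simp only [apply_mem_mapF]
    rw [rk_map]
    by_cases hc : v ∈ A ∧ rk A τ (i, v) = n
    · rw [if_pos hc, if_pos hc, stepM_map he]
      simp [actS]
    · rw [if_neg hc, if_neg hc]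
      simp [actS]

/-- **Equivariance of the sampler.** -/
theorem yA_map {e : V ≃ V} (he : ∀ u x, G.Adj (e u) (e x) ↔ G.Adj u x) (θ ε : ℝ)
    (A : Finset V) (τ : V → ℝ) (R : St V → ℝ) (i : ℕ) (v : V) :
    yA G θ ε (mapF e A) (actV e τ) (actS e R) (i, e v) = yA G θ ε A τ R (i, v) := by
  unfold yA
  rw [rk_map, state_map he]
  simp [actS]

/-! ### distances and convexity -/

lemma dist_map_le (hT : G.IsTree) {e : V ≃ V} (he : ∀ u x, G.Adj (e u) (e x) ↔ G.Adj u x)
    (u v : V) : G.dist (e u) (e v) ≤ G.dist u v := by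
  obtain ⟨p, hp⟩ := (hT.1.preconnected u v).exists_walk_length_eq_dist
  let f : G →g G := ⟨e, fun h => (he _ _).2 h⟩
  have := SimpleGraph.dist_le (p.map f)
  rw [SimpleGraph.Walk.length_map, hp] at this
  exact this

lemma adj_symm {e : V ≃ V} (he : ∀ u x, G.Adj (e u) (e x) ↔ G.Adj u x) (u x : V) :
    G.Adj (e.symm u) (e.symm x) ↔ G.Adj u x := by
  have := he (e.symm u) (e.symm x)
  simp only [Equiv.apply_symm_apply] at this
  exact this.symm

lemma dist_map (hT : G.IsTree) {e : V ≃ V} (he : ∀ u x, G.Adj (e u) (e x) ↔ G.Adj u x)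
    (u v : V) : G.dist (e u) (e v) = G.dist u v := by
  refine le_antisymm (dist_map_le hT he u v) ?_
  have := dist_map_le hT (adj_symm he) (e u) (e v)
  simpa using this

lemma conv_map (hT : G.IsTree) {e : V ≃ V} (he : ∀ u x, G.Adj (e u) (e x) ↔ G.Adj u x)
    {A : Finset V} (hA : Conv G A) : Conv G (mapF e A) := by
  intro u hu x hx z hz
  rw [mem_mapF] at hu hx ⊢
  refine hA _ hu _ hx _ ?_
  have h := adj_symm he
  rw [dist_map hT h, dist_map hT h, dist_map hT h]
  exact hz

/-! ### invariance of the noise -/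

section invariance
variable {ι : Type}

lemma noise_map_perm (e : ι ≃ ι) : (noise ι).map (fun R i => R (e i)) = noise ι := by
  apply Measure.eq_infinitePi
  intro s t ht
  have hm : Measurable (fun (R : ι → ℝ) i => R (e i)) :=
    measurable_pi_iff.2 fun i => measurable_pi_apply _
  rw [Measure.map_apply hm (MeasurableSet.pi s.countable_toSet fun i _ => ht i)]
  have hpre : (fun (R : ι → ℝ) i => R (e i)) ⁻¹' (Set.pi s t)
      = Set.pi (s.map e.toEmbedding) (fun j => t (e.symm j)) := by
    ext R
    simp only [Set.mem_preimage, Set.mem_pi, Finset.mem_coe, Finset.mem_map_equiv]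
    constructor
    · intro h j hj
      have := h _ hj
      simpa using this
    · intro h i hi
      have := h (e i) (by simpa using hi)
      rw [Equiv.symm_apply_apply] at this
      exact this
  rw [hpre, noise, Measure.infinitePi_pi _ (fun j _ => ht _), Finset.prod_map]
  refine Finset.prod_congr rfl fun i _ => ?_
  show lam (t (e.symm (e i))) = lam (t i)
  rw [e.symm_apply_apply]

end invariance

/-- the action on the sample space -/
def act (e : V ≃ V) (ω : Om V) : Om V := (actV e ω.1, actS e ω.2)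

lemma measurable_actV (e : V ≃ V) : Measurable (actV e) :=
  measurable_pi_iff.2 fun i => measurable_pi_apply _

lemma measurable_actS (e : V ≃ V) : Measurable (actS e) :=
  measurable_pi_iff.2 fun i => measurable_pi_apply _

lemma measurable_act (e : V ≃ V) : Measurable (act e) :=
  ((measurable_actV e).comp measurable_fst).prodMk ((measurable_actS e).comp measurable_snd)

lemma map_act (e : V ≃ V) : (topNoise V).map (act e) = topNoise V := by
  have h1 : (noise V).map (actV e) = noise V := noise_map_perm e.symm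
  have h2 : (noise (St V)).map (actS e) = noise (St V) :=
    noise_map_perm (Equiv.prodCongr (Equiv.refl ℕ) e.symm)
  unfold topNoise
  conv_rhs => rw [← h1, ← h2]
  rw [Measure.map_prod_map _ _ (measurable_actV e) (measurable_actS e)]
  rfl

lemma ae_act {e : V ≃ V} {q : Om V → Prop} (h : ∀ᵐ ω ∂topNoise V, q ω) :
    ∀ᵐ ω ∂topNoise V, q (act e ω) := by
  have h' : ∀ᵐ ω ∂(topNoise V).map (act e), q ω := by rwa [map_act]
  exact ae_of_ae_map (measurable_act e).aemeasurable h'

end Vale.Agent.Lib.P161
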