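import Vale.Agent.Lib.P161.Ising
import Vale.Agent.Lib.P161.Noise

/-!
The sequential sampler on a finite convex set: definition, recursion formula, locality,
measurability.
-/

open MeasureTheory Finset

noncomputable section
namespace Vale.Agent.Lib.P161

open scoped Classical

variable {V : Type} {G : SimpleGraph V}

/-- steps: stage and vertex -/
abbrev St (V : Type) := ℕ × V

/-- the field of the observations prior to the step `k` for the order given by `τ` -/
def Xprior (ε : ℝ) (τ : V → ℝ) (k : St V) (y : St V → ℝ) (u : V) : ℝ :=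
  ∑ i ∈ Finset.range k.1, zeta ε (y (i, u)) + (if τ u < τ k.2 then zeta ε (y (k.1, u)) else 0)

/-- position of a vertex in `A` in the order given by `τ` -/
def vpos (A : Finset V) (τ : V → ℝ) (v : V) : ℕ := (A.filter (fun u => τ u < τ v)).card

/-- rank of a step -/
def rk (A : Finset V) (τ : V → ℝ) (k : St V) : ℕ := k.1 * A.card + vpos A τ k.2

/-- the conditional mean of the spin at a step given the past observations, on `A` -/
def stepM (G : SimpleGraph V) (θ ε : ℝ) (A : Finset V) (τ : V → ℝ) (k : St V) (y : St V → ℝ) : ℝ :=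
  Mt G θ A k.2 (Xprior ε τ k y)

/-- the state of the sampler after all steps of rank less than `n` -/
def state (G : SimpleGraph V) (θ ε : ℝ) (A : Finset V) (τ : V → ℝ) (R : St V → ℝ) :
    ℕ → St V → ℝ
  | 0 => fun _ => 0
  | n + 1 => fun k =>
      if k.2 ∈ A ∧ rk A τ k = n then Sf (R k) (ε * stepM G θ ε A τ k (state G θ ε A τ R n))
      else state G θ ε A τ R n k

/-- the output of the sampler on `A` -/
def yA (G : SimpleGraph V) (θ ε : ℝ) (A : Finset V) (τ : V → ℝ) (R : St V → ℝ) (k : St V) : ℝ :=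
  state G θ ε A τ R (rk A τ k + 1) k

lemma state_succ (θ ε : ℝ) (A : Finset V) (τ : V → ℝ) (R : St V → ℝ) (n : ℕ) (k : St V) :
    state G θ ε A τ R (n + 1) k =
      if k.2 ∈ A ∧ rk A τ k = n then Sf (R k) (ε * stepM G θ ε A τ k (state G θ ε A τ R n))
      else state G θ ε A τ R n k := rfl

lemma state_stable (θ ε : ℝ) (A : Finset V) (τ : V → ℝ) (R : St V → ℝ) (n : ℕ) (j : St V) :
    state G θ ε A τ R n j = if j.2 ∈ A ∧ rk A τ j < n then yA G θ ε A τ R j else 0 := by
  induction n with
  | zero => simp [state]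
  | succ n ih =>
    by_cases h : j.2 ∈ A ∧ rk A τ j = n
    · have h' : j.2 ∈ A ∧ rk A τ j < n + 1 := ⟨h.1, by omega⟩
      rw [if_pos h']
      unfold yA
      rw [h.2]
    · rw [state_succ, if_neg h, ih]
      by_cases hj : j.2 ∈ A
      · have : rk A τ j ≠ n := fun e => h ⟨hj, e⟩
        by_cases hlt : rk A τ j < n
        · rw [if_pos ⟨hj, hlt⟩, if_pos ⟨hj, by omega⟩]
        · rw [if_neg (fun e => hlt e.2), if_neg (fun e => by omega)]
      · rw [if_neg (fun e => hj e.1), if_neg (fun e => hj e.1)]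

lemma yA_of_notMem (θ ε : ℝ) {A : Finset V} (τ : V → ℝ) (R : St V → ℝ) {k : St V}
    (hk : k.2 ∉ A) : yA G θ ε A τ R k = 0 := by
  unfold yA
  rw [state_stable, if_neg (fun e => hk e.1)]

lemma vpos_lt_card {A : Finset V} (τ : V → ℝ) {v : V} (hv : v ∈ A) : vpos A τ v < A.card := by
  unfold vpos
  apply Finset.card_lt_card
  refine ⟨Finset.filter_subset _ _, fun h => ?_⟩
  have := h hv
  simp at this

lemma vpos_lt_of_lt {A : Finset V} {τ : V → ℝ} {u v : V} (hu : u ∈ A) (h : τ u < τ v) :
    vpos A τ u < vpos A τ v := by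
  unfold vpos
  apply Finset.card_lt_card
  constructor
  · intro x hx
    simp only [Finset.mem_filter] at hx ⊢
    exact ⟨hx.1, hx.2.trans h⟩
  · intro hsub
    have : u ∈ A.filter (fun x => τ x < τ v) := by simp [hu, h]
    have := hsub this
    simp at this

lemma lt_of_vpos_lt {A : Finset V} {τ : V → ℝ} {u v : V} (h : vpos A τ u < vpos A τ v) :
    τ u < τ v := by
  by_contra hne
  have hle : τ v ≤ τ u := not_lt.1 hne
  have : vpos A τ v ≤ vpos A τ u := by
    unfold vpos
    apply Finset.card_le_card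
    intro x hx
    simp only [Finset.mem_filter] at hx ⊢
    exact ⟨hx.1, lt_of_lt_of_le hx.2 hle⟩
  omega

/-- the order on steps given by the rank -/
lemma rk_lt_iff {A : Finset V} {τ : V → ℝ} {j k : St V} (hj : j.2 ∈ A) (hk : k.2 ∈ A) :
    rk A τ j < rk A τ k ↔ j.1 < k.1 ∨ (j.1 = k.1 ∧ τ j.2 < τ k.2) := by
  have h1 := vpos_lt_card τ hj
  have h2 := vpos_lt_card τ hk
  unfold rk
  set c := A.card
  set a := vpos A τ j.2
  set b := vpos A τ k.2
  constructor
  · intro h
    by_cases hlt : j.1 < k.1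
    · exact Or.inl hlt
    · right
      have hle : k.1 ≤ j.1 := not_lt.1 hlt
      have hmul : k.1 * c ≤ j.1 * c := Nat.mul_le_mul_right c hle
      have heq : j.1 = k.1 := by
        by_contra hne
        have : k.1 + 1 ≤ j.1 := by omega
        have : (k.1 + 1) * c ≤ j.1 * c := Nat.mul_le_mul_right c this
        have e : (k.1 + 1) * c = k.1 * c + c := by ring
        omega
      refine ⟨heq, lt_of_vpos_lt (A := A) ?_⟩
      rw [heq] at h
      show a < b
      omega
  · rintro (h | ⟨h, h'⟩)
    · have : (j.1 + 1) * c ≤ k.1 * c := Nat.mul_le_mul_right c h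
      have e : (j.1 + 1) * c = j.1 * c + c := by ring
      omega
    · rw [h]
      have : a < b := vpos_lt_of_lt hj h'
      omega

/-- injectivity of the rank -/
lemma rk_inj {A : Finset V} {τ : V → ℝ} (hτ : Set.InjOn τ A) {j k : St V} (hj : j.2 ∈ A)
    (hk : k.2 ∈ A) (h : rk A τ j = rk A τ k) : j = k := by
  have h1 : ¬ rk A τ j < rk A τ k := by omega
  have h2 : ¬ rk A τ k < rk A τ j := by omega
  rw [rk_lt_iff hj hk] at h1
  rw [rk_lt_iff hk hj] at h2
  simp only [not_or, not_and, not_lt] at h1 h2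
  have e1 : j.1 = k.1 := by omega
  have e2 : τ j.2 = τ k.2 := le_antisymm (h2.2 e1.symm) (h1.2 e1)
  have e3 : j.2 = k.2 := hτ hj hk e2
  exact Prod.ext e1 e3

/-- the steps prior to `k` on `A` -/
def Prior (A : Finset V) (τ : V → ℝ) (k : St V) : Finset (St V) :=
  ((Finset.range (k.1 + 1)) ×ˢ A).filter (fun j => j.1 < k.1 ∨ (j.1 = k.1 ∧ τ j.2 < τ k.2))

lemma mem_Prior {A : Finset V} {τ : V → ℝ} {k j : St V} :
    j ∈ Prior A τ k ↔ j.2 ∈ A ∧ (j.1 < k.1 ∨ (j.1 = k.1 ∧ τ j.2 < τ k.2)) := by
  unfold Prior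
  simp only [Finset.mem_filter, Finset.mem_product, Finset.mem_range]
  constructor
  · rintro ⟨⟨_, h2⟩, h3⟩
    exact ⟨h2, h3⟩
  · rintro ⟨h2, h3⟩
    refine ⟨⟨?_, h2⟩, h3⟩
    rcases h3 with h | ⟨h, _⟩ <;> omega

/-- `Xprior` only reads prior steps -/
lemma Xprior_congr {ε : ℝ} {τ : V → ℝ} {k : St V} {A : Finset V} {y y' : St V → ℝ}
    (h : ∀ j ∈ Prior A τ k, y j = y' j) {u : V} (hu : u ∈ A) :
    Xprior ε τ k y u = Xprior ε τ k y' u := by
  unfold Xprior
  congr 1
  · refine Finset.sum_congr rfl fun i hi => ?_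
    rw [h (i, u) (mem_Prior.2 ⟨hu, Or.inl (Finset.mem_range.1 hi)⟩)]
  · split_ifs with hlt
    · rw [h (k.1, u) (mem_Prior.2 ⟨hu, Or.inr ⟨rfl, hlt⟩⟩)]
    · rfl

lemma stepM_congr {θ ε : ℝ} {A : Finset V} {τ : V → ℝ} {k : St V} {y y' : St V → ℝ}
    (h : ∀ j ∈ Prior A τ k, y j = y' j) : stepM G θ ε A τ k y = stepM G θ ε A τ k y' := by
  unfold stepM
  exact Mt_congr θ A k.2 (fun u hu => Xprior_congr h hu)

/-- The recursion formula. -/
theorem yA_rec (θ ε : ℝ) {A : Finset V} (τ : V → ℝ) (R : St V → ℝ) {k : St V} (hk : k.2 ∈ A) :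
    yA G θ ε A τ R k = Sf (R k) (ε * stepM G θ ε A τ k (yA G θ ε A τ R)) := by
  conv_lhs => unfold yA
  rw [state_succ, if_pos ⟨hk, rfl⟩]
  congr 2
  apply stepM_congr
  intro j hj
  obtain ⟨hjA, hj'⟩ := mem_Prior.1 hj
  rw [state_stable, if_pos ⟨hjA, (rk_lt_iff hjA hk).2 hj'⟩]

lemma abs_state_le (θ ε : ℝ) (A : Finset V) (τ : V → ℝ) (R : St V → ℝ) (n : ℕ) (k : St V) :
    |state G θ ε A τ R n k| ≤ 1 := by
  induction n with
  | zero => simp [state]
  | succ n ih =>
    rw [state_succ]
    split_ifs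
    · exact abs_Sf_le _ _
    · exact ih

lemma abs_yA_le (θ ε : ℝ) (A : Finset V) (τ : V → ℝ) (R : St V → ℝ) (k : St V) :
    |yA G θ ε A τ R k| ≤ 1 := abs_state_le _ _ _ _ _ _ _

/-- steps of rank less than `n` -/
def Dn (A : Finset V) (τ : V → ℝ) (n : ℕ) : Finset (St V) :=
  ((Finset.range n) ×ˢ A).filter (fun j => rk A τ j < n)

lemma mem_Dn {A : Finset V} {τ : V → ℝ} {n : ℕ} {j : St V} :
    j ∈ Dn A τ n ↔ j.2 ∈ A ∧ rk A τ j < n := by
  unfold Dn
  simp only [Finset.mem_filter, Finset.mem_product, Finset.mem_range]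
  constructor
  · rintro ⟨⟨_, h2⟩, h3⟩
    exact ⟨h2, h3⟩
  · rintro ⟨h2, h3⟩
    refine ⟨⟨?_, h2⟩, h3⟩
    have hc : 0 < A.card := Finset.card_pos.2 ⟨_, h2⟩
    have : j.1 * 1 ≤ j.1 * A.card := Nat.mul_le_mul_left _ hc
    unfold rk at h3
    omega

/-- Locality: the state does not depend on the noise at later steps. -/
lemma state_update (θ ε : ℝ) (A : Finset V) (τ : V → ℝ) (R : St V → ℝ) (n : ℕ) {j : St V}
    (hj : j ∉ Dn A τ n) (t : ℝ) :
    state G θ ε A τ (Function.update R j t) n = state G θ ε A τ R n := by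
  induction n with
  | zero => rfl
  | succ n ih =>
    have hj' : j ∉ Dn A τ n := fun h => hj (by
      obtain ⟨h1, h2⟩ := mem_Dn.1 h
      exact mem_Dn.2 ⟨h1, by omega⟩)
    funext k
    rw [state_succ, state_succ, ih hj']
    split_ifs with hk
    · have : k ≠ j := by
        rintro rfl
        exact hj (mem_Dn.2 ⟨hk.1, by omega⟩)
      rw [Function.update_of_ne this]
    · rfl

/-- the sampler output agrees with the state when the state has passed the step -/
lemma state_eq_yA (θ ε : ℝ) {A : Finset V} (τ : V → ℝ) (R : St V → ℝ) {n : ℕ} {j : St V}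
    (hj : j ∈ Dn A τ n) : state G θ ε A τ R n j = yA G θ ε A τ R j := by
  rw [state_stable, if_pos (mem_Dn.1 hj)]

/-! ### measurability -/

lemma measurable_Mt (θ : ℝ) (A : Finset V) (v : V) : Measurable (Mt G θ A v) := by
  have ht : ∀ σ : V → ℝ, Measurable (fun X : V → ℝ => tilt A X σ) := by
    intro σ
    unfold tilt
    refine Real.measurable_exp.comp (Finset.measurable_sum _ fun u _ => ?_)
    exact (measurable_pi_apply u).mul_const _
  unfold Mt Nt Zt Ex
  refine Measurable.div ?_ ?_
  · refine Finset.measurable_sum _ fun s _ => ?_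
    exact ((ht _).const_mul _).const_mul _
  · refine Finset.measurable_sum _ fun s _ => ?_
    exact (ht _).const_mul _

lemma measurable_Xprior (ε : ℝ) (k : St V) :
    Measurable (fun p : (V → ℝ) × (St V → ℝ) => Xprior ε p.1 k p.2) := by
  refine measurable_pi_iff.2 fun u => ?_
  unfold Xprior
  refine Measurable.add ?_ ?_
  · refine Finset.measurable_sum _ fun i _ => ?_
    exact (measurable_zeta ε).comp ((measurable_pi_apply _).comp measurable_snd)
  · refine Measurable.ite ?_ ?_ measurable_const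
    · exact measurableSet_lt ((measurable_pi_apply _).comp measurable_fst)
        ((measurable_pi_apply _).comp measurable_fst)
    · exact (measurable_zeta ε).comp ((measurable_pi_apply _).comp measurable_snd)

lemma measurable_stepM (θ ε : ℝ) (A : Finset V) (k : St V) :
    Measurable (fun p : (V → ℝ) × (St V → ℝ) => stepM G θ ε A p.1 k p.2) :=
  (measurable_Mt θ A k.2).comp (measurable_Xprior ε k)

lemma measurable_stepM_right (θ ε : ℝ) (A : Finset V) (τ : V → ℝ) (k : St V) :
    Measurable (stepM G θ ε A τ k) := by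
  have h := (measurable_stepM (G := G) θ ε A k).comp (measurable_prodMk_left (x := τ))
  exact h

lemma measurable_vpos (A : Finset V) (v : V) : Measurable (fun τ : V → ℝ => vpos A τ v) := by
  unfold vpos
  simp_rw [Finset.card_filter]
  refine Finset.measurable_sum _ fun u _ => ?_
  refine Measurable.ite ?_ measurable_const measurable_const
  exact measurableSet_lt (measurable_pi_apply _) (measurable_pi_apply _)

lemma measurable_rk (A : Finset V) (k : St V) : Measurable (fun τ : V → ℝ => rk A τ k) := by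
  unfold rk
  exact (measurable_vpos A k.2).const_add _

lemma measurable_Sf : Measurable (fun p : ℝ × ℝ => Sf p.1 p.2) := by
  unfold Sf
  have h : Measurable fun p : ℝ × ℝ => cl p.1 := measurable_cl.comp measurable_fst
  refine Measurable.div ?_ ?_
  · exact measurable_snd.add (h.const_mul 2)
  · refine measurable_const.add (Real.continuous_sqrt.measurable.comp ?_)
    exact (measurable_const.add (measurable_snd.pow_const 2)).add
      ((measurable_snd.const_mul 2).mul h)

lemma measurable_state_step (θ ε : ℝ) (A : Finset V) (n : ℕ) (k : St V)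
    {b : (V → ℝ) × (St V → ℝ) → St V → ℝ} (hb : Measurable b) :
    Measurable (fun p : (V → ℝ) × (St V → ℝ) =>
      if k.2 ∈ A ∧ rk A p.1 k = n then Sf (p.2 k) (ε * stepM G θ ε A p.1 k (b p)) else b p k) := by
  have hbk : Measurable (fun p => b p k) := (measurable_pi_apply k).comp hb
  by_cases hk : k.2 ∈ A
  · simp only [hk, true_and]
    refine Measurable.ite ?_ ?_ hbk
    · exact (measurable_rk A k).comp measurable_fst (measurableSet_singleton n)
    · have h1 : Measurable (fun p : (V → ℝ) × (St V → ℝ) =>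
          ((p.1, b p) : (V → ℝ) × (St V → ℝ))) := measurable_fst.prodMk hb
      have h2 : Measurable (fun p : (V → ℝ) × (St V → ℝ) =>
          stepM G θ ε A p.1 k (b p)) := by
        have := Measurable.comp (measurable_stepM (G := G) θ ε A k) h1
        exact this
      have h3 : Measurable (fun p : (V → ℝ) × (St V → ℝ) =>
          ((p.2 k, ε * stepM G θ ε A p.1 k (b p)) : ℝ × ℝ)) :=
        ((measurable_pi_apply k).comp measurable_snd).prodMk (h2.const_mul ε)
      have := Measurable.comp measurable_Sf h3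
      exact this
  · simp only [hk, false_and, if_false]
    exact hbk

lemma measurable_state (θ ε : ℝ) (A : Finset V) (n : ℕ) :
    Measurable (fun p : (V → ℝ) × (St V → ℝ) => state G θ ε A p.1 p.2 n) := by
  induction n with
  | zero =>
    exact measurable_const
  | succ n ih =>
    refine measurable_pi_iff.2 fun k => ?_
    exact measurable_state_step (G := G) θ ε A n k ih

lemma yA_eq_state (θ ε : ℝ) (A : Finset V) (τ : V → ℝ) (R : St V → ℝ) (k : St V) :
    yA G θ ε A τ R k = state G θ ε A τ R ((k.1 + 1) * A.card + 1) k := by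
  by_cases hk : k.2 ∈ A
  · rw [state_stable, if_pos]
    refine ⟨hk, ?_⟩
    have h1 := vpos_lt_card τ hk
    have e : (k.1 + 1) * A.card = k.1 * A.card + A.card := by ring
    unfold rk
    omega
  · rw [yA_of_notMem θ ε τ R hk, state_stable, if_neg (fun e => hk e.1)]

/-- Joint measurability of the output. -/
lemma measurable_yA (θ ε : ℝ) (A : Finset V) (k : St V) :
    Measurable (fun p : (V → ℝ) × (St V → ℝ) => yA G θ ε A p.1 p.2 k) := by
  simp_rw [yA_eq_state]
  have := Measurable.comp (measurable_pi_apply k)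
    (measurable_state (G := G) θ ε A ((k.1 + 1) * A.card + 1))
  exact this

lemma measurable_yA_right (θ ε : ℝ) (A : Finset V) (τ : V → ℝ) :
    Measurable (fun R : St V → ℝ => yA G θ ε A τ R) :=
  measurable_pi_iff.2 fun k => by
    have := Measurable.comp (measurable_yA (G := G) θ ε A k) (measurable_prodMk_left (x := τ))
    exact this

lemma measurable_state_right (θ ε : ℝ) (A : Finset V) (τ : V → ℝ) (n : ℕ) :
    Measurable (fun R : St V → ℝ => state G θ ε A τ R n) :=
  Measurable.comp (measurable_state (G := G) θ ε A n) (measurable_prodMk_left (x := τ))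

end Vale.Agent.Lib.P161
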